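import Vale.Agent.P022.H390.Fam

/-!
# P022: from an eigenfamily in `V N` to a homomorphism `𝕋₂(N) → 𝒪_E`
-/

namespace Vale.Agent.P022.H390

open UpperHalfPlane ModularForm CongruenceSubgroup Matrix.SpecialLinearGroup
open scoped MatrixGroups ModularForm Manifold TensorProduct Topology

noncomputable section

variable {N : ℕ} [NeZero N] {k : ℕ}

/-- sequences of modular forms, one in each weight -/
abbrev Tup (N : ℕ) [NeZero N] : Type := ∀ i : ℕ, M N (i : ℕ)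

/-- the family attached to the components of weights `1, …, k` -/
def fam (k : ℕ) (F : Tup N) : Fm := fun d n => ∑ i ∈ Finset.Icc 1 k, pf N i (F i) d n

lemma pf_add {k : ℕ} {f g : ℍ → ℂ} (hf : IsMF N k f) (hg : IsMF N k g) (d n : ℕ) :
    pf N k (f + g) d n = pf N k f d n + pf N k g d n := by
  rw [pf, pf, pf, SlashAction.add_slash, qc, qExpansion_add (hf.dia d).analytic (hg.dia d).analytic,
    map_add, map_add, mul_add]
  rfl

lemma pf_smul {k : ℕ} {f : ℍ → ℂ} (hf : IsMF N k f) (c : ℂ) (d n : ℕ) :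
    pf N k (c • f) d n = iota c * pf N k f d n := by
  rw [pf, pf, SL_smul_slash, qc, qExpansion_smul (hf.dia d).analytic, PowerSeries.coeff_smul,
    smul_eq_mul, map_mul, qc]
  ring

lemma fam_add (F G : Tup N) (d n : ℕ) : fam k (F + G) d n = fam k F d n + fam k G d n := by
  simp only [fam, ← Finset.sum_add_distrib]
  apply Finset.sum_congr rfl
  intro i _
  rw [Pi.add_apply, FunLike.coe_add, pf_add (isMF_coe _) (isMF_coe _)]

lemma fam_smul (c : ℂ) (F : Tup N) (d n : ℕ) : fam k (c • F) d n = iota c * fam k F d n := by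
  simp only [fam, Finset.mul_sum]
  apply Finset.sum_congr rfl
  intro i _
  rw [Pi.smul_apply, FunLike.coe_smul, pf_smul (isMF_coe _)]

lemma fam_neg (F : Tup N) (d n : ℕ) : fam k (-F) d n = -fam k F d n := by
  have := fam_smul (k := k) (-1) F d n
  rw [neg_one_smul] at this
  rw [this]; simp

lemma fam_sub (F G : Tup N) (d n : ℕ) : fam k (F - G) d n = fam k F d n - fam k G d n := by
  rw [sub_eq_add_neg, fam_add, fam_neg, sub_eq_add_neg]

lemma fam_zero (d n : ℕ) : fam k (0 : Tup N) d n = 0 := by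
  have := fam_smul (k := k) 0 (0 : Tup N) d n
  rw [zero_smul] at this
  rw [this]; simp

@[simp] lemma BlockEnd.mul_apply' (X Y : BlockEnd N k) (i : Wt k) : (X * Y) i = X i * Y i := rfl
@[simp] lemma BlockEnd.add_apply' (X Y : BlockEnd N k) (i : Wt k) : (X + Y) i = X i + Y i := rfl
@[simp] lemma BlockEnd.one_apply' (i : Wt k) : (1 : BlockEnd N k) i = 1 := rfl
@[simp] lemma BlockEnd.zero_apply' (i : Wt k) : (0 : BlockEnd N k) i = 0 := rfl

instance instAlgebraBlockEnd : Algebra ℂ (BlockEnd N k) :=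
  inferInstanceAs (Algebra ℂ (∀ i : Wt k, Module.End ℂ (M N (i.1 : ℕ))))

@[simp] lemma BlockEnd.algebraMap_apply' (c : ℂ) (i : Wt k) :
    (algebraMap ℂ (BlockEnd N k) c) i = algebraMap ℂ (Module.End ℂ (M N (i.1 : ℕ))) c := rfl

/-- a block diagonal endomorphism applied to a sequence of forms (and `0` outside the range) -/
def ap (X : BlockEnd N k) (F : Tup N) : Tup N :=
  fun i => if h : 1 ≤ i ∧ i ≤ k then X ⟨i, h⟩ (F i) else 0

lemma ap_mul (X Y : BlockEnd N k) (F : Tup N) : ap (X * Y) F = ap X (ap Y F) := by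
  funext i
  by_cases h : 1 ≤ i ∧ i ≤ k
  · simp [ap, h]
  · simp only [ap, dif_neg h]

lemma ap_add (X Y : BlockEnd N k) (F : Tup N) : ap (X + Y) F = ap X F + ap Y F := by
  funext i
  by_cases h : 1 ≤ i ∧ i ≤ k
  · simp [ap, h]
  · simp only [ap, dif_neg h, Pi.add_apply, add_zero]

lemma ap_sub_right (X : BlockEnd N k) (F G : Tup N) : ap X (F - G) = ap X F - ap X G := by
  funext i
  by_cases h : 1 ≤ i ∧ i ≤ k
  · simp [ap, h]
  · simp only [ap, dif_neg h, Pi.sub_apply, sub_zero]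

lemma ap_smul_right (X : BlockEnd N k) (c : ℂ) (F : Tup N) : ap X (c • F) = c • ap X F := by
  funext i
  by_cases h : 1 ≤ i ∧ i ≤ k
  · simp [ap, h]
  · simp only [ap, dif_neg h, Pi.smul_apply, smul_zero]

lemma fam_ap_one (F : Tup N) : fam k (ap (1 : BlockEnd N k) F) = fam k F := by
  funext d n
  simp only [fam]
  apply Finset.sum_congr rfl
  intro i hi
  rw [Finset.mem_Icc] at hi
  simp [ap, hi]

/-- the `ℤ₂`-scalars -/
def zpC : ℤ_[2] →+* ℂ := (iota.symm : L →+* ℂ).comp (algebraMap ℤ_[2] L)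

lemma iota_zpC (a : ℤ_[2]) : iota (zpC a) = algebraMap ℤ_[2] L a := by
  simp [zpC]

/-- the inclusion -/
def HA.incl (N : ℕ) [NeZero N] (k : ℕ) : HA N k →+* BlockEnd N k := (heckeAlg N k).subtype

/-- the action of `ℤ₂ ⊗ T^{(2)}_{≤ k}(N)` on `⨁_{1 ≤ i ≤ k} M_i(Γ₁(N))`, via `L ≃ ℂ`. -/
def act (N : ℕ) [NeZero N] (k : ℕ) : TZ N k →+* BlockEnd N k :=
  (Algebra.TensorProduct.lift ((algebraMap ℂ (BlockEnd N k)).comp zpC).toIntAlgHom
    (HA.incl N k).toIntAlgHom (fun x y => (Algebra.commutes (zpC x) (HA.incl N k y))) :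
      ℤ_[2] ⊗[ℤ] HA N k →ₐ[ℤ] BlockEnd N k).toRingHom

lemma act_tmul (a : ℤ_[2]) (T : HA N k) :
    act N k (TZ.tmul a T) = algebraMap ℂ (BlockEnd N k) (zpC a) * T.1 := by
  exact Algebra.TensorProduct.lift_tmul _ _ _ _ _

lemma TZ.induction {p : TZ N k → Prop} (x : TZ N k) (h0 : p 0)
    (h1 : ∀ (a : ℤ_[2]) (T : HA N k), p (TZ.tmul a T))
    (h2 : ∀ x y, p x → p y → p (x + y)) : p x :=
  TensorProduct.induction_on (motive := p) x h0 h1 h2

lemma ap_algebraMap (c : ℂ) (X : BlockEnd N k) (F : Tup N) :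
    ap (algebraMap ℂ (BlockEnd N k) c * X) F = c • ap X F := by
  funext i
  by_cases h : 1 ≤ i ∧ i ≤ k
  · simp [ap, h]
  · simp only [ap, dif_neg h, Pi.smul_apply, smul_zero]

lemma not_dvd_two_mul {ℓ : ℕ} (h : ℓ.Prime ∧ ¬ ℓ ∣ 2 * N) : Nat.Coprime ℓ N := by
  rw [Nat.Prime.coprime_iff_not_dvd h.1]
  intro h'
  exact h.2 (h'.mul_left 2)

lemma not_dvd_two {ℓ : ℕ} (h : ℓ.Prime ∧ ¬ ℓ ∣ 2 * N) : ¬ 2 ∣ ℓ := by
  intro h'
  have := (Nat.prime_dvd_prime_iff_eq Nat.prime_two h.1).1 h'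
  exact h.2 (this ▸ Dvd.intro N rfl)

lemma coprime_mul_good {d ℓ : ℕ} (hd : Nat.Coprime d (2 * N)) (h : ℓ.Prime ∧ ¬ ℓ ∣ 2 * N) :
    Nat.Coprime (d * ℓ) (2 * N) :=
  Nat.Coprime.mul_left hd ((Nat.Prime.coprime_iff_not_dvd h.1).2 h.2)

/-- effect of `T_ℓ` on families -/
lemma fam_tElt {ℓ : ℕ} (h : ℓ.Prime ∧ ¬ ℓ ∣ 2 * N) (F : Tup N) {d : ℕ}
    (hd : Nat.Coprime d (2 * N)) (n : ℕ) :
    fam k (ap (tElt N k ℓ h) F) d n =
      fam k F d (n * ℓ) + (ℓ : L)⁻¹ * (if ℓ ∣ n then fam k F (d * ℓ) (n / ℓ) else 0) := by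
  haveI : Fact ℓ.Prime := ⟨h.1⟩
  have hc := not_dvd_two_mul h
  have hdN : Nat.Coprime d N := Nat.Coprime.coprime_mul_left_right hd
  have hℓ0 : (ℓ : L) ≠ 0 := by exact_mod_cast h.1.ne_zero
  have key : ∀ i ∈ Finset.Icc 1 k, pf N i (ap (tElt N k ℓ h) F i) d n =
      pf N i (F i) d (n * ℓ) + (ℓ : L)⁻¹ * (if ℓ ∣ n then pf N i (F i) (d * ℓ) (n / ℓ) else 0) := by
    intro i hi
    rw [Finset.mem_Icc] at hi
    have h1 : ((ap (tElt N k ℓ h) F i : M N i) : ℍ → ℂ) = heckeFun N i ℓ (F i) := by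
      rw [ap, dif_pos hi]
      rfl
    rw [h1, pf, IsMF.hecke_slash hc (isMF_coe (F i)).inv (dia_mem N d),
      IsMF.qc_hecke hc ((isMF_coe (F i)).dia d), IsMF.dia_dia (isMF_coe (F i)).inv hdN hc,
      pf, pf, map_add, map_mul, mul_add]
    congr 1
    have h2 : iota ((ℓ : ℂ) ^ ((i : ℤ) - 1)) = (ℓ : L)⁻¹ * (ℓ : L) ^ i := by
      rw [map_zpow₀, map_natCast, zpow_sub_one₀ hℓ0, zpow_natCast]; ring
    rw [h2]
    split_ifs
    · push_cast; ring
    · simp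
  rw [fam, Finset.sum_congr rfl key, Finset.sum_add_distrib, ← Finset.mul_sum]
  congr 2
  split_ifs
  · rfl
  · simp

/-- effect of `ℓ S_ℓ` on families -/
lemma fam_sElt {ℓ : ℕ} (h : ℓ.Prime ∧ ¬ ℓ ∣ 2 * N) (F : Tup N) {d : ℕ}
    (hd : Nat.Coprime d (2 * N)) (n : ℕ) :
    fam k (ap (sElt N k ℓ) F) d n = (ℓ : L)⁻¹ * fam k F (d * ℓ) n := by
  have hc := not_dvd_two_mul h
  have hdN : Nat.Coprime d N := Nat.Coprime.coprime_mul_left_right hd
  have hℓ0 : (ℓ : L) ≠ 0 := by exact_mod_cast h.1.ne_zero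
  rw [fam, fam, Finset.mul_sum]
  apply Finset.sum_congr rfl
  intro i hi
  rw [Finset.mem_Icc] at hi
  have h1 : ((ap (sElt N k ℓ) F i : M N i) : ℍ → ℂ) =
      ((ℓ : ℂ) ^ ((i : ℤ) - 1)) • ((F i : ℍ → ℂ) ∣[(i : ℤ)] (dia N ℓ)) := by
    rw [ap, dif_pos hi]; rfl
  rw [h1, pf_smul ((isMF_coe (F i)).dia ℓ), pf, pf, IsMF.dia_dia (isMF_coe (F i)).inv hc hdN]
  have h2 : iota ((ℓ : ℂ) ^ ((i : ℤ) - 1)) = (ℓ : L)⁻¹ * (ℓ : L) ^ i := by
    rw [map_zpow₀, map_natCast, zpow_sub_one₀ hℓ0, zpow_natCast]; ring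
  rw [h2, mul_comm ℓ d]
  push_cast; ring

/-- the operators of norm `≤ 1` -/
def NormLe (X : BlockEnd N k) : Prop :=
  ∀ (F : Tup N) (C : ℝ), BddF N (fam k F) C → BddF N (fam k (ap X F)) C

lemma NormLe.add {X Y : BlockEnd N k} (hX : NormLe X) (hY : NormLe Y) : NormLe (X + Y) := by
  intro F C hF d hd n
  rw [ap_add, fam_add]
  exact (norm_add_le_max _ _).trans (max_le (hX F C hF d hd n) (hY F C hF d hd n))

lemma NormLe.mul {X Y : BlockEnd N k} (hX : NormLe X) (hY : NormLe Y) : NormLe (X * Y) := by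
  intro F C hF
  rw [ap_mul]
  exact hX _ _ (hY _ _ hF)

lemma NormLe.scalar {c : ℂ} (hc : ‖iota c‖ ≤ 1) {X : BlockEnd N k} (hX : NormLe X) :
    NormLe (algebraMap ℂ (BlockEnd N k) c * X) := by
  intro F C hF d hd n
  rw [ap_algebraMap, fam_smul, norm_mul]
  calc ‖iota c‖ * ‖fam k (ap X F) d n‖ ≤ 1 * C := by
        gcongr
        exact hX F C hF d hd n
    _ = C := one_mul C

lemma NormLe.one : NormLe (1 : BlockEnd N k) := by
  intro F C hF
  rw [fam_ap_one]; exact hF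

lemma NormLe.intCast (m : ℤ) : NormLe ((m : ℤ) : BlockEnd N k) := by
  have h : ((m : ℤ) : BlockEnd N k) = algebraMap ℂ (BlockEnd N k) (m : ℂ) * 1 := by
    rw [mul_one, map_intCast]
  rw [h]
  apply NormLe.scalar _ NormLe.one
  rw [map_intCast]; exact norm_int_le_one m

lemma norm_prime_inv {ℓ : ℕ} (h : ℓ.Prime ∧ ¬ ℓ ∣ 2 * N) : ‖(ℓ : L)⁻¹‖ = 1 := by
  rw [norm_inv, norm_odd (not_dvd_two h), inv_one]

lemma NormLe.tElt {ℓ : ℕ} (h : ℓ.Prime ∧ ¬ ℓ ∣ 2 * N) : NormLe (tElt N k ℓ h) := by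
  intro F C hF d hd n
  rw [fam_tElt h F hd]
  refine (norm_add_le_max _ _).trans (max_le (hF d hd _) ?_)
  rw [norm_mul, norm_prime_inv h, one_mul]
  split_ifs
  · exact hF _ (coprime_mul_good hd h) _
  · rw [norm_zero]; exact hF.nonneg

lemma NormLe.sElt {ℓ : ℕ} (h : ℓ.Prime ∧ ¬ ℓ ∣ 2 * N) : NormLe (sElt N k ℓ) := by
  intro F C hF d hd n
  rw [fam_sElt h F hd, norm_mul, norm_prime_inv h, one_mul]
  exact hF _ (coprime_mul_good hd h) _

lemma NormLe.heckeAlg {T : BlockEnd N k} (hT : T ∈ heckeAlg N k) : NormLe T := by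
  refine Subring.closure_induction ?_ ?_ ?_ ?_ ?_ ?_ hT
  · rintro T ⟨ℓ, hℓ, rfl | rfl⟩
    · exact NormLe.tElt hℓ
    · exact NormLe.sElt hℓ
  · have := NormLe.intCast (N := N) (k := k) 0
    simpa using this
  · exact NormLe.one
  · intro x y _ _ hx hy; exact hx.add hy
  · intro x _ hx
    have := (NormLe.intCast (N := N) (k := k) (-1)).mul hx
    simpa using this
  · intro x y _ _ hx hy; exact hx.mul hy

lemma NormLe.act (x : TZ N k) : NormLe (act N k x) := by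
  refine TZ.induction (p := fun x => NormLe (H390.act N k x)) x ?_ ?_ ?_
  · rw [map_zero]
    have := NormLe.intCast (N := N) (k := k) 0
    simpa using this
  · intro a T
    rw [act_tmul]
    apply NormLe.scalar _ (NormLe.heckeAlg T.2)
    rw [iota_zpC]; exact norm_zp_le_one a
  · intro x y hx hy
    rw [map_add]; exact hx.add hy

/-- eigenfamilies -/
structure EigenFam (N : ℕ) [NeZero N] (Φ : Fm) (t s : ℕ → L) : Prop where
  bdd : BddF N Φ 1
  one : Φ 1 1 = 1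
  eigT : ∀ ℓ : ℕ, ℓ.Prime ∧ ¬ ℓ ∣ 2 * N → ∀ d, Nat.Coprime d (2 * N) → ∀ n,
    Φ d (n * ℓ) + (ℓ : L)⁻¹ * (if ℓ ∣ n then Φ (d * ℓ) (n / ℓ) else 0) = t ℓ * Φ d n
  eigS : ∀ ℓ : ℕ, ℓ.Prime ∧ ¬ ℓ ∣ 2 * N → ∀ d, Nat.Coprime d (2 * N) → ∀ n,
    (ℓ : L)⁻¹ * Φ (d * ℓ) n = s ℓ * Φ d n

/-- `x` acts on `F ≈ Φ` by `c`, with precision `ε`. -/
def ActsBy (Φ : Fm) (F : Tup N) (ε : ℝ) (X : BlockEnd N k) (c : L) : Prop :=
  Near N (fam k (ap X F)) (c • Φ) ε

variable {Φ : Fm} {t s : ℕ → L} {F G : Tup N} {ε δ : ℝ}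

lemma ActsBy.add {X Y : BlockEnd N k} {a b : L} (h : ActsBy Φ F ε X a) (h' : ActsBy Φ F ε Y b) :
    ActsBy Φ F ε (X + Y) (a + b) := by
  intro d hd n
  have := (Near.add h h') d hd n
  rw [ap_add, fam_add, add_smul]
  exact this

lemma ActsBy.mul {X Y : BlockEnd N k} {a b : L} (hb : ‖b‖ ≤ 1) (hε : 0 ≤ ε)
    (hX : NormLe X) (hF : Near N (fam k F) Φ ε)
    (h : ActsBy Φ F ε X a) (h' : ActsBy Φ F ε Y b) :
    ActsBy Φ F ε (X * Y) (a * b) := by
  set b' : ℂ := iota.symm b with hb'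
  have e : iota b' = b := by simp [hb']
  -- `Y F - b' F` is small
  have h1 : BddF N (fam k (ap Y F - b' • F)) ε := by
    intro d hd n
    rw [fam_sub, fam_smul, e]
    have h2 := h' d hd n
    have h3 := (hF.smul b) d hd n
    have : fam k (ap Y F) d n - b * fam k F d n =
      (fam k (ap Y F) d n - (b • Φ) d n) - ((b • fam k F) d n - (b • Φ) d n) := by
      simp only [Pi.smul_apply, smul_eq_mul]; ring
    rw [this]
    refine (norm_sub_le_max _ _).trans (max_le h2 (h3.trans ?_))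
    nlinarith
  have h2 := hX _ _ h1
  intro d hd n
  have h3 := h2 d hd n
  rw [ap_sub_right, ap_smul_right, fam_sub, fam_smul, e, ← ap_mul] at h3
  have h4 := (h.smul b) d hd n
  have : fam k (ap (X * Y) F) d n - ((a * b) • Φ) d n =
    (fam k (ap (X * Y) F) d n - b * fam k (ap X F) d n) +
      ((b • fam k (ap X F)) d n - (b • a • Φ) d n) := by
    simp only [Pi.smul_apply, smul_eq_mul]; ring
  rw [this]
  refine (norm_add_le_max _ _).trans (max_le h3 (h4.trans ?_))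
  nlinarith

lemma ActsBy.scalar {X : BlockEnd N k} {a : L} {c : ℂ} (hc : ‖iota c‖ ≤ 1) (hε : 0 ≤ ε)
    (h : ActsBy Φ F ε X a) : ActsBy Φ F ε (algebraMap ℂ (BlockEnd N k) c * X) (iota c * a) := by
  intro d hd n
  have h4 := (h.smul (iota c)) d hd n
  rw [ap_algebraMap, fam_smul]
  have : iota c * fam k (ap X F) d n - ((iota c * a) • Φ) d n =
    ((iota c • fam k (ap X F)) d n - (iota c • a • Φ) d n) := by
    simp only [Pi.smul_apply, smul_eq_mul]; ring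
  rw [this]
  exact h4.trans (by nlinarith)

lemma ActsBy.one (hF : Near N (fam k F) Φ ε) : ActsBy Φ F ε (1 : BlockEnd N k) 1 := by
  intro d hd n
  rw [fam_ap_one, one_smul]; exact hF d hd n

lemma ActsBy.tElt (hΦ : EigenFam N Φ t s) (hF : Near N (fam k F) Φ ε) {ℓ : ℕ}
    (h : ℓ.Prime ∧ ¬ ℓ ∣ 2 * N) : ActsBy Φ F ε (tElt N k ℓ h) (t ℓ) := by
  intro d hd n
  rw [fam_tElt h F hd, Pi.smul_apply, Pi.smul_apply, smul_eq_mul, ← hΦ.eigT ℓ h d hd n]
  have : fam k F d (n * ℓ) + (ℓ : L)⁻¹ * (if ℓ ∣ n then fam k F (d * ℓ) (n / ℓ) else 0) -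
      (Φ d (n * ℓ) + (ℓ : L)⁻¹ * (if ℓ ∣ n then Φ (d * ℓ) (n / ℓ) else 0)) =
      (fam k F d (n * ℓ) - Φ d (n * ℓ)) + (ℓ : L)⁻¹ *
        (if ℓ ∣ n then fam k F (d * ℓ) (n / ℓ) - Φ (d * ℓ) (n / ℓ) else 0) := by
    split_ifs <;> ring
  rw [this]
  refine (norm_add_le_max _ _).trans (max_le (hF d hd _) ?_)
  rw [norm_mul, norm_prime_inv h, one_mul]
  split_ifs
  · exact hF _ (coprime_mul_good hd h) _
  · rw [norm_zero]; exact (norm_nonneg _).trans (hF d hd n)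

lemma ActsBy.sElt (hΦ : EigenFam N Φ t s) (hF : Near N (fam k F) Φ ε) {ℓ : ℕ}
    (h : ℓ.Prime ∧ ¬ ℓ ∣ 2 * N) : ActsBy Φ F ε (sElt N k ℓ) (s ℓ) := by
  intro d hd n
  rw [fam_sElt h F hd, Pi.smul_apply, Pi.smul_apply, smul_eq_mul, ← hΦ.eigS ℓ h d hd n, ← mul_sub,
    norm_mul, norm_prime_inv h, one_mul]
  exact hF _ (coprime_mul_good hd h) _

end

end Vale.Agent.P022.H390
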