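import Mathlib

/-!
# P022: modular forms of level `Γ₁(N)`, diamond and Hecke operators, definitions
-/

namespace Vale.Agent.P022.H390

open UpperHalfPlane ModularForm CongruenceSubgroup Matrix.SpecialLinearGroup OnePoint
open scoped MatrixGroups ModularForm Manifold

noncomputable section

/-- `M N k` is the space `M_k(Γ₁(N))` of all holomorphic modular forms of weight `k` and level
`Γ₁(N)`, Eisenstein series included. -/
abbrev M (N : ℕ) (k : ℤ) : Type :=
  ModularForm ((Gamma1 N : Subgroup SL(2, ℤ)) : Subgroup (GL (Fin 2) ℝ)) k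

/-- unbundled predicate: `f` is a modular form of weight `k` and level `Γ₁(N)`. -/
structure IsMF (N : ℕ) (k : ℤ) (f : ℍ → ℂ) : Prop where
  inv : ∀ γ ∈ Gamma1 N, f ∣[k] γ = f
  holo : MDiff f
  bdd : ∀ γ : SL(2, ℤ), IsBoundedAtImInfty (f ∣[k] γ)

variable {N : ℕ} {k : ℤ} {f : ℍ → ℂ}

/-- the bundled modular form. -/
def IsMF.toM [NeZero N] (hf : IsMF N k f) : M N k where
  toFun := f
  slash_action_eq' := by
    rintro _ ⟨γ, hγ, rfl⟩
    exact hf.inv γ hγ
  holo' := hf.holo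
  bdd_at_cusps' := by
    intro c hc
    rw [Subgroup.IsArithmetic.isCusp_iff_isCusp_SL2Z] at hc
    rw [isBoundedAt_iff_forall_SL2Z hc]
    intro γ _
    exact hf.bdd γ

lemma isMF_coe [NeZero N] (F : M N k) : IsMF N k F where
  inv γ hγ := SlashInvariantFormClass.slash_action_eq F _ ⟨γ, hγ, rfl⟩
  holo := ModularFormClass.holo F
  bdd γ := ModularFormClass.bdd_at_infty_slash F γ

/-- The matrix `!![a, b; c, d]` with integer entries, as an element of `GL₂(ℝ)` (junk value `1`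
if the determinant is zero). -/
def mat (a b c d : ℤ) : GL (Fin 2) ℝ :=
  if h : (a * d - b * c : ℤ) ≠ 0 then
    Matrix.GeneralLinearGroup.map (Rat.castHom ℝ)
      (Matrix.GeneralLinearGroup.mkOfDetNeZero !![(a : ℚ), b; c, d]
        (by rw [Matrix.det_fin_two_of]; exact_mod_cast h))
  else 1

/-- The matrix `!![a, b; c, d]` of `SL₂(ℤ)`. -/
def slMk (a b c d : ℤ) (h : a * d - b * c = 1) : SL(2, ℤ) :=
  ⟨!![a, b; c, d], by rw [Matrix.det_fin_two_of]; exact h⟩

/-- For `d` coprime to `N`, a matrix in `Γ₀(N)` with lower right entry `d`, namely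
`!![a, b; N, d]` with `a * d - b * N = 1` (and `1` if `d` is not coprime to `N`). -/
def dia (N d : ℕ) : SL(2, ℤ) :=
  if h : Nat.Coprime d N then
    slMk (Nat.gcdA d N) (-Nat.gcdB d N) N d (by
      have := Nat.gcd_eq_gcd_ab d N
      rw [Nat.Coprime.gcd_eq_one h] at this
      push_cast at this
      linarith)
  else 1

/-- The underlying function of `T_ℓ f`: `ℓ^{k-1} (⟨ℓ⟩f)(ℓ z) + ℓ^{-1} ∑_{j<ℓ} f((z+j)/ℓ)`; recall
that the weight `k` action of `!![a, b; c, d]` includes the factor `(ad - bc)^(k-1)`. -/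
def heckeFun (N : ℕ) (k : ℤ) (ℓ : ℕ) (f : ℍ → ℂ) : ℍ → ℂ :=
  (f ∣[k] (dia N ℓ)) ∣[k] (mat ℓ 0 0 1) + ∑ j ∈ Finset.range ℓ, f ∣[k] (mat 1 j 0 ℓ)

/-- The underlying function of `ℓ S_ℓ f = ℓ^(k-1) ⟨ℓ⟩ f`. -/
def lSFun (N : ℕ) (k : ℤ) (ℓ : ℕ) (f : ℍ → ℂ) : ℍ → ℂ := (ℓ : ℂ) ^ (k - 1) • (f ∣[k] (dia N ℓ))

/-- The linear endomorphism of `M_k(Γ₁(N))` given by a linear operator `T` on functions which
maps modular forms to modular forms. -/
def mkOp (N : ℕ) [NeZero N] (k : ℤ) (T : (ℍ → ℂ) → ℍ → ℂ) (h : ∀ f, IsMF N k f → IsMF N k (T f))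
    (hadd : ∀ f g, T (f + g) = T f + T g) (hsmul : ∀ (c : ℂ) f, T (c • f) = c • T f) :
    M N k →ₗ[ℂ] M N k where
  toFun F := (h F (isMF_coe F)).toM
  map_add' F G := DFunLike.coe_injective (hadd F G)
  map_smul' c F := DFunLike.coe_injective (hsmul c F)

end

end Vale.Agent.P022.H390
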