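import Vale.Agent.P022.H390.Base

/-!
# P022: modular forms of level `Γ₁(N)`, slash by integral matrices
-/

namespace Vale.Agent.P022.H390

open UpperHalfPlane ModularForm CongruenceSubgroup Matrix.SpecialLinearGroup OnePoint
open scoped MatrixGroups ModularForm Manifold

noncomputable section

variable {N : ℕ} {k : ℤ} {f : ℍ → ℂ}

@[simp] lemma IsMF.coe_toM [NeZero N] (hf : IsMF N k f) : (hf.toM : ℍ → ℂ) = f := rfl

lemma mat_val {a b c d : ℤ} (h : a * d - b * c ≠ 0) :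
    ((mat a b c d : GL (Fin 2) ℝ) : Matrix (Fin 2) (Fin 2) ℝ) = !![(a : ℝ), b; c, d] := by
  rw [mat, dif_pos h]
  ext i j
  fin_cases i <;> fin_cases j <;>
    simp [Matrix.GeneralLinearGroup.map, Matrix.GeneralLinearGroup.mkOfDetNeZero]

lemma mat_mem_range (a b c d : ℤ) :
    ∃ g : GL (Fin 2) ℚ, mat a b c d = Matrix.GeneralLinearGroup.map (Rat.castHom ℝ) g := by
  by_cases h : (a * d - b * c : ℤ) ≠ 0
  · exact ⟨_, by rw [mat, dif_pos h]⟩
  · exact ⟨1, by rw [mat, dif_neg h, map_one]⟩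

lemma mat_eq_mapGL (γ : SL(2, ℤ)) : mat (γ 0 0) (γ 0 1) (γ 1 0) (γ 1 1) = mapGL ℝ γ := by
  have h : γ 0 0 * γ 1 1 - γ 0 1 * γ 1 0 ≠ 0 := by
    have := γ.det_coe
    rw [Matrix.det_fin_two] at this
    rw [this]; exact one_ne_zero
  apply Units.ext
  rw [mat_val h]
  ext i j
  fin_cases i <;> fin_cases j <;> simp

lemma mat_mul {a b c d a' b' c' d' : ℤ} (h : a * d - b * c ≠ 0) (h' : a' * d' - b' * c' ≠ 0) :
    mat a b c d * mat a' b' c' d' =
      mat (a * a' + b * c') (a * b' + b * d') (c * a' + d * c') (c * b' + d * d') := by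
  have h2 : (a * a' + b * c') * (c * b' + d * d') - (a * b' + b * d') * (c * a' + d * c') ≠ 0 := by
    have : (a * a' + b * c') * (c * b' + d * d') - (a * b' + b * d') * (c * a' + d * c')
      = (a * d - b * c) * (a' * d' - b' * c') := by ring
    rw [this]; exact mul_ne_zero h h'
  apply Units.ext
  rw [Units.val_mul, mat_val h, mat_val h', mat_val h2]
  ext i j
  fin_cases i <;> fin_cases j <;> simp [Matrix.mul_apply, Fin.sum_univ_two]

lemma isCusp_rat_smul (g : GL (Fin 2) ℚ) :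
    IsCusp (Matrix.GeneralLinearGroup.map (Rat.castHom ℝ) g • (∞ : OnePoint ℝ)) 𝒮ℒ := by
  rw [isCusp_SL2Z_iff]
  refine ⟨g • (∞ : OnePoint ℚ), ?_⟩
  have := OnePoint.map_smul (Rat.castHom ℝ) g ∞
  simpa using this

lemma IsMF.bdd_rat [NeZero N] (hf : IsMF N k f) (g : GL (Fin 2) ℚ) :
    IsBoundedAtImInfty (f ∣[k] (Matrix.GeneralLinearGroup.map (Rat.castHom ℝ) g)) := by
  have hc := isCusp_rat_smul g
  rw [← Subgroup.IsArithmetic.isCusp_iff_isCusp_SL2Z
    ((Gamma1 N : Subgroup SL(2, ℤ)) : Subgroup (GL (Fin 2) ℝ))] at hc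
  exact hf.toM.bdd_at_cusps' hc _ rfl

lemma IsMF.bdd_mat [NeZero N] (hf : IsMF N k f) (a b c d : ℤ) (γ : SL(2, ℤ)) :
    IsBoundedAtImInfty ((f ∣[k] mat a b c d) ∣[k] γ) := by
  obtain ⟨g, hg⟩ := mat_mem_range a b c d
  obtain ⟨g', hg'⟩ := mat_mem_range (γ 0 0) (γ 0 1) (γ 1 0) (γ 1 1)
  rw [mat_eq_mapGL] at hg'
  rw [SL_slash]
  change IsBoundedAtImInfty ((f ∣[k] mat a b c d) ∣[k] (mapGL ℝ γ))
  rw [← SlashAction.slash_mul, hg, hg', ← map_mul]
  exact hf.bdd_rat _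

end

end Vale.Agent.P022.H390
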