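import Vale.Agent.P022.H390.E2V

/-!
# P022: the operator `q d/dq` preserves `V N`
-/

namespace Vale.Agent.P022.H390

open UpperHalfPlane ModularForm CongruenceSubgroup Matrix.SpecialLinearGroup Derivative
open scoped MatrixGroups ModularForm Manifold Real

noncomputable section

variable {f : ℍ → ℂ}

/-- `D f` for short -/
abbrev DD (f : ℍ → ℂ) : ℍ → ℂ := normalizedDerivOfComplex f

lemma bdd_DD (hf : MDiff f) (hb : IsBoundedAtImInfty f) : IsBoundedAtImInfty (DD f) := by
  rw [isBoundedAtImInfty_iff] at hb ⊢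
  obtain ⟨M, A, hM⟩ := hb
  refine ⟨‖(2 * π * Complex.I)⁻¹‖ * (M / 1), max A 0 + 2, fun z hz => ?_⟩
  rw [DD, normalizedDerivOfComplex, norm_mul]
  refine mul_le_mul_of_nonneg_left ?_ (norm_nonneg _)
  have hd : DifferentiableOn ℂ (f ∘ ofComplex) upperHalfPlaneSet := mdifferentiable_iff.mp hf
  have him : ∀ w ∈ Metric.closedBall (z : ℂ) 1, max A 0 + 1 ≤ w.im := by
    intro w hw
    rw [Metric.mem_closedBall, dist_eq_norm] at hw
    have h1 := (Complex.abs_im_le_norm (w - z)).trans hw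
    rw [Complex.sub_im, abs_le] at h1
    have h2 : (z : ℂ).im = z.im := rfl
    rw [h2] at h1
    linarith
  refine Complex.norm_deriv_le_of_forall_mem_sphere_norm_le one_pos ?_ ?_
  · refine hd.diffContOnCl_ball fun w hw => ?_
    have := him w hw
    change 0 < w.im
    have h3 : 0 ≤ max A 0 := le_max_right _ _
    linarith
  · intro w hw
    have h1 := him w (Metric.sphere_subset_closedBall hw)
    have h3 : 0 ≤ max A 0 := le_max_right _ _
    have h4 : A ≤ max A 0 := le_max_left _ _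
    have h5 : 0 < w.im := by linarith
    rw [Function.comp_apply, ofComplex_apply_of_im_pos h5]
    exact hM ⟨w, h5⟩ (by change A ≤ w.im; linarith)

lemma DD_good (hf : Good 1 f) : Good 1 (DD f) where
  per := by
    apply periodic_of_T
    intro z
    rw [DD, normalizedDerivOfComplex, normalizedDerivOfComplex]
    congr 1
    have h1 : (((1 : ℝ) +ᵥ z : ℍ) : ℂ) = (z : ℂ) + 1 := by
      rw [UpperHalfPlane.coe_vadd]; push_cast; ring
    rw [h1]
    have h2 : (f ∘ ofComplex) = fun w => (f ∘ ofComplex) (w + 1) := by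
      funext w
      have := hf.per w
      push_cast at this
      exact this.symm
    conv_rhs => rw [h2]
    rw [deriv_comp_add_const]
  holo := normalizedDerivOfComplex_mdifferentiable hf.holo
  bdd := bdd_DD hf.holo hf.bdd

lemma hasSum_deriv_cusp (hf : Good 1 f) {q : ℂ} (hq : ‖q‖ < 1) :
    HasSum (fun m : ℕ => ((m + 1 : ℕ) : ℂ) * qc f (m + 1) * q ^ m) (deriv (cuspFunction 1 f) q) := by
  have hd := (differentiableOn_cuspFunction_ball one_pos hf.per hf.holo hf.bdd).deriv
    Metric.isOpen_ball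
  have h1 := Complex.hasSum_taylorSeries_on_ball hd (z := q) (by simpa using hq)
  refine h1.congr_fun fun m => ?_
  rw [qc, qExpansion_coeff, iteratedDeriv_succ', sub_zero, smul_eq_mul, smul_eq_mul,
    Nat.factorial_succ]
  push_cast
  have h2 : ((m : ℂ) + 1) ≠ 0 := by exact_mod_cast Nat.succ_ne_zero m
  field_simp

lemma hasSum_DD (hf : Good 1 f) (z : ℍ) :
    HasSum (fun m : ℕ => ((m : ℂ) * qc f m) * qq z ^ m) (DD f z) := by
  have hq : ‖qq z‖ < 1 := Function.Periodic.norm_qParam_lt_one one_pos z.im_pos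
  have h1 := (hasSum_deriv_cusp hf hq).mul_right (qq z)
  have h2 : HasSum (fun m : ℕ => ((m : ℂ) * qc f m) * qq z ^ m)
      (deriv (cuspFunction 1 f) (qq z) * qq z) := by
    rw [← hasSum_nat_add_iff' 1]
    simp only [Finset.range_one, Finset.sum_singleton, Nat.cast_zero, zero_mul, sub_zero]
    refine h1.congr_fun fun m => ?_
    rw [pow_succ]; ring
  have h3 : DD f z = deriv (cuspFunction 1 f) (qq z) * qq z := by
    have hG : HasDerivAt (cuspFunction 1 f) (deriv (cuspFunction 1 f) (qq z)) (qq z) :=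
      (differentiableAt_cuspFunction one_pos hf.per hf.holo hf.bdd hq).hasDerivAt
    have hQ : HasDerivAt (fun w : ℂ => qq w) (2 * π * Complex.I * qq z) (z : ℂ) := by
      have : (fun w : ℂ => qq w) = fun w => Complex.exp (2 * π * Complex.I * w) := by
        funext w; rw [qq_eq]
      rw [this, qq_eq]
      have h4 : HasDerivAt (fun w : ℂ => 2 * π * Complex.I * w) (2 * π * Complex.I * 1) (z : ℂ) :=
        (hasDerivAt_id _).const_mul _
      rw [mul_one] at h4
      have := h4.cexp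
      rw [mul_comm (Complex.exp _)] at this
      exact this
    have hc := hG.comp (z : ℂ) hQ
    have he : (f ∘ ofComplex) = (cuspFunction 1 f) ∘ (fun w : ℂ => qq w) := by
      funext w
      exact (Function.Periodic.eq_cuspFunction one_ne_zero hf.per w).symm
    rw [DD, normalizedDerivOfComplex, he, hc.deriv]
    have h5 : (2 * π * Complex.I : ℂ) ≠ 0 := Complex.two_pi_I_ne_zero
    field_simp
  rw [h3]; exact h2

lemma qc_DD (hf : Good 1 f) (n : ℕ) : qc (DD f) n = n * qc f n :=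
  qc_unique (c := fun m => (m : ℂ) * qc f m) ((DD_good hf).analytic one_pos) (hasSum_DD hf) n

/-- Serre derivative -/
def sd (k : ℤ) (f : ℍ → ℂ) : ℍ → ℂ := DD f + (-(k : ℂ) * 12⁻¹) • (e2 * f)

lemma sd_eq (k : ℤ) (f : ℍ → ℂ) : sd k f = serreDerivative k f := by
  funext z
  simp only [sd, Pi.add_apply, Pi.smul_apply, Pi.mul_apply, smul_eq_mul, serreDerivative_apply]
  ring

lemma bdd_sd (k : ℤ) (hf : MDiff f) (hb : IsBoundedAtImInfty f) : IsBoundedAtImInfty (sd k f) :=
  (bdd_DD hf hb).add ((e2_good.bdd.mul hb).const_smul_left (c := (-(k : ℂ) * 12⁻¹)))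

variable {N : ℕ} {k : ℤ}

lemma sd_slash (hf : MDiff f) (γ : SL(2, ℤ)) : sd k f ∣[k + 2] γ = sd k (f ∣[k] γ) := by
  rw [sd_eq, sd_eq, serreDerivative_slash_equivariant hf]

lemma IsMF.sd (hf : IsMF N k f) : IsMF N (k + 2) (sd k f) where
  inv γ hγ := by rw [sd_slash hf.holo, hf.inv γ hγ]
  holo := by rw [sd_eq]; exact serreDerivative_mdifferentiable _ hf.holo
  bdd γ := by
    rw [sd_slash hf.holo]
    exact bdd_sd k (hf.holo.slash k _) (hf.bdd γ)

lemma qc_sd (hf : Good 1 f) (n : ℕ) : qc (sd k f) n = n * qc f n + (-(k : ℂ) * 12⁻¹) *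
    ∑ p ∈ Finset.HasAntidiagonal.antidiagonal n, qc e2 p.1 * qc f p.2 := by
  rw [sd, qc, qExpansion_add ((DD_good hf).analytic one_pos)
    (((e2_good.mul hf).smul _).analytic one_pos), map_add,
    qExpansion_smul ((e2_good.mul hf).analytic one_pos), PowerSeries.coeff_smul, smul_eq_mul,
    qExpansion_mul (e2_good.analytic one_pos) (hf.analytic one_pos), PowerSeries.coeff_mul]
  rw [← qc_DD hf]
  rfl

/-- the derivation `q d/dq` on families -/
def DF : Fm →ₗ[L] Fm where
  toFun Φ := fun d n => (d : L) ^ 2 * (n : L) * Φ d n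
  map_add' Φ Φ' := by
    funext d n
    simp only [Pi.add_apply]
    ring
  map_smul' c Φ := by
    funext d n
    simp only [Pi.smul_apply, smul_eq_mul, RingHom.id_apply]
    ring

lemma DF_apply (Φ : Fm) (d n : ℕ) : DF Φ d n = (d : L) ^ 2 * (n : L) * Φ d n := rfl

lemma DF_bdd {Φ : Fm} {C : ℝ} (h : BddF N Φ C) : BddF N (DF Φ) C := fun d hd n => by
  rw [DF_apply, norm_mul, norm_mul, norm_pow]
  have h1 := norm_nat_le_one d
  have h2 := norm_nat_le_one n
  have h3 := h d hd n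
  have h4 : ‖(d : L)‖ ^ 2 * ‖(n : L)‖ ≤ 1 :=
    mul_le_one₀ (pow_le_one₀ (norm_nonneg _) h1) (norm_nonneg _) h2
  calc ‖(d : L)‖ ^ 2 * ‖(n : L)‖ * ‖Φ d n‖ ≤ 1 * ‖Φ d n‖ :=
        mul_le_mul_of_nonneg_right h4 (norm_nonneg _)
    _ ≤ C := by rw [one_mul]; exact h3

lemma DF_pf [NeZero N] {k : ℕ} (hf : IsMF N k f) :
    DF (pf N k f) = pf N (k + 2) (sd k f) + ((k : L) * 12⁻¹) • mulF e2F (pf N k f) := by
  funext d n
  have h1 : (sd (k : ℤ) f) ∣[((k + 2 : ℕ) : ℤ)] (dia N d) = sd (k : ℤ) (f ∣[(k : ℤ)] (dia N d)) := by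
    push_cast
    exact sd_slash hf.holo _
  have hg : Good 1 (f ∣[(k : ℤ)] (dia N d)) := (hf.dia d).good
  simp only [Pi.add_apply, Pi.smul_apply, smul_eq_mul]
  rw [DF_apply, pf, pf, h1, qc_sd hg, mulF]
  simp only [map_add, map_mul, map_neg, map_sum, map_natCast, map_inv₀, map_ofNat, e2F, pf]
  have h2 : ∀ p ∈ Finset.HasAntidiagonal.antidiagonal n,
      (d : L) ^ 2 * iota (qc e2 p.1) * ((d : L) ^ k * iota (qc (f ∣[(k : ℤ)] (dia N d)) p.2)) =
      (d : L) ^ (k + 2) * (iota (qc e2 p.1) * iota (qc (f ∣[(k : ℤ)] (dia N d)) p.2)) := by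
    intro p _; ring
  rw [Finset.sum_congr rfl h2, ← Finset.mul_sum]
  have h3 : iota ((k : ℤ) : ℂ) = (k : L) := by rw [map_intCast]; simp
  rw [h3]
  ring

theorem DF_mem [NeZero N] {Φ : Fm} (h : Φ ∈ V N) : DF Φ ∈ V N := by
  refine V.map DF one_pos ?_ ?_ h
  · intro Φ ε hΦ
    rw [one_mul]
    have h1 : BddF N Φ ε := fun d hd n => by simpa using hΦ d hd n
    intro d hd n
    simpa using DF_bdd h1 d hd n
  · rintro _ ⟨k, f, hk, hf, ⟨C, hC⟩, rfl⟩
    have h1 : mulF e2F (pf N k f) ∈ V N := V.mul e2F_mem (pure_mem_V hk hf ⟨C, hC⟩)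
    have h2 : pf N (k + 2) (sd k f) ∈ V N := by
      refine pure_mem_V (by omega) ?_ ?_
      · push_cast; exact hf.sd
      · have h3 : pf N (k + 2) (sd k f) = DF (pf N k f) - ((k : L) * 12⁻¹) • mulF e2F (pf N k f) := by
          rw [DF_pf hf]; ring
        obtain ⟨C', hC'⟩ := V.exists_bdd h1
        refine ⟨max C (‖(k : L) * 12⁻¹‖ * C'), fun d hd n => ?_⟩
        rw [h3]
        refine (norm_sub_le_max _ _).trans (max_le_max (DF_bdd hC d hd n) ?_)
        rw [Pi.smul_apply, Pi.smul_apply, smul_eq_mul, norm_mul]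
        exact mul_le_mul_of_nonneg_left (hC' d hd n) (norm_nonneg _)
    rw [DF_pf hf]
    exact add_mem h2 (Submodule.smul_mem _ _ h1)

end

end Vale.Agent.P022.H390
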