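import Vale.Agent.P022.H390.Two

/-!
# P022: 2-adic approximation of residue class indicators by polynomials (Mahler)
-/

namespace Vale.Agent.P022.H390

noncomputable section

/-- binomial polynomial over `L` -/
def binP (k : ℕ) : Polynomial L :=
  Polynomial.C ((k.factorial : L)⁻¹) * (descPochhammer ℤ k).map (Int.castRingHom L)

lemma eval_binP (k : ℕ) (n : ℤ) : (binP k).eval (n : L) = ((Ring.choose n k : ℤ) : L) := by
  have h1 := Ring.descPochhammer_eq_factorial_smul_choose (R := ℤ) n k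
  rw [← Polynomial.eval_eq_smeval, nsmul_eq_mul] at h1
  have h2 : ((k.factorial : L)) ≠ 0 := by exact_mod_cast k.factorial_ne_zero
  rw [binP, Polynomial.eval_mul, Polynomial.eval_C]
  have h3 : ((descPochhammer ℤ k).map (Int.castRingHom L)).eval (n : L) =
      (((descPochhammer ℤ k).eval n : ℤ) : L) := by
    have := Polynomial.eval_intCast_map (Int.castRingHom L) (descPochhammer ℤ k) n
    simpa using this
  rw [h3, h1]
  push_cast
  field_simp

/-- the indicator of a ball as a continuous function -/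
def indF (s : ℕ) (a : ℤ) : C(ℤ_[2], ℤ_[2]) :=
  (LocallyConstant.charFn ℤ_[2] (IsUltrametricDist.isClopen_closedBall (a : ℤ_[2])
    (r := (2 : ℝ) ^ (-(s : ℤ))) (by positivity)) : C(ℤ_[2], ℤ_[2]))

lemma indF_int (s : ℕ) (a n : ℤ) : indF s a (n : ℤ_[2]) = if (2 ^ s : ℤ) ∣ n - a then 1 else 0 := by
  classical
  change (LocallyConstant.charFn ℤ_[2] (IsUltrametricDist.isClopen_closedBall (a : ℤ_[2])
    (r := (2 : ℝ) ^ (-(s : ℤ))) (by positivity)) : ℤ_[2] → ℤ_[2]) (n : ℤ_[2]) = _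
  rw [LocallyConstant.coe_charFn, Set.indicator_apply]
  have h : (n : ℤ_[2]) ∈ Metric.closedBall (a : ℤ_[2]) ((2 : ℝ) ^ (-(s : ℤ))) ↔
      (2 ^ s : ℤ) ∣ n - a := by
    rw [Metric.mem_closedBall, dist_eq_norm, ← Int.cast_sub]
    have := PadicInt.norm_int_le_pow_iff_dvd (p := 2) (k := n - a) (n := s)
    exact_mod_cast this
  by_cases hd : (2 ^ s : ℤ) ∣ n - a
  · rw [if_pos (h.2 hd), if_pos hd]; rfl
  · rw [if_neg (fun hh => hd (h.1 hh)), if_neg hd]

lemma term_eval (c : ℤ_[2]) (k : ℕ) (n : ℤ) :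
    algebraMap ℚ_[2] L (((PadicInt.mahlerTerm c k : C(ℤ_[2], ℤ_[2])) (n : ℤ_[2]) : ℤ_[2]) : ℚ_[2]) =
      (Polynomial.C (algebraMap ℚ_[2] L (c : ℚ_[2])) * binP k).eval (n : L) := by
  rw [Polynomial.eval_mul, Polynomial.eval_C, eval_binP, PadicInt.mahlerTerm_apply, mahler_apply,
    smul_eq_mul, PadicInt.coe_mul, map_mul, mul_comm]
  congr 1
  have h3 : Ring.choose ((n : ℤ) : ℤ_[2]) k = ((Ring.choose n k : ℤ) : ℤ_[2]) := by
    have := Ring.map_choose (Int.castRingHom ℤ_[2]) n k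
    simpa using this.symm
  rw [h3]
  simp

lemma sum_eval (c : ℕ → ℤ_[2]) (S : Finset ℕ) (n : ℤ) :
    algebraMap ℚ_[2] L (((∑ k ∈ S, PadicInt.mahlerTerm (c k) k : C(ℤ_[2], ℤ_[2])) (n : ℤ_[2]) :
      ℤ_[2]) : ℚ_[2]) =
      (∑ k ∈ S, Polynomial.C (algebraMap ℚ_[2] L (c k : ℚ_[2])) * binP k).eval (n : L) := by
  classical
  induction S using Finset.induction_on with
  | empty => simp
  | insert k S hk ih =>
    rw [Finset.sum_insert hk, Finset.sum_insert hk, Polynomial.eval_add, ← ih, ← term_eval,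
      ContinuousMap.add_apply, PadicInt.coe_add, map_add]

/-- polynomial approximation of the indicator function of a residue class mod `2^s` -/
theorem exists_poly (s : ℕ) (a : ℤ) {ε : ℝ} (hε : 0 < ε) :
    ∃ p : Polynomial L, ∀ n : ℤ, ‖p.eval (n : L) - (if (2 ^ s : ℤ) ∣ n - a then 1 else 0)‖ ≤ ε := by
  have h1 := PadicInt.hasSum_mahler (indF s a)
  obtain ⟨S, hS⟩ := (Metric.tendsto_nhds.1 h1 ε hε).exists
  rw [dist_eq_norm] at hS
  set c : ℕ → ℤ_[2] := fun n => (fwdDiff 1)^[n] (indF s a) 0 with hc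
  set T : C(ℤ_[2], ℤ_[2]) := ∑ k ∈ S, PadicInt.mahlerTerm (c k) k with hT
  refine ⟨∑ k ∈ S, Polynomial.C (algebraMap ℚ_[2] L (c k : ℚ_[2])) * binP k, fun n => ?_⟩
  have h2 := (ContinuousMap.norm_coe_le_norm (T - indF s a) (n : ℤ_[2])).trans hS.le
  refine le_trans (le_of_eq ?_) h2
  rw [← sum_eval, ← hT, PadicInt.norm_def, ← norm_coe, ContinuousMap.sub_apply, indF_int,
    PadicInt.coe_sub, map_sub]
  congr 2
  split_ifs <;> simp

end

end Vale.Agent.P022.H390
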