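import Vale.Agent.P022.H390.ThMF
import Vale.Agent.P022.H390.Deriv
import Vale.Agent.P022.H390.Mah

/-!
# P022: the families attached to functions on `ℤ²` that are 2-adically continuous
-/

namespace Vale.Agent.P022.H390

open UpperHalfPlane hiding I
open ModularForm CongruenceSubgroup Matrix.SpecialLinearGroup
open scoped MatrixGroups ModularForm Manifold Real Nat NumberTheorySymbols
open Complex (I exp)

noncomputable section

namespace QD

variable {q : QD} {M N : ℕ} [NeZero M] [NeZero N] {h : ℤ × ℤ → ℂ}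

lemma fib_finite (q : QD) (n : ℕ) : {v : ℤ × ℤ | q.Qn v = n}.Finite := by
  have hb : ∀ v : ℤ × ℤ, q.Qn v = n → |v.1| ≤ 4 * q.C * n ∧ |v.2| ≤ 4 * q.A * n := by
    intro v hv
    have h1 : q.Q v = n := by rw [← q.Qn_eq, hv]
    have hD1 : (1 : ℤ) ≤ 4 * q.A * q.C - q.B ^ 2 := q.hD
    have e1 : (4 * q.A * q.C - q.B ^ 2) * v.2 ^ 2 ≤ 4 * q.A * n := by
      rw [← h1, Q]; nlinarith [sq_nonneg (2 * q.A * v.1 + q.B * v.2)]
    have e2 : (4 * q.A * q.C - q.B ^ 2) * v.1 ^ 2 ≤ 4 * q.C * n := by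
      rw [← h1, Q]; nlinarith [sq_nonneg (2 * q.C * v.2 + q.B * v.1)]
    have a1 : ∀ x : ℤ, |x| ≤ x ^ 2 := by
      intro x
      rw [← sq_abs]
      rcases eq_or_lt_of_le (abs_nonneg x) with h0 | h0
      · rw [← h0]; norm_num
      · nlinarith
    constructor
    · nlinarith [a1 v.1, sq_nonneg v.1]
    · nlinarith [a1 v.2, sq_nonneg v.2]
  refine ((Set.finite_Icc (-(4 * q.C * n : ℤ)) (4 * q.C * n)).prod
    (Set.finite_Icc (-(4 * q.A * n : ℤ)) (4 * q.A * n))).subset ?_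
  intro v hv
  have := hb v hv
  exact ⟨abs_le.1 this.1, abs_le.1 this.2⟩

/-- the vectors `v` with `Q(v) = n` -/
def fib (q : QD) (n : ℕ) : Finset (ℤ × ℤ) := (q.fib_finite n).toFinset

lemma mem_fib {n : ℕ} {v : ℤ × ℤ} : v ∈ q.fib n ↔ q.Qn v = n := by
  rw [fib, Set.Finite.mem_toFinset]; rfl

lemma qc_tf' (hh : Per M h) (a n : ℕ) :
    qc (q.tf a h) n = ∑ v ∈ q.fib n, h v * q.lam v ^ a := by
  rw [qc_tf hh, ← Finset.tsum_subtype]
  exact ((Equiv.subtypeEquivRight fun v => mem_fib).tsum_eq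
    (fun v : {v // q.Qn v = n} => h v * q.lam v ^ a)).symm

/-- the family attached to `g` -/
def WF (q : QD) (g : ℤ × ℤ → L) : Fm := fun d n =>
  (d : L) * (J(d | q.D) : L) * ∑ v ∈ q.fib n, g (d * v.1, d * v.2)

/-- the space of functions `g` whose family is in `V N` -/
def GS (q : QD) (N : ℕ) : Submodule L (ℤ × ℤ → L) where
  carrier := {g | q.WF g ∈ V N}
  add_mem' := by
    intro a b ha hb
    have : q.WF (a + b) = q.WF a + q.WF b := by
      funext d n
      simp only [WF, Pi.add_apply, Finset.sum_add_distrib, mul_add]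
    change q.WF (a + b) ∈ V N
    rw [this]; exact add_mem ha hb
  zero_mem' := by
    have : q.WF 0 = 0 := by
      funext d n
      simp [WF]
    change q.WF 0 ∈ V N
    rw [this]; exact zero_mem _
  smul_mem' := by
    intro c a ha
    have : q.WF (c • a) = c • q.WF a := by
      funext d n
      simp only [WF, Pi.smul_apply, smul_eq_mul, ← Finset.mul_sum]
      ring
    change q.WF (c • a) ∈ V N
    rw [this]; exact Submodule.smul_mem _ _ ha

lemma mem_GS {g : ℤ × ℤ → L} : g ∈ q.GS N ↔ q.WF g ∈ V N := Iff.rfl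

lemma norm_J_le (d D : ℕ) : ‖((J(d | D) : ℤ) : L)‖ ≤ 1 := norm_int_le_one _

lemma WF_sub_le {g g' : ℤ × ℤ → L} {ε : ℝ} (hε : 0 ≤ ε) (h : ∀ v, ‖g' v - g v‖ ≤ ε) (d n : ℕ) :
    ‖q.WF g' d n - q.WF g d n‖ ≤ ε := by
  rw [WF, WF, ← mul_sub, ← Finset.sum_sub_distrib, norm_mul, norm_mul]
  have h1 := norm_nat_le_one d
  have h2 := norm_J_le d q.D
  have h3 : ‖∑ v ∈ q.fib n, (g' (d * v.1, d * v.2) - g (d * v.1, d * v.2))‖ ≤ ε :=
    norm_sum_le _ _ hε fun v _ => h _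
  calc ‖(d : L)‖ * ‖((J(d | q.D) : ℤ) : L)‖ *
        ‖∑ v ∈ q.fib n, (g' (d * v.1, d * v.2) - g (d * v.1, d * v.2))‖
      ≤ 1 * ‖∑ v ∈ q.fib n, (g' (d * v.1, d * v.2) - g (d * v.1, d * v.2))‖ := by
        apply mul_le_mul_of_nonneg_right _ (norm_nonneg _)
        exact mul_le_one₀ h1 (norm_nonneg _) h2
    _ ≤ ε := by rw [one_mul]; exact h3

lemma GS_closed {g : ℤ × ℤ → L}
    (h : ∀ ε : ℝ, 0 < ε → ∃ g' ∈ q.GS N, ∀ v, ‖g' v - g v‖ ≤ ε) : g ∈ q.GS N := by
  refine V.closed fun ε hε => ?_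
  obtain ⟨g', hg', h1⟩ := h ε hε
  exact ⟨q.WF g', hg', fun d _ n => WF_sub_le hε.le h1 d n⟩

lemma pf_tf (hh : Per M h) (hodd : Odd q.D) (hN : (q.D * M) ^ 2 ∣ N) (a : ℕ) {d : ℕ}
    (hd : Nat.Coprime d (2 * N)) :
    pf N (a + 1) (q.tf a h) d = q.WF (fun v => iota (h v * q.lam v ^ a)) d := by
  have hd' : Nat.Coprime d N := Nat.Coprime.coprime_mul_left_right hd
  have hh' : Per M (fun v : ℤ × ℤ => h ((d : ℤ) * v.1, (d : ℤ) * v.2)) := by
    intro v w
    have := hh (d * v.1, d * v.2) (d * w.1, d * w.2)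
    dsimp only
    rw [← this]
    congr 2 <;> ring
  funext n
  rw [pf, tf_dia hh hodd hN a hd', WF]
  have h1 : qc ((J(d | q.D) : ℂ) • q.tf a (fun v : ℤ × ℤ => h ((d : ℤ) * v.1, (d : ℤ) * v.2))) n =
      (J(d | q.D) : ℂ) * ∑ v ∈ q.fib n, h (d * v.1, d * v.2) * q.lam v ^ a := by
    rw [qc, qExpansion_smul ((tf_good hh' a).analytic one_pos), PowerSeries.coeff_smul,
      smul_eq_mul]
    congr 1
    exact qc_tf' hh' a n
  rw [h1, map_mul, map_intCast, map_sum]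
  have h2 : ∀ v ∈ q.fib n, iota (h ((d : ℤ) * v.1, (d : ℤ) * v.2) *
      q.lam ((d : ℤ) * v.1, (d : ℤ) * v.2) ^ a) =
      (d : L) ^ a * iota (h ((d : ℤ) * v.1, (d : ℤ) * v.2) * q.lam v ^ a) := by
    intro v _
    have e : q.lam ((d : ℤ) * v.1, (d : ℤ) * v.2) = d * q.lam v := by
      simp only [lam]; push_cast; ring
    rw [e, mul_pow, map_mul, map_mul, map_mul, map_pow, map_natCast]
    ring
  rw [Finset.sum_congr rfl h2, ← Finset.mul_sum]
  ring

lemma bdd_lam (q : QD) : ∃ C : ℝ, ∀ v : ℤ × ℤ, ‖iota (q.lam v)‖ ≤ C := by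
  refine ⟨max ‖iota (2 * q.A * q.m1 + q.B * q.m2)‖ ‖iota (q.B * q.m1 + 2 * q.C * q.m2)‖,
    fun v => ?_⟩
  rw [lam, map_add, map_mul, map_mul]
  refine (norm_add_le_max _ _).trans (max_le_max ?_ ?_)
  · rw [norm_mul, map_intCast]
    exact mul_le_of_le_one_right (norm_nonneg _) (norm_int_le_one _)
  · rw [norm_mul, map_intCast]
    exact mul_le_of_le_one_right (norm_nonneg _) (norm_int_le_one _)

omit [NeZero N] in
lemma bdd_iota (hh : Per M h) : ∃ C : ℝ, 0 ≤ C ∧ ∀ v, ‖iota (h v)‖ ≤ C := by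
  refine ⟨∑ w : ZMod M × ZMod M, ‖iota (h (rp w))‖, by positivity, fun v => ?_⟩
  rw [← hh.eq_rp]
  exact Finset.single_le_sum (f := fun w : ZMod M × ZMod M => ‖iota (h (rp w))‖)
    (fun _ _ => norm_nonneg _) (Finset.mem_univ _)

lemma base_mem (hh : Per M h) (hodd : Odd q.D) (hN : (q.D * M) ^ 2 ∣ N) (a : ℕ) :
    (fun v => iota (h v * q.lam v ^ a)) ∈ q.GS N := by
  rw [mem_GS]
  refine V.congr (Ψ := pf N (a + 1) (q.tf a h)) (fun d hd => pf_tf hh hodd hN a hd) ?_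
  refine pure_mem_V (by omega) (tf_isMF hh hodd hN a) ?_
  obtain ⟨C1, hC1⟩ := bdd_lam q
  obtain ⟨C2, hC2, hC2'⟩ := bdd_iota hh
  have hC1' : 0 ≤ C1 := (norm_nonneg _).trans (hC1 0)
  refine ⟨C2 * C1 ^ a, fun d hd n => ?_⟩
  rw [pf_tf hh hodd hN a hd]
  have h1 := WF_sub_le (q := q) (g := 0) (g' := fun v => iota (h v * q.lam v ^ a))
    (ε := C2 * C1 ^ a) (by positivity) (fun v => ?_) d n
  · have h0 : q.WF 0 d n = 0 := by simp [WF]
    rwa [h0, sub_zero] at h1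
  · simp only [Pi.zero_apply, sub_zero]
    rw [map_mul, map_pow, norm_mul, norm_pow]
    exact mul_le_mul (hC2' v) (pow_le_pow_left₀ (norm_nonneg _) (hC1 v) a) (by positivity) hC2

lemma Q_mul_mem {g : ℤ × ℤ → L} (hg : g ∈ q.GS N) : (fun v => (q.Q v : L) * g v) ∈ q.GS N := by
  rw [mem_GS] at hg ⊢
  have : q.WF (fun v => (q.Q v : L) * g v) = DF (q.WF g) := by
    funext d n
    rw [DF_apply, WF, WF]
    have h1 : ∀ v ∈ q.fib n, (q.Q ((d : ℤ) * v.1, (d : ℤ) * v.2) : L) *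
        g ((d : ℤ) * v.1, (d : ℤ) * v.2) =
        (d : L) ^ 2 * n * g ((d : ℤ) * v.1, (d : ℤ) * v.2) := by
      intro v hv
      rw [mem_fib] at hv
      have h2 : q.Q ((d : ℤ) * v.1, (d : ℤ) * v.2) = d ^ 2 * n := by
        rw [← hv, q.Qn_eq]; simp only [Q]; ring
      rw [h2]; push_cast; ring
    rw [Finset.sum_congr rfl h1, ← Finset.mul_sum]
    ring
  rw [this]
  exact DF_mem hg

/-- the conjugate data -/
def cj (q : QD) : QD where
  A := q.A
  B := q.B
  C := q.C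
  m1 := starRingEnd ℂ q.m1
  m2 := starRingEnd ℂ q.m2
  hA := q.hA
  hD := q.hD
  hm := by
    have := congrArg (starRingEnd ℂ) q.hm
    simp only [Qc, map_add, map_mul, map_pow, map_intCast, map_zero] at this ⊢
    exact this

lemma cj_lam (v : ℤ × ℤ) : q.cj.lam v = starRingEnd ℂ (q.lam v) := by
  simp only [lam, cj, map_add, map_mul, map_intCast, map_ofNat]

lemma cj_GS : q.cj.GS N = q.GS N := rfl

/-- `λ \bar λ = n Q` -/
structure LC (q : QD) where
  /-- the constant -/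
  n : ℂ
  hn : n ≠ 0
  rel : ∀ v : ℤ × ℤ, q.lam v * starRingEnd ℂ (q.lam v) = n * q.Q v

lemma base_mem2 (r : LC q) (hh : Per M h) (hodd : Odd q.D) (hN : (q.D * M) ^ 2 ∣ N) (a b : ℕ) :
    (fun v => iota (h v) * iota (q.lam v) ^ a * iota (starRingEnd ℂ (q.lam v)) ^ b) ∈ q.GS N := by
  induction b generalizing a with
  | zero =>
    have := base_mem (q := q) hh hodd hN a
    simpa only [map_mul, map_pow, pow_zero, mul_one] using this
  | succ b ih =>
    cases a with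
    | zero =>
      have := base_mem (q := q.cj) hh hodd hN (b + 1)
      rw [cj_GS] at this
      simpa only [map_mul, map_pow, pow_zero, mul_one, cj_lam] using this
    | succ a =>
      have h1 := Submodule.smul_mem _ (iota r.n) (Q_mul_mem (ih a))
      convert h1 using 1
      funext v
      simp only [Pi.smul_apply, smul_eq_mul]
      have h2 := congrArg iota (r.rel v)
      rw [map_mul, map_mul, map_intCast] at h2
      rw [pow_succ, pow_succ]
      linear_combination (iota (h v) * iota (q.lam v) ^ a *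
        iota (starRingEnd ℂ (q.lam v)) ^ b) * h2

/-- first coefficient of `λ` -/
def l1 (q : QD) : ℂ := 2 * q.A * q.m1 + q.B * q.m2
/-- second coefficient of `λ` -/
def l2 (q : QD) : ℂ := q.B * q.m1 + 2 * q.C * q.m2

lemma lam_eq (v : ℤ × ℤ) : q.lam v = q.l1 * v.1 + q.l2 * v.2 := rfl

lemma indep (r : LC q) : q.l1 * starRingEnd ℂ q.l2 - q.l2 * starRingEnd ℂ q.l1 ≠ 0 := by
  have e10 := r.rel (1, 0)
  have e01 := r.rel (0, 1)
  have e11 := r.rel (1, 1)
  simp only [lam_eq, Q, map_add, map_mul, map_intCast] at e10 e01 e11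
  push_cast at e10 e01 e11
  simp only [mul_one, mul_zero, add_zero, zero_add, one_pow, ne_eq, OfNat.ofNat_ne_zero,
    not_false_eq_true, zero_pow] at e10 e01 e11
  have hD : (4 * q.A * q.C - q.B ^ 2 : ℂ) ≠ 0 := by exact_mod_cast q.hD.ne'
  have hB : q.l1 * starRingEnd ℂ q.l2 + q.l2 * starRingEnd ℂ q.l1 = r.n * q.B := by
    linear_combination e11 - e10 - e01
  have hsq : (q.l1 * starRingEnd ℂ q.l2 - q.l2 * starRingEnd ℂ q.l1) ^ 2 =
      -(r.n ^ 2 * (4 * q.A * q.C - q.B ^ 2)) := by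
    have : (q.l1 * starRingEnd ℂ q.l2 - q.l2 * starRingEnd ℂ q.l1) ^ 2 =
        (q.l1 * starRingEnd ℂ q.l2 + q.l2 * starRingEnd ℂ q.l1) ^ 2 -
          4 * (q.l1 * starRingEnd ℂ q.l1) * (q.l2 * starRingEnd ℂ q.l2) := by ring
    rw [this, hB, e10, e01]
    ring
  intro h0
  rw [h0] at hsq
  have : r.n ^ 2 * (4 * q.A * q.C - q.B ^ 2 : ℂ) = 0 := by linear_combination hsq
  exact mul_ne_zero (pow_ne_zero _ r.hn) hD this

/-- polynomials in the coordinates -/
lemma mono_mem (r : LC q) (hh : Per M h) (hodd : Odd q.D) (hN : (q.D * M) ^ 2 ∣ N) (i j : ℕ) :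
    (fun v : ℤ × ℤ => iota (h v) * (v.1 : L) ^ i * (v.2 : L) ^ j) ∈ q.GS N := by
  set S : Submodule L (ℤ × ℤ → L) := Submodule.span L
    {g | ∃ a b : ℕ, g = fun v => iota (h v) * iota (q.lam v) ^ a *
      iota (starRingEnd ℂ (q.lam v)) ^ b} with hS
  have hSG : S ≤ q.GS N := by
    rw [hS, Submodule.span_le]
    rintro _ ⟨a, b, rfl⟩
    exact base_mem2 r hh hodd hN a b
  have hΔ := indep r
  set Δ : ℂ := q.l1 * starRingEnd ℂ q.l2 - q.l2 * starRingEnd ℂ q.l1 with hΔd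
  have hv1 : ∀ v : ℤ × ℤ, (v.1 : L) = iota (starRingEnd ℂ q.l2 / Δ) * iota (q.lam v) +
      iota (-q.l2 / Δ) * iota (starRingEnd ℂ (q.lam v)) := by
    intro v
    rw [← map_mul, ← map_mul, ← map_add, ← map_intCast iota]
    congr 1
    rw [lam_eq, map_add, map_mul, map_mul, map_intCast, map_intCast]
    field_simp
    rw [hΔd]; ring
  have hv2 : ∀ v : ℤ × ℤ, (v.2 : L) = iota (-(starRingEnd ℂ q.l1) / Δ) * iota (q.lam v) +
      iota (q.l1 / Δ) * iota (starRingEnd ℂ (q.lam v)) := by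
    intro v
    rw [← map_mul, ← map_mul, ← map_add, ← map_intCast iota]
    congr 1
    rw [lam_eq, map_add, map_mul, map_mul, map_intCast, map_intCast]
    field_simp
    rw [hΔd]; ring
  have step : ∀ (c1 c2 : L) (x : ℤ × ℤ → L), (∀ v, x v = c1 * iota (q.lam v) +
      c2 * iota (starRingEnd ℂ (q.lam v))) → ∀ g ∈ S, (fun v => g v * x v) ∈ S := by
    intro c1 c2 x hx g hg
    refine Submodule.span_induction (p := fun g _ => (fun v => g v * x v) ∈ S) ?_ ?_ ?_ ?_ hg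
    · rintro _ ⟨a, b, rfl⟩
      have e : (fun v => iota (h v) * iota (q.lam v) ^ a *
          iota (starRingEnd ℂ (q.lam v)) ^ b * x v) =
          c1 • (fun v => iota (h v) * iota (q.lam v) ^ (a + 1) *
            iota (starRingEnd ℂ (q.lam v)) ^ b) +
          c2 • (fun v => iota (h v) * iota (q.lam v) ^ a *
            iota (starRingEnd ℂ (q.lam v)) ^ (b + 1)) := by
        funext v
        simp only [Pi.add_apply, Pi.smul_apply, smul_eq_mul]
        rw [hx]; ring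
      rw [e]
      exact add_mem (Submodule.smul_mem _ _ (Submodule.subset_span ⟨a + 1, b, rfl⟩))
        (Submodule.smul_mem _ _ (Submodule.subset_span ⟨a, b + 1, rfl⟩))
    · have : (fun v => (0 : ℤ × ℤ → L) v * x v) = 0 := by funext v; simp
      rw [this]; exact zero_mem _
    · intro g1 g2 _ _ h1 h2
      have : (fun v => (g1 + g2) v * x v) = (fun v => g1 v * x v) + (fun v => g2 v * x v) := by
        funext v; simp [add_mul]
      rw [this]; exact add_mem h1 h2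
    · intro c g1 _ h1
      have : (fun v => (c • g1) v * x v) = c • (fun v => g1 v * x v) := by
        funext v; simp [mul_assoc]
      rw [this]; exact Submodule.smul_mem _ _ h1
  apply hSG
  induction j with
  | zero =>
    induction i with
    | zero => exact Submodule.subset_span ⟨0, 0, by funext v; simp⟩
    | succ i ih =>
      have := step _ _ (fun v => (v.1 : L)) hv1 _ ih
      convert this using 1
      funext v
      rw [pow_succ]; ring
  | succ j ih =>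
    have := step _ _ (fun v => (v.2 : L)) hv2 _ ih
    convert this using 1
    funext v
    rw [pow_succ]; ring

lemma poly_mem (r : LC q) (hh : Per M h) (hodd : Odd q.D) (hN : (q.D * M) ^ 2 ∣ N)
    (p p' : Polynomial L) :
    (fun v : ℤ × ℤ => iota (h v) * p.eval (v.1 : L) * p'.eval (v.2 : L)) ∈ q.GS N := by
  have e : (fun v : ℤ × ℤ => iota (h v) * p.eval (v.1 : L) * p'.eval (v.2 : L)) =
      ∑ i ∈ p.support, ∑ j ∈ p'.support, (p.coeff i * p'.coeff j) •
        (fun v : ℤ × ℤ => iota (h v) * (v.1 : L) ^ i * (v.2 : L) ^ j) := by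
    funext v
    rw [Polynomial.eval_eq_sum, Polynomial.eval_eq_sum, Polynomial.sum, Polynomial.sum,
      Finset.sum_apply, mul_assoc, Finset.sum_mul_sum, Finset.mul_sum]
    refine Finset.sum_congr rfl fun i _ => ?_
    rw [Finset.sum_apply, Finset.mul_sum]
    refine Finset.sum_congr rfl fun j _ => ?_
    simp only [Pi.smul_apply, smul_eq_mul]
    ring
  rw [e]
  exact sum_mem fun i _ => sum_mem fun j _ => Submodule.smul_mem _ _ (mono_mem r hh hodd hN i j)

/-- residue class indicators modulo `2^s`, times a tame function -/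
lemma ind_mem (r : LC q) (hh : Per M h) (hodd : Odd q.D) (hN : (q.D * M) ^ 2 ∣ N)
    (s : ℕ) (w : ℤ × ℤ) :
    (fun v : ℤ × ℤ => iota (h v) * (if (2 ^ s : ℤ) ∣ v.1 - w.1 then 1 else 0) *
      (if (2 ^ s : ℤ) ∣ v.2 - w.2 then 1 else 0)) ∈ q.GS N := by
  refine GS_closed fun ε hε => ?_
  obtain ⟨C, hC, hC'⟩ := bdd_iota hh
  set δ : ℝ := min 1 (ε / (C + 1)) with hδ
  have hδ0 : 0 < δ := lt_min one_pos (by positivity)
  have hδ1 : δ ≤ 1 := min_le_left _ _
  have hδε : C * δ ≤ ε := by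
    have h1 : δ ≤ ε / (C + 1) := min_le_right _ _
    rw [le_div_iff₀ (by positivity)] at h1
    nlinarith
  obtain ⟨p, hp⟩ := exists_poly s w.1 hδ0
  obtain ⟨p', hp'⟩ := exists_poly s w.2 hδ0
  refine ⟨_, poly_mem r hh hodd hN p p', fun v => ?_⟩
  set a : L := if (2 ^ s : ℤ) ∣ v.1 - w.1 then 1 else 0 with ha
  set b : L := if (2 ^ s : ℤ) ∣ v.2 - w.2 then 1 else 0 with hb
  have ha1 : ‖a‖ ≤ 1 := by rw [ha]; split_ifs <;> simp
  have hb1 : ‖b‖ ≤ 1 := by rw [hb]; split_ifs <;> simp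
  have h1 := hp v.1
  have h2 := hp' v.2
  rw [← ha] at h1
  rw [← hb] at h2
  have e : iota (h v) * p.eval (v.1 : L) * p'.eval (v.2 : L) - iota (h v) * a * b =
      iota (h v) * ((p.eval (v.1 : L) - a) * ((p'.eval (v.2 : L) - b) + b) +
        a * (p'.eval (v.2 : L) - b)) := by ring
  rw [e, norm_mul]
  refine le_trans ?_ hδε
  refine mul_le_mul (hC' v) ?_ (norm_nonneg _) hC
  refine (norm_add_le_max _ _).trans (max_le ?_ ?_)
  · rw [norm_mul]
    have h3 : ‖(p'.eval (v.2 : L) - b) + b‖ ≤ 1 :=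
      (norm_add_le_max _ _).trans (max_le (h2.trans hδ1) hb1)
    calc ‖p.eval (v.1 : L) - a‖ * ‖(p'.eval (v.2 : L) - b) + b‖ ≤ δ * 1 :=
          mul_le_mul h1 h3 (norm_nonneg _) hδ0.le
      _ = δ := mul_one _
  · rw [norm_mul]
    calc ‖a‖ * ‖p'.eval (v.2 : L) - b‖ ≤ 1 * δ := mul_le_mul ha1 h2 (norm_nonneg _) zero_le_one
      _ = δ := one_mul _

/-- indicator of a residue class -/
def indM (M : ℕ) (w v : ℤ × ℤ) : ℂ := if (M : ℤ) ∣ v.1 - w.1 ∧ (M : ℤ) ∣ v.2 - w.2 then 1 else 0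

omit [NeZero M] in
lemma indM_per (w : ℤ × ℤ) : Per M (indM M w) := by
  intro v u
  have h1 : ∀ x y z : ℤ, (M : ℤ) ∣ x + M * y - z ↔ (M : ℤ) ∣ x - z := by
    intro x y z
    have : x + M * y - z = (x - z) + M * y := by ring
    rw [this]
    exact (Int.dvd_add_left (dvd_mul_right _ _))
  simp only [indM, h1]

/-- **all functions periodic modulo `2^s M` are in `GS`** -/
theorem per_mem (r : LC q) (hM : Nat.Coprime M 2) (hodd : Odd q.D) (hN : (q.D * M) ^ 2 ∣ N)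
    (s : ℕ) {g : ℤ × ℤ → ℂ} (hg : Per (2 ^ s * M) g) : (fun v => iota (g v)) ∈ q.GS N := by
  haveI : NeZero (2 ^ s * M) := ⟨mul_ne_zero (by positivity) (NeZero.ne M)⟩
  have hcop : IsCoprime ((2 : ℤ) ^ s) (M : ℤ) := by
    apply IsCoprime.pow_left
    exact_mod_cast (Nat.isCoprime_iff_coprime.2 hM).symm
  have e : (fun v => iota (g v)) = ∑ w : ZMod (2 ^ s * M) × ZMod (2 ^ s * M), (iota (g (rp w))) •
      (fun v : ℤ × ℤ => iota (indM M (rp w) v) *
        (if (2 ^ s : ℤ) ∣ v.1 - (rp w).1 then 1 else 0) *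
        (if (2 ^ s : ℤ) ∣ v.2 - (rp w).2 then 1 else 0)) := by
    funext v
    rw [Finset.sum_apply]
    have hone : ∀ w : ZMod (2 ^ s * M) × ZMod (2 ^ s * M), iota (indM M (rp w) v) *
        (if (2 ^ s : ℤ) ∣ v.1 - (rp w).1 then 1 else 0) *
        (if (2 ^ s : ℤ) ∣ v.2 - (rp w).2 then 1 else 0) =
        if w = ((v.1 : ZMod (2 ^ s * M)), (v.2 : ZMod (2 ^ s * M))) then (1 : L) else 0 := by
      intro w
      have hiff : ∀ (x : ℤ) (y : ZMod (2 ^ s * M)),
          ((2 ^ s : ℤ) ∣ x - (y.val : ℤ) ∧ (M : ℤ) ∣ x - (y.val : ℤ)) ↔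
            y = (x : ZMod (2 ^ s * M)) := by
        intro x y
        constructor
        · rintro ⟨h1, h2⟩
          have h3 := hcop.mul_dvd h1 h2
          have h4 : (((2 ^ s * M : ℕ)) : ℤ) ∣ x - (y.val : ℤ) := by push_cast; exact h3
          rw [← ZMod.intCast_zmod_eq_zero_iff_dvd] at h4
          push_cast at h4
          rw [ZMod.natCast_zmod_val] at h4
          exact (sub_eq_zero.1 h4).symm
        · intro h1
          have h4 : (((2 ^ s * M : ℕ)) : ℤ) ∣ x - (y.val : ℤ) := by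
            rw [← ZMod.intCast_zmod_eq_zero_iff_dvd]
            push_cast
            rw [ZMod.natCast_zmod_val, h1, sub_self]
          push_cast at h4
          exact ⟨(dvd_mul_right _ _).trans h4, (dvd_mul_left _ _).trans h4⟩
      have i1 : ((2 ^ s : ℤ) ∣ v.1 - (rp w).1 ∧ (M : ℤ) ∣ v.1 - (rp w).1) ↔
        w.1 = (v.1 : ZMod (2 ^ s * M)) := hiff v.1 w.1
      have i2 : ((2 ^ s : ℤ) ∣ v.2 - (rp w).2 ∧ (M : ℤ) ∣ v.2 - (rp w).2) ↔
        w.2 = (v.2 : ZMod (2 ^ s * M)) := hiff v.2 w.2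
      by_cases hw : w = ((v.1 : ZMod (2 ^ s * M)), (v.2 : ZMod (2 ^ s * M)))
      · have hw1 := congrArg Prod.fst hw
        have hw2 := congrArg Prod.snd hw
        obtain ⟨a1, a2⟩ := i1.2 hw1
        obtain ⟨b1, b2⟩ := i2.2 hw2
        rw [if_pos hw, indM, if_pos ⟨a2, b2⟩, map_one, if_pos a1, if_pos b1]
        ring
      · rw [if_neg hw, indM]
        by_cases c1 : (M : ℤ) ∣ v.1 - (rp w).1 ∧ (M : ℤ) ∣ v.2 - (rp w).2
        · by_cases c2 : (2 ^ s : ℤ) ∣ v.1 - (rp w).1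
          · by_cases c3 : (2 ^ s : ℤ) ∣ v.2 - (rp w).2
            · exact absurd (Prod.ext (i1.1 ⟨c2, c1.1⟩) (i2.1 ⟨c3, c1.2⟩)) hw
            · rw [if_neg c3, mul_zero]
          · rw [if_neg c2]; ring
        · rw [if_neg c1, map_zero]; ring
    have h5 : ∑ w : ZMod (2 ^ s * M) × ZMod (2 ^ s * M),
        (if w = ((v.1 : ZMod (2 ^ s * M)), (v.2 : ZMod (2 ^ s * M))) then iota (g (rp w)) else 0) =
        iota (g v) := by
      rw [Finset.sum_ite_eq' Finset.univ ((v.1 : ZMod (2 ^ s * M)), (v.2 : ZMod (2 ^ s * M)))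
        (fun w => iota (g (rp w))), if_pos (Finset.mem_univ _), hg.eq_rp]
    rw [← h5]
    refine Finset.sum_congr rfl fun w _ => ?_
    rw [Pi.smul_apply, smul_eq_mul, hone w]
    split_ifs <;> simp
  rw [e]
  exact sum_mem fun w _ => Submodule.smul_mem _ _ (ind_mem r (indM_per (rp w)) hodd hN s (rp w))

/-- **2-adically continuous functions with tame period `M` are in `GS`** -/
theorem cont_mem (r : LC q) (hM : Nat.Coprime M 2) (hodd : Odd q.D) (hN : (q.D * M) ^ 2 ∣ N)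
    {g : ℤ × ℤ → L} (hg : ∀ m : ℕ, ∃ s : ℕ, ∀ v w : ℤ × ℤ,
      ‖g (v.1 + ((2 ^ s * M : ℕ) : ℤ) * w.1, v.2 + ((2 ^ s * M : ℕ) : ℤ) * w.2) - g v‖ ≤
        (1 / 2) ^ m) : g ∈ q.GS N := by
  refine GS_closed fun ε hε => ?_
  obtain ⟨m, hm⟩ := exists_pow_lt_of_lt_one hε (by norm_num : (1 / 2 : ℝ) < 1)
  obtain ⟨s, hs⟩ := hg m
  haveI : NeZero (2 ^ s * M) := ⟨mul_ne_zero (by positivity) (NeZero.ne M)⟩
  -- the step function
  set g0 : ℤ × ℤ → ℂ := fun v => iota.symm (g (rp (((v.1 : ZMod (2 ^ s * M))),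
    ((v.2 : ZMod (2 ^ s * M)))))) with hg0
  have hper : Per (2 ^ s * M) g0 := by
    intro v w
    have hz : (((2 ^ s * M : ℕ) : ℤ) : ZMod (2 ^ s * M)) = 0 := by
      exact_mod_cast ZMod.natCast_self (2 ^ s * M)
    have e1 : ∀ x y : ℤ, ((x + ((2 ^ s * M : ℕ) : ℤ) * y : ℤ) : ZMod (2 ^ s * M)) = x := by
      intro x y
      rw [Int.cast_add, Int.cast_mul, hz]; ring
    simp only [hg0]
    rw [e1, e1]
  refine ⟨_, per_mem r hM hodd hN s hper, fun v => ?_⟩
  simp only [hg0, RingEquiv.apply_symm_apply]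
  obtain ⟨u, hu⟩ := exists_rp (P := 2 ^ s * M) v
  have := hs (rp (((v.1 : ZMod (2 ^ s * M))), ((v.2 : ZMod (2 ^ s * M))))) u
  rw [← hu, norm_sub_rev] at this
  exact this.trans hm.le

end QD

end

end Vale.Agent.P022.H390
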