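import Vale.Agent.P022.H390.Trace2

/-!
# P022: `z ↦ 2z` and `z ↦ z/2`
-/

namespace Vale.Agent.P022.H390

open UpperHalfPlane ModularForm CongruenceSubgroup Matrix.SpecialLinearGroup
open scoped MatrixGroups ModularForm Manifold Real

noncomputable section

variable {k : ℤ} {f g : ℍ → ℂ}

/-- `f(2z)` -/
def dbl (f : ℍ → ℂ) : ℍ → ℂ := fun z => f (mat 2 0 0 1 • z)

/-- `f(z/2)` -/
def hlf (f : ℍ → ℂ) : ℍ → ℂ := fun z => f (mat 1 0 0 2 • z)

lemma dbl_eq (f : ℍ → ℂ) (k : ℤ) : f ∣[k] mat 2 0 0 1 = (2 : ℂ) ^ (k - 1) • dbl f := by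
  funext z
  rw [mat_slash_apply two_pos one_pos, Pi.smul_apply, dbl]
  push_cast
  simp [mul_comm]

lemma hlf_eq (f : ℍ → ℂ) (k : ℤ) : f ∣[k] mat 1 0 0 2 = (2 : ℂ)⁻¹ • hlf f := by
  funext z
  rw [mat_slash_apply one_pos two_pos, Pi.smul_apply, hlf]
  push_cast
  rw [one_mul, mul_assoc, ← zpow_add₀ (two_ne_zero' ℂ), show k - 1 + -k = -1 by ring, zpow_neg_one,
    smul_eq_mul, mul_comm]

lemma mat_one (z : ℍ) : mat 1 0 0 1 • z = z := by
  ext
  rw [mat_smul_coe one_pos one_pos]; simp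

lemma coe_dbl (z : ℍ) : ((mat 2 0 0 1 • z : ℍ) : ℂ) = 2 * z := by
  rw [mat_smul_coe two_pos one_pos]; push_cast; ring

lemma coe_hlf (z : ℍ) : ((mat 1 0 0 2 • z : ℍ) : ℂ) = z / 2 := by
  rw [mat_smul_coe one_pos two_pos]; push_cast; ring

lemma mat_ne_zero_det {a b c d : ℤ} (h : a * d - b * c ≠ 0) : a * d - b * c ≠ 0 := h

lemma mat_S_comm : mat 2 0 0 1 * mapGL ℝ mS = mapGL ℝ mS * mat 1 0 0 2 := by
  have hS : mapGL ℝ mS = mat 0 (-1) 1 0 := by
    rw [← mat_eq_mapGL, S_00, S_01, S_10, S_11]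
  rw [hS, mat_mul (by norm_num) (by norm_num), mat_mul (by norm_num) (by norm_num)]
  norm_num

lemma dbl_slash_S (f : ℍ → ℂ) (k : ℤ) :
    (dbl f) ∣[k] mS = (2 : ℂ) ^ (-k) • hlf (f ∣[k] mS) := by
  have h1 : (f ∣[k] mat 2 0 0 1) ∣[k] mS = (f ∣[k] mS) ∣[k] mat 1 0 0 2 := by
    rw [SL_slash, SL_slash]
    change (f ∣[k] mat 2 0 0 1) ∣[k] (mapGL ℝ mS) = (f ∣[k] mapGL ℝ mS) ∣[k] mat 1 0 0 2
    rw [← SlashAction.slash_mul, ← SlashAction.slash_mul, mat_S_comm]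
  rw [dbl_eq, hlf_eq, SL_smul_slash] at h1
  have h2 : (dbl f) ∣[k] mS = ((2 : ℂ) ^ (k - 1))⁻¹ • ((2 : ℂ) ^ (k - 1) • (dbl f) ∣[k] mS) := by
    rw [smul_smul, inv_mul_cancel₀ (zpow_ne_zero _ two_ne_zero), one_smul]
  rw [h2, h1, smul_smul]
  congr 1
  rw [← zpow_neg, ← zpow_neg_one, ← zpow_add₀ (two_ne_zero' ℂ)]
  congr 1; ring

lemma Good.vadd_one (hf : Good 1 f) (z : ℍ) : f ((1 : ℝ) +ᵥ z) = f z := by
  have := hf.per z
  simp only [Function.comp_apply, ofComplex_apply] at this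
  rw [← this]
  congr 1
  ext
  have h2 : 0 < ((z : ℂ) + ((1 : ℝ) : ℂ)).im := by simpa using z.2
  rw [ofComplex_apply_of_im_pos h2, coe_vadd]
  change _ = (z : ℂ) + ((1 : ℝ) : ℂ)
  ring

lemma Good.vadd_two (hf : Good 1 f) (z : ℍ) : f ((2 : ℝ) +ᵥ z) = f z := by
  have : (2 : ℝ) +ᵥ z = (1 : ℝ) +ᵥ ((1 : ℝ) +ᵥ z) := by
    ext; simp only [coe_vadd]; push_cast; ring
  rw [this, hf.vadd_one, hf.vadd_one]

lemma dbl_holo (hf : MDiff f) : MDiff (dbl f) := by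
  have := dbl_eq f 1
  simp only [sub_self, zpow_zero, one_smul] at this
  rw [← this]
  exact hf.slash 1 _

lemma hlf_holo (hf : MDiff f) : MDiff (hlf f) := by
  have h1 := hlf_eq f 1
  have : hlf f = (2 : ℂ) • (f ∣[(1 : ℤ)] mat 1 0 0 2) := by
    rw [h1, smul_smul]; norm_num
  rw [this]
  exact (hf.slash 1 _).const_smul _

lemma mat_10 {a b d : ℤ} (h : a * d - b * 0 ≠ 0) : (mat a b 0 d : GL (Fin 2) ℝ) 1 0 = 0 := by
  have := mat_val h
  change (mat a b 0 d : Matrix (Fin 2) (Fin 2) ℝ) 1 0 = 0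
  rw [this]; simp

lemma dbl_bdd (hf : IsBoundedAtImInfty f) : IsBoundedAtImInfty (dbl f) := by
  have := dbl_eq f 1
  simp only [sub_self, zpow_zero, one_smul] at this
  rw [← this]
  exact hf.slash _ (mat_10 (by norm_num))

lemma hlf_bdd (hf : IsBoundedAtImInfty f) : IsBoundedAtImInfty (hlf f) := by
  have h1 := hlf_eq f 1
  have : hlf f = (2 : ℂ) • (f ∣[(1 : ℤ)] mat 1 0 0 2) := by
    rw [h1, smul_smul]; norm_num
  rw [this]
  have h2 : IsBoundedAtImInfty (f ∣[(1 : ℤ)] mat 1 0 0 2) := hf.slash _ (mat_10 (by norm_num))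
  exact h2.const_smul_left (c := (2 : ℂ))

lemma Good.dbl (hf : Good 1 f) : Good 1 (dbl f) where
  per := periodic_of_T fun z => by
    rw [H390.dbl, H390.dbl, ← hf.vadd_two (mat 2 0 0 1 • z)]
    congr 1
    ext; rw [coe_dbl, coe_vadd, coe_vadd, coe_dbl]; push_cast; ring
  holo := dbl_holo hf.holo
  bdd := dbl_bdd hf.bdd

lemma Good.hlf (hf : Good 1 f) : Good 2 (hlf f) where
  per := periodic_two_of_T fun z => by
    rw [H390.hlf, H390.hlf, ← hf.vadd_one (mat 1 0 0 2 • z)]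
    congr 1
    ext; rw [coe_hlf, coe_vadd, coe_vadd, coe_vadd, coe_hlf]; push_cast; ring
  holo := hlf_holo hf.holo
  bdd := hlf_bdd hf.bdd

lemma Good.two (hf : Good 1 f) : Good 2 f where
  per := periodic_two_of_T fun z => by rw [hf.vadd_one, hf.vadd_one]
  holo := hf.holo
  bdd := hf.bdd

lemma coeff_dbl (hf : Good 1 f) (n : ℕ) :
    (qExpansion 1 (dbl f)).coeff n = if 2 ∣ n then qc f (n / 2) else 0 := by
  refine qExpansion_unique (c := fun n => if 2 ∣ n then qc f (n / 2) else 0) one_pos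
    (hf.dbl.analytic one_pos) (fun z => ?_) n
  have h1 := hf.hasSum one_pos (mat 2 0 0 1 • z)
  rw [← hasSum_mul_iff (ℓ := 2) two_ne_zero (by
    intro m hm; rw [if_neg hm, zero_mul])]
  refine h1.congr_fun fun m => ?_
  rw [if_pos (Dvd.intro_left m rfl), Nat.mul_div_cancel _ two_pos]
  congr 1
  change qq z ^ (m * 2) = qq _ ^ m
  rw [qq_pow, qq_pow, coe_dbl]
  congr 1; push_cast; ring

lemma coeff_two (hf : Good 1 f) (n : ℕ) :
    (qExpansion 2 f).coeff n = if 2 ∣ n then qc f (n / 2) else 0 := by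
  refine qExpansion_unique (c := fun n => if 2 ∣ n then qc f (n / 2) else 0) two_pos
    (hf.two.analytic two_pos) (fun z => ?_) n
  have h1 := hf.hasSum one_pos z
  rw [← hasSum_mul_iff (ℓ := 2) two_ne_zero (by
    intro m hm; rw [if_neg hm, zero_mul])]
  refine h1.congr_fun fun m => ?_
  rw [if_pos (Dvd.intro_left m rfl), Nat.mul_div_cancel _ two_pos]
  congr 1
  rw [qParam_two_pow]

lemma coeff_hlf (hf : Good 1 f) (n : ℕ) :
    (qExpansion 2 (hlf f)).coeff n = qc f n := by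
  refine qExpansion_unique (c := fun n => qc f n) two_pos
    (hf.hlf.analytic two_pos) (fun z => ?_) n
  have h1 := hf.hasSum one_pos (mat 1 0 0 2 • z)
  refine h1.congr_fun fun m => ?_
  congr 1
  change _ = qq _ ^ m
  rw [qq_pow, coe_hlf, Function.Periodic.qParam, ← Complex.exp_nat_mul]
  congr 1; push_cast; ring

end

end Vale.Agent.P022.H390
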