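import Vale.Agent.P022.H390.HeckeFun

/-!
# P022: the 2-adic Hecke algebra `𝕋₂(N)` and the definition of occurrence at level `N`
-/

namespace Vale.Agent.P022.H390

open scoped TensorProduct NumberField Topology

noncomputable section

/-- The Hecke operator `T_ℓ` on `M_k(Γ₁(N))`, for a prime `ℓ` not dividing `2 N`. -/
def opT (N : ℕ) [NeZero N] (k : ℤ) (ℓ : ℕ) (h : ℓ.Prime ∧ ¬ ℓ ∣ 2 * N) : M N k →ₗ[ℂ] M N k :=
  mkOp N k (heckeFun N k ℓ) (heckeFun_isMF h) (heckeFun_add' h) (heckeFun_smul' h)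

/-- The operator `ℓ S_ℓ = ℓ^(k-1) ⟨ℓ⟩` on `M_k(Γ₁(N))`. -/
def opS (N : ℕ) [NeZero N] (k : ℤ) (ℓ : ℕ) : M N k →ₗ[ℂ] M N k :=
  mkOp N k (lSFun N k ℓ) lSFun_isMF lSFun_add lSFun_smul

/-- The weights `1 ≤ i ≤ k`. -/
abbrev Wt (k : ℕ) : Type := {i : ℕ // 1 ≤ i ∧ i ≤ k}

/-- The ring `∏_{1 ≤ i ≤ k} End_ℂ(M_i(Γ₁(N)))` of block diagonal endomorphisms of
`⨁_{1 ≤ i ≤ k} M_i(Γ₁(N))`. -/
def BlockEnd (N : ℕ) [NeZero N] (k : ℕ) : Type := ∀ i : Wt k, Module.End ℂ (M N (i.1 : ℕ))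

/-- componentwise ring structure -/
instance instRingBlockEnd (N : ℕ) [NeZero N] (k : ℕ) : Ring (BlockEnd N k) :=
  (Pi.ring : Ring (∀ i : Wt k, Module.End ℂ (M N (i.1 : ℕ))))

/-- `T_ℓ` on `⨁_{1 ≤ i ≤ k} M_i(Γ₁(N))`. -/
def tElt (N : ℕ) [NeZero N] (k ℓ : ℕ) (h : ℓ.Prime ∧ ¬ ℓ ∣ 2 * N) : BlockEnd N k :=
  fun i => opT N (i.1 : ℕ) ℓ h

/-- `ℓ S_ℓ` on `⨁_{1 ≤ i ≤ k} M_i(Γ₁(N))`. -/
def sElt (N : ℕ) [NeZero N] (k ℓ : ℕ) : BlockEnd N k := fun i => opS N (i.1 : ℕ) ℓ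

/-- `T^{(2)}_{≤ k}(N)`: the `ℤ`-algebra generated by the operators `T_ℓ` and `ℓ S_ℓ`, for all
primes `ℓ` not dividing `2 N`, acting on `⨁_{1 ≤ i ≤ k} M_i(Γ₁(N))`. -/
def heckeAlg (N : ℕ) [NeZero N] (k : ℕ) : Subring (BlockEnd N k) :=
  Subring.closure {T | ∃ (ℓ : ℕ) (h : ℓ.Prime ∧ ¬ ℓ ∣ 2 * N), T = tElt N k ℓ h ∨ T = sElt N k ℓ}

/-- the ring `T^{(2)}_{≤ k}(N)` as a type -/
def HA (N : ℕ) [NeZero N] (k : ℕ) : Type := heckeAlg N k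

instance instRingHA (N : ℕ) [NeZero N] (k : ℕ) : Ring (HA N k) := (heckeAlg N k).toRing

/-- restriction of block diagonal endomorphisms to the weights `≤ k`. -/
def restr (N : ℕ) [NeZero N] {k k' : ℕ} (h : k ≤ k') : BlockEnd N k' →+* BlockEnd N k :=
  Pi.ringHom (fun i => Pi.evalRingHom (fun i : Wt k' => Module.End ℂ (M N (i.1 : ℕ)))
    ⟨i.1, i.2.1, i.2.2.trans h⟩)

@[simp] lemma restr_apply (N : ℕ) [NeZero N] {k k' : ℕ} (h : k ≤ k') (T : BlockEnd N k')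
    (i : Wt k) : restr N h T i = T ⟨i.1, i.2.1, i.2.2.trans h⟩ := rfl

lemma restr_mem (N : ℕ) [NeZero N] {k k' : ℕ} (h : k ≤ k') (T : BlockEnd N k')
    (hT : T ∈ heckeAlg N k') : restr N h T ∈ heckeAlg N k := by
  refine (Subring.closure_le (t := (heckeAlg N k).comap (restr N h))).2 ?_ hT
  rintro S ⟨ℓ, hℓ, hS⟩
  refine Subring.subset_closure ⟨ℓ, hℓ, ?_⟩
  rcases hS with rfl | rfl
  · left; rfl
  · right; rfl

/-- The transition map `T^{(2)}_{≤ k'}(N) → T^{(2)}_{≤ k}(N)` given by restriction. -/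
def res (N : ℕ) [NeZero N] {k k' : ℕ} (h : k ≤ k') : HA N k' →+* HA N k :=
  (restr N h).restrict (heckeAlg N k') (heckeAlg N k) (restr_mem N h)

/-- `ℤ₂ ⊗ T^{(2)}_{≤ k}(N)`. -/
def TZ (N : ℕ) [NeZero N] (k : ℕ) : Type := ℤ_[2] ⊗[ℤ] HA N k

instance instRingTZ (N : ℕ) [NeZero N] (k : ℕ) : Ring (TZ N k) :=
  (Algebra.TensorProduct.instRing : Ring (ℤ_[2] ⊗[ℤ] HA N k))

instance instAlgebraTZ (N : ℕ) [NeZero N] (k : ℕ) : Algebra ℤ_[2] (TZ N k) :=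
  (Algebra.TensorProduct.leftAlgebra : Algebra ℤ_[2] (ℤ_[2] ⊗[ℤ] HA N k))

/-- the pure tensor `a ⊗ T` -/
def TZ.tmul {N : ℕ} [NeZero N] {k : ℕ} (a : ℤ_[2]) (T : HA N k) : TZ N k := a ⊗ₜ[ℤ] T

/-- the transition map `ℤ₂ ⊗ T^{(2)}_{≤ k'}(N) → ℤ₂ ⊗ T^{(2)}_{≤ k}(N)`. -/
def resZ (N : ℕ) [NeZero N] {k k' : ℕ} (h : k ≤ k') : TZ N k' →ₐ[ℤ_[2]] TZ N k :=
  (Algebra.TensorProduct.map (AlgHom.id ℤ_[2] ℤ_[2]) (res N h).toIntAlgHom :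
    ℤ_[2] ⊗[ℤ] HA N k' →ₐ[ℤ_[2]] ℤ_[2] ⊗[ℤ] HA N k)

lemma resZ_tmul (N : ℕ) [NeZero N] {k k' : ℕ} (h : k ≤ k') (a : ℤ_[2]) (T : HA N k') :
    resZ N h (TZ.tmul a T) = TZ.tmul a (res N h T) :=
  Algebra.TensorProduct.map_tmul _ _ _ _

/-- The subalgebra of `∏_k ℤ₂ ⊗ T^{(2)}_{≤ k}(N)` of all `t` with `resZ (t k') = t k` for all
`k ≤ k'`. -/
def bigSub (N : ℕ) [NeZero N] : Subalgebra ℤ_[2] (∀ k : ℕ, TZ N k) :=
  ⨅ (k : ℕ) (k' : ℕ) (h : k ≤ k'), AlgHom.equalizer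
    ((resZ N h).comp (Pi.evalAlgHom ℤ_[2] (TZ N) k')) (Pi.evalAlgHom ℤ_[2] (TZ N) k)

lemma mem_bigSub {N : ℕ} [NeZero N] {t : ∀ k : ℕ, TZ N k} :
    t ∈ bigSub N ↔ ∀ (k k' : ℕ) (h : k ≤ k'), resZ N h (t k') = t k := by
  simp only [bigSub, Algebra.mem_iInf, AlgHom.mem_equalizer]
  rfl

/-- The 2-adic Hecke algebra `𝕋₂(N) = lim_k ℤ₂ ⊗ T^{(2)}_{≤ k}(N)`. -/
def BigHecke (N : ℕ) [NeZero N] : Type := bigSub N

instance instRingBig (N : ℕ) [NeZero N] : Ring (BigHecke N) := (bigSub N).toRing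

instance instAlgebraBig (N : ℕ) [NeZero N] : Algebra ℤ_[2] (BigHecke N) := (bigSub N).algebra

/-- The component of weights `≤ k` of an element of `𝕋₂(N)`. -/
def BigHecke.comp {N : ℕ} [NeZero N] (t : BigHecke N) (k : ℕ) : TZ N k := t.1 k

/-- The 2-adic topology on an additive group. -/
def twoAdic (A : Type*) [AddCommGroup A] : TopologicalSpace A where
  IsOpen U := ∀ x ∈ U, ∃ n : ℕ, ∀ y : A, x + (2 ^ n : ℕ) • y ∈ U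
  isOpen_univ := fun _ _ => ⟨0, fun _ => trivial⟩
  isOpen_inter := by
    rintro U V hU hV x ⟨hxU, hxV⟩
    obtain ⟨n, hn⟩ := hU x hxU
    obtain ⟨m, hm⟩ := hV x hxV
    refine ⟨n + m, fun y => ⟨?_, ?_⟩⟩
    · rw [pow_add, mul_smul]; exact hn _
    · rw [pow_add, mul_comm, mul_smul]; exact hm _
  isOpen_sUnion := by
    rintro S hS x ⟨U, hU, hx⟩
    obtain ⟨n, hn⟩ := hS U hU x hx
    exact ⟨n, fun y => ⟨U, hU, hn y⟩⟩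

/-- The topology of `𝕋₂(N)`: the inverse limit of the 2-adic topologies. -/
instance instTopBig (N : ℕ) [NeZero N] : TopologicalSpace (BigHecke N) :=
  ⨅ k : ℕ, TopologicalSpace.induced (fun t : BigHecke N => t.comp k) (twoAdic (TZ N k))

/-- `T_ℓ` as an element of `T^{(2)}_{≤ k}(N)` -/
def HA.T (N : ℕ) [NeZero N] (k ℓ : ℕ) (h : ℓ.Prime ∧ ¬ ℓ ∣ 2 * N) : HA N k :=
  ⟨tElt N k ℓ h, Subring.subset_closure ⟨ℓ, h, Or.inl rfl⟩⟩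

/-- `ℓ S_ℓ` as an element of `T^{(2)}_{≤ k}(N)` -/
def HA.S (N : ℕ) [NeZero N] (k ℓ : ℕ) (h : ℓ.Prime ∧ ¬ ℓ ∣ 2 * N) : HA N k :=
  ⟨sElt N k ℓ, Subring.subset_closure ⟨ℓ, h, Or.inr rfl⟩⟩

/-- `T_ℓ` as an element of `𝕋₂(N)`, for a prime `ℓ` not dividing `2 N`. -/
def bigT (N : ℕ) [NeZero N] (ℓ : ℕ) (h : ℓ.Prime ∧ ¬ ℓ ∣ 2 * N) : BigHecke N :=
  ⟨fun k => TZ.tmul 1 (HA.T N k ℓ h), mem_bigSub.2 fun _ _ hk => resZ_tmul N hk _ _⟩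

/-- `ℓ S_ℓ` as an element of `𝕋₂(N)`, for a prime `ℓ` not dividing `2 N`. -/
def bigS (N : ℕ) [NeZero N] (ℓ : ℕ) (h : ℓ.Prime ∧ ¬ ℓ ∣ 2 * N) : BigHecke N :=
  ⟨fun k => TZ.tmul 1 (HA.S N k ℓ h), mem_bigSub.2 fun _ _ hk => resZ_tmul N hk _ _⟩

/-- The absolute Galois group of `ℚ`. -/
abbrev GQ : Type := Gal(AlgebraicClosure ℚ/ℚ)

/-- The ring of all algebraic integers in `\bar ℚ`. -/
abbrev Zbar : Type := integralClosure ℤ (AlgebraicClosure ℚ)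

/-- `σ` lies in the inertia group of some prime `Q` of `\bar ℤ` above `ℓ`. -/
def IsInertia (ℓ : ℕ) (σ : GQ) : Prop :=
  ∃ Q : Ideal Zbar, Q.IsPrime ∧ (ℓ : Zbar) ∈ Q ∧
    ∀ x : Zbar, ∃ y ∈ Q, ((y : Zbar) : AlgebraicClosure ℚ) = σ (x : AlgebraicClosure ℚ) - x

/-- `σ` is an (arithmetic) Frobenius element of some prime `Q` of `\bar ℤ` above `ℓ`. -/
def IsFrob (ℓ : ℕ) (σ : GQ) : Prop :=
  ∃ Q : Ideal Zbar, Q.IsPrime ∧ (ℓ : Zbar) ∈ Q ∧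
    ∀ x : Zbar, ∃ y ∈ Q, ((y : Zbar) : AlgebraicClosure ℚ) =
      σ (x : AlgebraicClosure ℚ) - (x : AlgebraicClosure ℚ) ^ ℓ

/-- The ring of integers `𝒪_E`. -/
def OE (E : IntermediateField ℚ_[2] (PadicAlgCl 2)) : Type := integralClosure ℤ_[2] E

variable {E : IntermediateField ℚ_[2] (PadicAlgCl 2)}

instance instCommRingOE : CommRing (OE E) := (integralClosure ℤ_[2] E).toCommRing

instance instAlgebraOE : Algebra ℤ_[2] (OE E) := (integralClosure ℤ_[2] E).algebra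

instance instTopOE : TopologicalSpace (OE E) :=
  (instTopologicalSpaceSubtype : TopologicalSpace (integralClosure ℤ_[2] E))

/-- the inclusion `𝒪_E → E` -/
def OE.val (x : OE E) : E := (x : integralClosure ℤ_[2] E).1

/-- The continuous representations `G_ℚ → GL₂(E)`. -/
abbrev Rep (E : IntermediateField ℚ_[2] (PadicAlgCl 2)) : Type := GQ →ₜ* GL (Fin 2) E

/-- the trace of `r(σ)` -/
def Rep.tr (r : Rep E) (σ : GQ) : E := Matrix.trace (r σ : Matrix (Fin 2) (Fin 2) E)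

/-- the determinant of `r(σ)` -/
def Rep.det (r : Rep E) (σ : GQ) : E := Matrix.det (r σ : Matrix (Fin 2) (Fin 2) E)

/-- `r` is unramified at `ℓ`: every element of every inertia group above `ℓ` acts trivially. -/
def UnramifiedAt (r : Rep E) (ℓ : ℕ) : Prop := ∀ σ, IsInertia ℓ σ → r σ = 1

/-- `r` occurs at level `N`: it is unramified at every prime `ℓ ∤ 2N`, and there is a
continuous `ℤ₂`-algebra homomorphism `φ : 𝕋₂(N) → 𝒪_E` with `φ(T_ℓ) = tr r(Frob_ℓ)` and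
`φ(ℓ S_ℓ) = det r(Frob_ℓ)` for every prime `ℓ ∤ 2N`. -/
def OccursAt (N : ℕ) [NeZero N] (r : Rep E) : Prop :=
  (∀ ℓ : ℕ, ℓ.Prime → ¬ ℓ ∣ 2 * N → UnramifiedAt r ℓ) ∧
  ∃ φ : BigHecke N →ₐ[ℤ_[2]] OE E, Continuous φ ∧
    ∀ (ℓ : ℕ) (h : ℓ.Prime ∧ ¬ ℓ ∣ 2 * N) (σ : GQ), IsFrob ℓ σ →
      (φ (bigT N ℓ h)).val = r.tr σ ∧ (φ (bigS N ℓ h)).val = r.det σ

/-- A 2-adic Hecke character of `K` of tame modulus `𝔣`, in ideal-theoretic form: a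
multiplicative function on the ideals of `𝓞 K`, whose values at the ideals prime to `2𝔣` are
units of `O` (the other ideals get the value `0`), and which is 2-adically continuous: for every
`m` there is `s` such that `ψ((x)) ≡ 1 mod 2^m` for all `x ≡ 1 mod 2^s 𝔣`. -/
structure HeckeChar (K : Type*) [Field K] [NumberField K] (𝔣 : Ideal (𝓞 K))
    (O : Type*) [CommRing O] where
  /-- the underlying function on ideals -/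
  toFun : Ideal (𝓞 K) → O
  map_one' : toFun 1 = 1
  map_mul' : ∀ 𝔞 𝔟, toFun (𝔞 * 𝔟) = toFun 𝔞 * toFun 𝔟
  isUnit' : ∀ 𝔞, IsCoprime 𝔞 (Ideal.span {2} * 𝔣) → IsUnit (toFun 𝔞)
  zero' : ∀ 𝔞, ¬ IsCoprime 𝔞 (Ideal.span {2} * 𝔣) → toFun 𝔞 = 0
  cont' : ∀ m : ℕ, ∃ s : ℕ, ∀ x : 𝓞 K, x - 1 ∈ Ideal.span {2} ^ s * 𝔣 →
    ∃ y : O, toFun (Ideal.span {x}) = 1 + 2 ^ m * y

/-- `r` is attached to the Hecke character `ψ` of the imaginary quadratic field `K` (that is, `r`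
is the representation induced from the character of `G_K` corresponding to `ψ`), with exact
ramification: outside `2`, the primes at which `r` ramifies are the primes dividing
`disc K · N𝔣`; and for the other odd primes `ℓ` one has
`tr r(Frob_ℓ) = ∑_{N𝔭 = ℓ} ψ(𝔭)`, and `det r(Frob_ℓ) = ψ((ℓ))` if `ℓ` splits in `K` and
`-ψ((ℓ))` if `ℓ` is inert in `K`. -/
structure IsAttached {K : Type*} [Field K] [NumberField K] {𝔣 : Ideal (𝓞 K)}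
    (r : Rep E) (ψ : HeckeChar K 𝔣 (OE E)) : Prop where
  unram : ∀ ℓ : ℕ, ℓ.Prime → ¬ (ℓ : ℤ) ∣ 2 * (NumberField.discr K * Ideal.absNorm 𝔣) →
    UnramifiedAt r ℓ
  ram : ∀ ℓ : ℕ, ℓ.Prime → (ℓ : ℤ) ∣ NumberField.discr K * Ideal.absNorm 𝔣 →
    ¬ UnramifiedAt r ℓ
  trace : ∀ ℓ : ℕ, ℓ.Prime → ¬ (ℓ : ℤ) ∣ 2 * (NumberField.discr K * Ideal.absNorm 𝔣) →
    ∀ σ : GQ, IsFrob ℓ σ →
      r.tr σ = ∑ᶠ 𝔭 ∈ {𝔭 : Ideal (𝓞 K) | Ideal.absNorm 𝔭 = ℓ}, (ψ.toFun 𝔭).val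
  det_split : ∀ ℓ : ℕ, ℓ.Prime → ¬ (ℓ : ℤ) ∣ 2 * (NumberField.discr K * Ideal.absNorm 𝔣) →
    (∃ 𝔭 : Ideal (𝓞 K), Ideal.absNorm 𝔭 = ℓ) →
    ∀ σ : GQ, IsFrob ℓ σ → r.det σ = (ψ.toFun (Ideal.span {(ℓ : 𝓞 K)})).val
  det_inert : ∀ ℓ : ℕ, ℓ.Prime → ¬ (ℓ : ℤ) ∣ 2 * (NumberField.discr K * Ideal.absNorm 𝔣) →
    (¬ ∃ 𝔭 : Ideal (𝓞 K), Ideal.absNorm 𝔭 = ℓ) →
    ∀ σ : GQ, IsFrob ℓ σ → r.det σ = -(ψ.toFun (Ideal.span {(ℓ : 𝓞 K)})).val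

end

end Vale.Agent.P022.H390
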