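import Vale.Agent.P022.H390.Basic

/-!
# P022: diamond operators on `M_k(Γ₁(N))`
-/

namespace Vale.Agent.P022.H390

open UpperHalfPlane ModularForm CongruenceSubgroup Matrix.SpecialLinearGroup OnePoint
open scoped MatrixGroups ModularForm Manifold

noncomputable section

@[simp] lemma slMk_00 {a b c d : ℤ} (h : a * d - b * c = 1) : (slMk a b c d h) 0 0 = a := rfl
@[simp] lemma slMk_01 {a b c d : ℤ} (h : a * d - b * c = 1) : (slMk a b c d h) 0 1 = b := rfl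
@[simp] lemma slMk_10 {a b c d : ℤ} (h : a * d - b * c = 1) : (slMk a b c d h) 1 0 = c := rfl
@[simp] lemma slMk_11 {a b c d : ℤ} (h : a * d - b * c = 1) : (slMk a b c d h) 1 1 = d := rfl

variable {N : ℕ} {k : ℤ} {f : ℍ → ℂ}

lemma dia_10 {d : ℕ} (h : Nat.Coprime d N) : (dia N d) 1 0 = N := by
  rw [dia, dif_pos h]; rfl

lemma dia_11 {d : ℕ} (h : Nat.Coprime d N) : (dia N d) 1 1 = d := by
  rw [dia, dif_pos h]; rfl

lemma dia_00 {d : ℕ} (h : Nat.Coprime d N) : (dia N d) 0 0 = Nat.gcdA d N := by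
  rw [dia, dif_pos h]; rfl

lemma dia_01 {d : ℕ} (h : Nat.Coprime d N) : (dia N d) 0 1 = -Nat.gcdB d N := by
  rw [dia, dif_pos h]; rfl

lemma dia_mem (N d : ℕ) : dia N d ∈ Gamma0 N := by
  by_cases h : Nat.Coprime d N
  · rw [Gamma0_mem, dia_10 h]; simp
  · rw [dia, dif_neg h]; exact one_mem _

lemma det_eq (γ : SL(2, ℤ)) : γ 0 0 * γ 1 1 - γ 0 1 * γ 1 0 = 1 := by
  have := γ.det_coe
  rwa [Matrix.det_fin_two] at this

lemma mul_inv_mem_Gamma1 {γ γ' : SL(2, ℤ)} (h : γ ∈ Gamma0 N) (h' : γ' ∈ Gamma0 N)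
    (h11 : ((γ 1 1 : ℤ) : ZMod N) = γ' 1 1) : γ * γ'⁻¹ ∈ Gamma1 N := by
  rw [Gamma0_mem] at h h'
  have d1 : ((γ 0 0 : ZMod N)) * γ 1 1 = 1 := by
    have := congrArg (fun x : ℤ => (x : ZMod N)) (det_eq γ)
    push_cast at this
    rw [h] at this; simpa using this
  have d2 : ((γ' 0 0 : ZMod N)) * γ' 1 1 = 1 := by
    have := congrArg (fun x : ℤ => (x : ZMod N)) (det_eq γ')
    push_cast at this
    rw [h'] at this; simpa using this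
  rw [Gamma1_mem]
  have e00 : (γ * γ'⁻¹) 0 0 = γ 0 0 * γ' 1 1 - γ 0 1 * γ' 1 0 := by
    simp [Matrix.mul_apply, Fin.sum_univ_two, Matrix.adjugate_fin_two]
    ring
  have e11 : (γ * γ'⁻¹) 1 1 = -(γ 1 0 * γ' 0 1) + γ 1 1 * γ' 0 0 := by
    simp [Matrix.mul_apply, Fin.sum_univ_two, Matrix.adjugate_fin_two]
  have e10 : (γ * γ'⁻¹) 1 0 = γ 1 0 * γ' 1 1 - γ 1 1 * γ' 1 0 := by
    simp [Matrix.mul_apply, Fin.sum_univ_two, Matrix.adjugate_fin_two]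
    ring
  rw [e00, e11, e10]
  push_cast
  rw [h, h', ← h11, d1, h11, mul_comm, ]
  refine ⟨by ring, ?_, by ring⟩
  rw [mul_comm] at d2
  linear_combination d2

lemma IsMF.slash_eq_of_Gamma0 (hf : ∀ γ ∈ Gamma1 N, f ∣[k] γ = f) {γ γ' : SL(2, ℤ)}
    (h : γ ∈ Gamma0 N) (h' : γ' ∈ Gamma0 N)
    (h11 : ((γ 1 1 : ℤ) : ZMod N) = γ' 1 1) : f ∣[k] γ = f ∣[k] γ' := by
  have := hf _ (mul_inv_mem_Gamma1 h h' h11)
  calc f ∣[k] γ = f ∣[k] ((γ * γ'⁻¹) * γ') := by rw [inv_mul_cancel_right]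
    _ = f ∣[k] γ' := by rw [SlashAction.slash_mul, this]

lemma IsMF.dia_eq (hf : ∀ γ ∈ Gamma1 N, f ∣[k] γ = f) {d : ℕ} (hd : Nat.Coprime d N)
    {γ : SL(2, ℤ)} (h : γ ∈ Gamma0 N) (h11 : ((γ 1 1 : ℤ) : ZMod N) = d) :
    f ∣[k] (dia N d) = f ∣[k] γ := by
  apply IsMF.slash_eq_of_Gamma0 hf (dia_mem N d) h
  rw [dia_11 hd, h11]; simp

lemma IsMF.slash_inv_of_Gamma0 (hf : ∀ γ ∈ Gamma1 N, f ∣[k] γ = f) {γ : SL(2, ℤ)}
    (hγ : γ ∈ Gamma0 N) : ∀ g ∈ Gamma1 N, (f ∣[k] γ) ∣[k] g = f ∣[k] γ := by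
  intro g hg
  rw [← SlashAction.slash_mul]
  apply IsMF.slash_eq_of_Gamma0 hf (mul_mem hγ (Gamma1_in_Gamma0 N hg)) hγ
  rw [Gamma1_mem] at hg
  rw [Gamma0_mem] at hγ
  have : (γ * g) 1 1 = γ 1 0 * g 0 1 + γ 1 1 * g 1 1 := by
    simp [Matrix.SpecialLinearGroup.coe_mul, Matrix.mul_apply, Fin.sum_univ_two]
  rw [this]; push_cast
  rw [hγ, hg.2.1]; ring

lemma IsMF.slash_Gamma0 (hf : IsMF N k f) {γ : SL(2, ℤ)} (hγ : γ ∈ Gamma0 N) :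
    IsMF N k (f ∣[k] γ) where
  inv := IsMF.slash_inv_of_Gamma0 hf.inv hγ
  holo := by rw [SL_slash]; exact hf.holo.slash k _
  bdd g := by rw [← SlashAction.slash_mul]; exact hf.bdd _

lemma IsMF.dia (hf : IsMF N k f) (d : ℕ) : IsMF N k (f ∣[k] (dia N d)) :=
  hf.slash_Gamma0 (dia_mem N d)

lemma IsMF.dia_dia (hf : ∀ γ ∈ Gamma1 N, f ∣[k] γ = f) {d d' : ℕ} (hd : Nat.Coprime d N)
    (hd' : Nat.Coprime d' N) :
    (f ∣[k] (H390.dia N d)) ∣[k] (H390.dia N d') = f ∣[k] (H390.dia N (d * d')) := by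
  rw [← SlashAction.slash_mul]
  symm
  apply IsMF.dia_eq hf (Nat.Coprime.mul_left hd hd') (mul_mem (dia_mem N d) (dia_mem N d'))
  have : (H390.dia N d * H390.dia N d') 1 1 =
      (H390.dia N d) 1 0 * (H390.dia N d') 0 1 + (H390.dia N d) 1 1 * (H390.dia N d') 1 1 := by
    simp [Matrix.SpecialLinearGroup.coe_mul, Matrix.mul_apply, Fin.sum_univ_two]
  rw [this, dia_10 hd, dia_11 hd, dia_11 hd']
  push_cast; simp

end

end Vale.Agent.P022.H390
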