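import Vale.Agent.P022.H390.Dbl

/-!
# P022: `E₂` is a 2-adic modular form of level one
-/

namespace Vale.Agent.P022.H390

open UpperHalfPlane ModularForm CongruenceSubgroup Matrix.SpecialLinearGroup
open scoped MatrixGroups ModularForm Manifold Real ArithmeticFunction.sigma

noncomputable section

/-- `E₄` as a function -/
def e4 : ℍ → ℂ := (ModularForm.E₄ : ℍ → ℂ)

lemma isMF_e4 : IsMF 1 4 e4 := by
  have h : ∀ γ : SL(2, ℤ), e4 ∣[(4 : ℤ)] γ = e4 := fun γ =>
    SlashInvariantFormClass.slash_action_eq ModularForm.E₄ _ ⟨γ, rfl⟩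
  exact ⟨fun γ _ => h γ, ModularFormClass.holo ModularForm.E₄, fun γ => by
    rw [h γ]; exact ModularFormClass.bdd_at_infty ModularForm.E₄⟩

lemma qc_e4 (n : ℕ) : qc e4 n = if n = 0 then 1 else 240 * (σ 3 n : ℂ) := by
  have := EisensteinSeries.E_qExpansion_coeff (k := 4) (by norm_num) (by decide) n
  rw [qc]
  change (qExpansion 1 e4).coeff n = _ at this
  rw [this]
  have hb : bernoulli 4 = -1 / 30 := by
    rw [bernoulli_eq_bernoulli'_of_ne_one (by norm_num), bernoulli'_four]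
  rw [hb]
  norm_num

/-- the weight `4` form of level `Γ₀(2)`, `≡ 1` at `∞` and `≡ 0` at `0` -/
def g2 : ℍ → ℂ := (1 / 15 : ℂ) • ((16 : ℂ) • dbl e4 + (-1 : ℂ) • e4)

lemma e4_good : Good 1 e4 := isMF_e4.good

lemma g2_good : Good 1 g2 := ((e4_good.dbl.smul _).add (e4_good.smul _)).smul _

lemma g2_S : g2 ∣[(4 : ℤ)] mS = (1 / 15 : ℂ) • (hlf e4 + (-1 : ℂ) • e4) := by
  rw [g2, SL_smul_slash, SlashAction.add_slash, SL_smul_slash, SL_smul_slash, dbl_slash_S,
    slash_level_one isMF_e4, smul_smul]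
  have : (16 : ℂ) * 2 ^ (-4 : ℤ) = 1 := by norm_num
  rw [this, one_smul]

lemma g2_S_good : Good 2 (g2 ∣[(4 : ℤ)] mS) := by
  rw [g2_S]
  exact (e4_good.hlf.add (e4_good.two.smul _)).smul _

lemma norm_fifteen : ‖((15 : ℂ) : ℂ)‖ = 15 := by simp

lemma norm_iota_15 : ‖iota (1 / 15 : ℂ)‖ = 1 := by
  have : iota (1 / 15 : ℂ) = ((15 : ℕ) : L)⁻¹ := by
    rw [one_div, map_inv₀, map_ofNat]; norm_num
  rw [this, norm_inv, norm_odd (by norm_num), inv_one]

lemma norm_two_pow (n : ℕ) : ‖((2 : L)) ^ n‖ = (1 / 2) ^ n := by rw [norm_pow, norm_two]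

lemma norm_240 : ‖(240 : L)‖ ≤ 1 / 16 := by
  have : (240 : L) = 2 ^ 4 * ((15 : ℕ) : L) := by norm_num
  rw [this, norm_mul, norm_two_pow]
  have := norm_nat_le_one 15
  norm_num at this ⊢
  nlinarith

lemma norm_240_mul (m : ℕ) : ‖(240 : L) * (m : L)‖ ≤ 1 / 16 := by
  rw [norm_mul]
  calc ‖(240 : L)‖ * ‖(m : L)‖ ≤ 1 / 16 * 1 := by
        gcongr
        · exact norm_240
        · exact norm_nat_le_one m
    _ = 1 / 16 := mul_one _

lemma iota_qc_e4 (n : ℕ) : iota (qc e4 n) = if n = 0 then 1 else (240 : L) * (σ 3 n : L) := by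
  rw [qc_e4]
  split_ifs
  · exact map_one _
  · rw [map_mul, map_natCast, map_ofNat]

lemma PB.smul {P : PowerSeries L} {C : ℝ} {c : L} (hc : ‖c‖ ≤ 1) (h : PB P C) : PB (c • P) C :=
  fun n => by
    rw [PowerSeries.coeff_smul, smul_eq_mul, norm_mul]
    calc ‖c‖ * ‖P.coeff n‖ ≤ 1 * C := by
          gcongr
          exact h n
      _ = C := one_mul C

lemma qs_e4 : PB (qs 1 e4 - 1) (1 / 16) := fun n => by
  rw [map_sub, coeff_qs_one, iota_qc_e4, PowerSeries.coeff_one]
  split_ifs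
  · simp
  · rw [sub_zero]; exact norm_240_mul _

lemma qs_g2 : PB (qs 1 g2 - 1) (1 / 2) := by
  have h1 : qs 1 g2 = iota (1 / 15) • (iota 16 • qs 1 (dbl e4) + iota (-1) • qs 1 e4) := by
    rw [g2, qs_smul one_pos _ ((e4_good.dbl.smul _).add (e4_good.smul _)),
      qs_add one_pos (e4_good.dbl.smul _) (e4_good.smul _), qs_smul one_pos _ e4_good.dbl,
      qs_smul one_pos _ e4_good]
  have h2 : qs 1 g2 - 1 = iota (1 / 15) • (iota 16 • (qs 1 (dbl e4) - 1) +
      iota (-1) • (qs 1 e4 - 1)) := by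
    rw [h1]
    have h3 : (1 : PowerSeries L) = iota (1 / 15) • (iota 16 • 1 + iota (-1) • 1) := by
      rw [← add_smul, smul_smul, ← map_add, ← map_mul]
      norm_num
    nth_rewrite 1 [h3]
    rw [← smul_sub, smul_sub (iota 16), smul_sub (iota (-1))]
    congr 1
    ring
  rw [h2]
  refine PB.smul norm_iota_15.le (PB.mono (C := 1 / 16) (PB.add (PB.smul ?_ ?_)
    (PB.smul ?_ qs_e4)) (by norm_num))
  · have := norm_nat_le_one 16
    rw [map_ofNat]
    simpa using this
  · intro n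
    rw [map_sub, coeff_qs, coeff_dbl e4_good, PowerSeries.coeff_one]
    by_cases h : 2 ∣ n
    · rw [if_pos h, iota_qc_e4]
      have hn : n / 2 = 0 ↔ n = 0 := by omega
      by_cases h0 : n = 0
      · simp [h0]
      · rw [if_neg h0, if_neg (fun h' => h0 (hn.1 h')), sub_zero]
        exact norm_240_mul _
    · have h0 : n ≠ 0 := fun h' => h (h' ▸ dvd_zero 2)
      rw [if_neg h, if_neg h0]; simp
  · rw [map_neg, map_one, norm_neg, norm_one]

lemma qs_g2_S : PB (qs 2 (g2 ∣[(4 : ℤ)] mS)) (1 / 2) := by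
  rw [g2_S, qs_smul two_pos _ (e4_good.hlf.add (e4_good.two.smul _)),
    qs_add two_pos e4_good.hlf (e4_good.two.smul _), qs_smul two_pos _ e4_good.two]
  refine PB.smul norm_iota_15.le (PB.mono (C := 1 / 16) ?_ (by norm_num))
  intro n
  rw [map_add, PowerSeries.coeff_smul, coeff_qs, coeff_qs, coeff_hlf e4_good, coeff_two e4_good,
    map_neg, map_one, smul_eq_mul, neg_one_mul, ← sub_eq_add_neg]
  by_cases h : 2 ∣ n
  · rw [if_pos h, iota_qc_e4, iota_qc_e4]
    by_cases h0 : n = 0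
    · simp [h0]
    · have hn : n / 2 ≠ 0 := by omega
      rw [if_neg h0, if_neg hn]
      exact (norm_sub_le_max _ _).trans (max_le (norm_240_mul _) (norm_240_mul _))
  · have h0 : n ≠ 0 := fun h' => h (h' ▸ dvd_zero 2)
    rw [if_neg h, map_zero, sub_zero, iota_qc_e4, if_neg h0]
    exact norm_240_mul _

lemma slash_T_good {f : ℍ → ℂ} (hf : Good 1 f) (k : ℤ) : f ∣[k] mT = f := by
  funext z; rw [slash_T, hf.vadd_one]

lemma slash_TT_good {f : ℍ → ℂ} (hf : Good 2 f) (k : ℤ) : (f ∣[k] mT) ∣[k] mT = f := by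
  funext z
  rw [slash_T, slash_T]
  have := hf.per z
  simp only [Function.comp_apply, ofComplex_apply] at this
  rw [← this]
  congr 1
  ext
  have h2 : 0 < ((z : ℂ) + ((2 : ℝ) : ℂ)).im := by simpa using z.2
  rw [ofComplex_apply_of_im_pos h2, coe_vadd, coe_vadd]
  change _ = (z : ℂ) + ((2 : ℝ) : ℂ)
  push_cast; ring

lemma g02_of_good {k : ℤ} {f : ℍ → ℂ} (hk : Even k) (h1 : Good 1 f) (h2 : Good 2 (f ∣[k] mS)) :
    G02 k f :=
  ⟨hk, slash_T_good h1 k, slash_TT_good h2 k, h1.holo, h1.bdd, h2.bdd⟩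

lemma g2_G02 : G02 4 g2 := g02_of_good (by decide) g2_good g2_S_good

/-- **Transfer from `Γ₀(2)` to level one.** -/
theorem mem_V_of_G02 {k : ℕ} (hk1 : 1 ≤ k) {f : ℍ → ℂ} (hf : G02 k f) {C : ℝ}
    (h1 : PB (qs 1 f) C) (h2 : PB (qs 2 (f ∣[(k : ℤ)] mS)) C) :
    (fun d n => (d : L) ^ k * iota (qc f n) : Fm) ∈ V 1 := by
  refine V.closed fun ε hε => ?_
  have hC := h1.nonneg
  obtain ⟨j, hj⟩ := exists_pow_lt_of_lt_one (show 0 < ε / (C + 1) by positivity)
    (by norm_num : (1 / 2 : ℝ) < 1)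
  have hjC : (1 / 2 : ℝ) ^ j * C ≤ ε := by
    have : (1 / 2 : ℝ) ^ j * (C + 1) ≤ ε := by
      rw [lt_div_iff₀ (by positivity)] at hj; exact hj.le
    nlinarith [pow_pos (show (0 : ℝ) < 1 / 2 by norm_num) j]
  set m := 2 ^ j with hm
  obtain ⟨hG, hGS⟩ := hf.mul_pow g2_G02 m
  have hw : (k : ℤ) + 4 * (m : ℤ) = ((k + 4 * m : ℕ) : ℤ) := by push_cast; ring
  rw [hw] at hG hGS
  set F := f * g2 ^ m with hF
  have hgp : PB (qs 1 g2 ^ m - 1) ((1 / 2) ^ (j + 1)) := PB.pow_two_pow qs_g2 j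
  have e1 : qs 1 F = qs 1 f * qs 1 g2 ^ m := by
    rw [hF, qs_mul one_pos hf.good (g2_good.pow m), qs_pow one_pos g2_good]
  have e2 : PB (qs 1 F - qs 1 f) ((1 / 2) ^ j * C) := by
    have : qs 1 F - qs 1 f = (qs 1 g2 ^ m - 1) * qs 1 f := by rw [e1]; ring
    rw [this]
    refine (hgp.mul h1).mono ?_
    exact mul_le_mul_of_nonneg_right
      (pow_le_pow_of_le_one (by norm_num) (by norm_num) (by omega)) hC
  have e3 : PB (qs 2 (F ∣[((k + 4 * m : ℕ) : ℤ)] mS)) ((1 / 2) ^ j * C) := by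
    rw [hGS, qs_mul two_pos hf.good2 (g2_S_good.pow m), qs_pow two_pos g2_S_good, mul_comm]
    refine ((qs_g2_S.pow m).mul h2).mono ?_
    exact mul_le_mul_of_nonneg_right
      (pow_le_pow_of_le_one (by norm_num) (by norm_num) (Nat.lt_two_pow_self).le) hC
  have htr := hG.isMF_tr
  -- the difference of `q`-expansions
  have e4' : ∀ n, ‖iota (qc (tr ((k + 4 * m : ℕ) : ℤ) F) n) - iota (qc f n)‖ ≤ (1 / 2) ^ j * C := by
    intro n
    rw [hG.qc_tr, map_add, map_mul, map_ofNat]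
    have a1 := e2 n
    have a2 := e3 (n * 2)
    rw [map_sub, coeff_qs_one, coeff_qs_one] at a1
    rw [coeff_qs] at a2
    have : iota (qc F n) + 2 * iota ((qExpansion 2 (F ∣[((k + 4 * m : ℕ) : ℤ)] mS)).coeff (n * 2)) -
      iota (qc f n) = (iota (qc F n) - iota (qc f n)) +
        2 * iota ((qExpansion 2 (F ∣[((k + 4 * m : ℕ) : ℤ)] mS)).coeff (n * 2)) := by ring
    rw [this]
    refine (norm_add_le_max _ _).trans (max_le a1 ?_)
    rw [norm_mul, norm_two]
    have := norm_nonneg (iota ((qExpansion 2 (F ∣[((k + 4 * m : ℕ) : ℤ)] mS)).coeff (n * 2)))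
    linarith
  have hbf : ∀ n, ‖iota (qc f n)‖ ≤ C := fun n => by
    have := h1 n; rwa [coeff_qs_one] at this
  have hbF : ∀ n, ‖iota (qc (tr ((k + 4 * m : ℕ) : ℤ) F) n)‖ ≤ max ((1 / 2) ^ j * C) C := by
    intro n
    have : iota (qc (tr ((k + 4 * m : ℕ) : ℤ) F) n) =
      (iota (qc (tr ((k + 4 * m : ℕ) : ℤ) F) n) - iota (qc f n)) + iota (qc f n) := by ring
    rw [this]
    exact (norm_add_le_max _ _).trans (max_le_max (e4' n) (hbf n))
  have hd1 : ∀ d : ℕ, ∀ i : ℕ, ‖(d : L) ^ i‖ ≤ 1 := fun d i => by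
    rw [norm_pow]; exact pow_le_one₀ (norm_nonneg _) (norm_nat_le_one d)
  refine ⟨pf 1 (k + 4 * m) (tr ((k + 4 * m : ℕ) : ℤ) F), pure_mem_V (by omega) htr
    ⟨max ((1 / 2) ^ j * C) C, fun d _ n => ?_⟩, fun d hd n => ?_⟩
  · rw [pf_one htr, norm_mul]
    calc ‖(d : L) ^ (k + 4 * m)‖ * ‖iota (qc (tr ((k + 4 * m : ℕ) : ℤ) F) n)‖
        ≤ 1 * max ((1 / 2) ^ j * C) C := by
          gcongr
          · exact hd1 _ _
          · exact hbF n
      _ = _ := one_mul _
  · rw [pf_one htr]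
    set a := iota (qc (tr ((k + 4 * m : ℕ) : ℤ) F) n) with ha
    set b := iota (qc f n) with hb
    have : (d : L) ^ (k + 4 * m) * a - (d : L) ^ k * b =
      (d : L) ^ (k + 4 * m) * (a - b) + (d : L) ^ k * (((d : L) ^ m) ^ 4 - 1) * b := by
      rw [pow_add, ← pow_mul, mul_comm m 4]; ring
    rw [this]
    refine (norm_add_le_max _ _).trans (max_le ?_ ?_)
    · rw [norm_mul]
      calc ‖(d : L) ^ (k + 4 * m)‖ * ‖a - b‖ ≤ 1 * ((1 / 2) ^ j * C) := by
            gcongr
            · exact hd1 _ _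
            · exact e4' n
        _ ≤ ε := by rw [one_mul]; exact hjC
    · rw [norm_mul, norm_mul]
      have hdm : ‖((d : L) ^ m) ^ 4 - 1‖ ≤ (1 / 2) ^ j := by
        have h6 := norm_pow_two_pow (norm_odd_sub_one (coprime_of_mul hd)) j
        have h7 : ((d : L) ^ m) ^ 4 - 1 = ((d : L) ^ m - 1) *
            (((d : L) ^ m) ^ 3 + ((d : L) ^ m) ^ 2 + (d : L) ^ m + 1) := by ring
        rw [h7, norm_mul]
        have h8 : ‖((d : L) ^ m) ^ 3 + ((d : L) ^ m) ^ 2 + (d : L) ^ m + 1‖ ≤ 1 := by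
          have : ((d : L) ^ m) ^ 3 + ((d : L) ^ m) ^ 2 + (d : L) ^ m + 1 =
            (((d ^ m) ^ 3 + (d ^ m) ^ 2 + d ^ m + 1 : ℕ) : L) := by push_cast; ring
          rw [this]; exact norm_nat_le_one _
        calc ‖(d : L) ^ m - 1‖ * ‖((d : L) ^ m) ^ 3 + ((d : L) ^ m) ^ 2 + (d : L) ^ m + 1‖
            ≤ (1 / 2) ^ (j + 1) * 1 := by gcongr
          _ ≤ (1 / 2) ^ j := by
            rw [mul_one]
            exact pow_le_pow_of_le_one (by norm_num) (by norm_num) (by omega)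
      calc ‖(d : L) ^ k‖ * ‖((d : L) ^ m) ^ 4 - 1‖ * ‖b‖ ≤ 1 * (1 / 2) ^ j * C := by
            gcongr
            · exact hd1 _ _
            · exact hbf n
        _ ≤ ε := by rw [one_mul]; exact hjC

/-- the operator `V : f(z) ↦ f(2z)` on families -/
def VF : Fm →ₗ[L] Fm where
  toFun Φ := fun d n => if 2 ∣ n then Φ d (n / 2) else 0
  map_add' Φ Φ' := by
    funext d n
    simp only [Pi.add_apply]
    split_ifs <;> simp
  map_smul' c Φ := by
    funext d n
    simp only [Pi.smul_apply, smul_eq_mul, RingHom.id_apply]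
    split_ifs <;> simp

lemma isMF_one_odd_zero {k : ℤ} (hk : ¬ Even k) {f : ℍ → ℂ} (hf : IsMF 1 k f) : f = 0 := by
  have h1 := slash_level_one hf (-1)
  funext z
  have h2 := congrFun h1 z
  rw [SL_slash_apply] at h2
  have h3 : (-1 : SL(2, ℤ)) • z = z := by simp
  have h4 : denom (-1 : SL(2, ℤ)) z = -1 := by simp [denom]
  rw [h3, h4] at h2
  have h5 : (-1 : ℂ) ^ (-k) = -1 := by
    apply Odd.neg_one_zpow
    rw [odd_neg]
    exact Int.not_even_iff_odd.1 hk
  rw [h5] at h2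
  have : 2 * f z = 0 := by linear_combination -h2
  simpa using this

lemma dbl_G02 {k : ℤ} (hk : Even k) {f : ℍ → ℂ} (hf : IsMF 1 k f) : G02 k (dbl f) := by
  apply g02_of_good hk hf.good.dbl
  rw [dbl_slash_S, slash_level_one hf]
  exact hf.good.hlf.smul _

/-- `V` maps `V 1` to itself. -/
theorem VF_mem {Φ : Fm} (h : Φ ∈ V 1) : VF Φ ∈ V 1 := by
  refine V.map VF one_pos ?_ ?_ h
  · intro Φ ε hΦ d hd n
    have h0 : (0 : ℝ) ≤ ε := (norm_nonneg _).trans (hΦ 1 (Nat.coprime_one_left _) 0)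
    change ‖(if 2 ∣ n then Φ d (n / 2) else 0) - 0‖ ≤ 1 * ε
    rw [one_mul, sub_zero]
    split_ifs
    · simpa using hΦ d hd (n / 2)
    · simpa using h0
  · rintro _ ⟨k, f, hk, hf, ⟨C, hC⟩, rfl⟩
    by_cases hk2 : Even (k : ℤ)
    · have hb : ∀ n, ‖iota (qc f n)‖ ≤ C := by
        intro n
        have := hC 1 (Nat.coprime_one_left _) n
        rw [pf_one hf] at this
        simpa using this
      have hC0 : 0 ≤ C := hC.nonneg
      have h2 : (1 : ℝ) ≤ 2 ^ k := one_le_pow₀ (by norm_num)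
      have := mem_V_of_G02 hk (dbl_G02 hk2 hf) (C := 2 ^ k * C) ?_ ?_
      · refine V.congr (fun d _ => ?_) this
        funext n
        change (d : L) ^ k * iota ((qExpansion 1 (dbl f)).coeff n) = if 2 ∣ n then pf 1 k f d (n / 2) else 0
        rw [coeff_dbl hf.good, pf_one hf]
        split_ifs
        · rfl
        · simp
      · intro n
        rw [coeff_qs, coeff_dbl hf.good]
        split_ifs
        · exact (hb _).trans (by nlinarith)
        · rw [map_zero, norm_zero]; positivity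
      · rw [dbl_slash_S, slash_level_one hf, qs_smul two_pos _ hf.good.hlf]
        intro n
        rw [PowerSeries.coeff_smul, coeff_qs, coeff_hlf hf.good, smul_eq_mul, norm_mul, zpow_neg,
          zpow_natCast, map_inv₀, map_pow, map_ofNat, norm_inv, norm_pow, norm_two]
        have h3 : ((1 / 2 : ℝ) ^ k)⁻¹ = 2 ^ k := by
          rw [one_div, inv_pow, inv_inv]
        rw [h3]
        exact mul_le_mul_of_nonneg_left (hb n) (by positivity)
    · have h0 := isMF_one_odd_zero hk2 hf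
      have : pf 1 k f = 0 := by
        funext d n
        rw [pf_one hf, h0, qc]
        simp [qExpansion_zero]
      rw [this, map_zero]; exact zero_mem _

/-- `E₂` -/
abbrev e2 : ℍ → ℂ := EisensteinSeries.E2

lemma e2_slash_T : e2 ∣[(2 : ℤ)] mT = e2 := by
  rw [EisensteinSeries.E2_slash_action, EisensteinSeries.D2_T]; simp

lemma e2_good : Good 1 e2 :=
  good_of_T e2_slash_T E2_mdifferentiable EisensteinSeries.isBoundedAtImInfty_E2

lemma qc_e2 (n : ℕ) : qc e2 n = if n = 0 then 1 else -24 * (σ 1 n : ℂ) := by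
  refine qc_unique (c := fun n => if n = 0 then 1 else -24 * (σ 1 n : ℂ))
    (e2_good.analytic one_pos) (fun z => ?_) n
  have := EisensteinSeries.hasSum_qExpansion_E2 (z := z)
  refine this.congr_fun fun m => ?_
  rw [smul_eq_mul, qq_eq]

/-- the weight 2 form `2 E₂(2z) - E₂(z)` of level `Γ₀(2)` -/
def h2 : ℍ → ℂ := (2 : ℂ) • dbl e2 + (-1 : ℂ) • e2

lemma h2_good : Good 1 h2 := (e2_good.dbl.smul _).add (e2_good.smul _)

lemma h2_S : h2 ∣[(2 : ℤ)] mS = (1 / 2 : ℂ) • hlf e2 + (-1 : ℂ) • e2 := by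
  rw [h2, SlashAction.add_slash, SL_smul_slash, SL_smul_slash, dbl_slash_S]
  funext z
  have hS : ∀ z : ℍ, (e2 ∣[(2 : ℤ)] mS) z = e2 z - 1 / (2 * riemannZeta 2) * (2 * π * Complex.I / z) := by
    intro z
    rw [EisensteinSeries.E2_slash_action]
    change e2 z - 1 / (2 * riemannZeta 2) * EisensteinSeries.D2 ModularGroup.S z = _
    rw [EisensteinSeries.D2_S]
  simp only [Pi.add_apply, Pi.smul_apply, smul_eq_mul, hlf]
  rw [hS, hS, coe_hlf]
  have hz : (z : ℂ) ≠ 0 := z.ne_zero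
  have h2p : (2 : ℂ) ^ (-2 : ℤ) = 1 / 4 := by norm_num
  rw [h2p]
  field_simp
  ring

lemma h2_S_good : Good 2 (h2 ∣[(2 : ℤ)] mS) := by
  rw [h2_S]; exact (e2_good.hlf.smul _).add (e2_good.two.smul _)

lemma h2_G02 : G02 2 h2 := g02_of_good (by decide) h2_good h2_S_good

/-- the family of `E₂` -/
def e2F : Fm := fun d n => (d : L) ^ 2 * iota (qc e2 n)

lemma iota_qc_e2 (n : ℕ) : ‖iota (qc e2 n)‖ ≤ 1 := by
  rw [qc_e2]
  split_ifs
  · simp
  · have : iota (-24 * (σ 1 n : ℂ)) = ((-24 * (σ 1 n : ℤ) : ℤ) : L) := by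
      rw [map_mul, map_neg, map_natCast, map_ofNat]; push_cast; ring
    rw [this]; exact norm_int_le_one _

lemma e2F_bdd (N : ℕ) : BddF N e2F 1 := fun d _ n => by
  rw [e2F, norm_mul, norm_pow]
  exact mul_le_one₀ (pow_le_one₀ (norm_nonneg _) (norm_nat_le_one d)) (norm_nonneg _)
    (iota_qc_e2 n)

/-- **`E₂` is a 2-adic modular form of level one.** -/
theorem e2F_mem : e2F ∈ V 1 := by
  -- the family of `h2`
  set Hf : Fm := fun d n => (d : L) ^ 2 * iota (qc h2 n) with hHf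
  have hH : Hf ∈ V 1 := by
    refine mem_V_of_G02 (by norm_num) (k := 2) h2_G02 (C := 2) ?_ ?_
    · intro n
      rw [coeff_qs, h2, qExpansion_add ((e2_good.dbl.smul _).analytic one_pos)
        ((e2_good.smul _).analytic one_pos), qExpansion_smul (e2_good.dbl.analytic one_pos),
        qExpansion_smul (e2_good.analytic one_pos), map_add, PowerSeries.coeff_smul,
        PowerSeries.coeff_smul, coeff_dbl e2_good, map_add, smul_eq_mul, smul_eq_mul, map_mul,
        map_mul, map_ofNat, map_neg, map_one]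
      refine (norm_add_le_max _ _).trans (max_le ?_ ?_)
      · rw [norm_mul, norm_two]
        split_ifs
        · have := iota_qc_e2 (n / 2); linarith
        · simp
      · rw [norm_mul, norm_neg, norm_one, one_mul]
        have := iota_qc_e2 n
        rw [qc] at this
        linarith
    · intro n
      rw [coeff_qs]
      change ‖iota ((qExpansion 2 (h2 ∣[(2 : ℤ)] mS)).coeff n)‖ ≤ 2
      rw [h2_S, qExpansion_add ((e2_good.hlf.smul _).analytic two_pos)
        ((e2_good.two.smul _).analytic two_pos), qExpansion_smul (e2_good.hlf.analytic two_pos),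
        qExpansion_smul (e2_good.two.analytic two_pos), map_add, PowerSeries.coeff_smul,
        PowerSeries.coeff_smul, coeff_hlf e2_good, coeff_two e2_good, map_add, smul_eq_mul,
        smul_eq_mul, map_mul, map_mul, map_div₀, map_one, map_ofNat, map_neg, map_one]
      refine (norm_add_le_max _ _).trans (max_le ?_ ?_)
      · rw [norm_mul, norm_div, norm_one, norm_two]
        have := iota_qc_e2 n
        linarith
      · rw [norm_mul, norm_neg, norm_one, one_mul]
        split_ifs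
        · have := iota_qc_e2 (n / 2); linarith
        · simp
  -- the relation `H = 2 V E₂ - E₂`
  have hrel : e2F = (2 : L) • VF e2F - Hf := by
    funext d n
    change (d : L) ^ 2 * iota (qc e2 n) = 2 * (if 2 ∣ n then e2F d (n / 2) else 0) -
      (d : L) ^ 2 * iota ((qExpansion 1 h2).coeff n)
    rw [h2, qExpansion_add ((e2_good.dbl.smul _).analytic one_pos)
        ((e2_good.smul _).analytic one_pos), qExpansion_smul (e2_good.dbl.analytic one_pos),
        qExpansion_smul (e2_good.analytic one_pos), map_add, PowerSeries.coeff_smul,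
        PowerSeries.coeff_smul, coeff_dbl e2_good, map_add, smul_eq_mul, smul_eq_mul, map_mul,
        map_mul, map_ofNat, map_neg, map_one, e2F]
    rw [qc]
    split_ifs
    · rw [qc]; ring
    · rw [map_zero]; ring
  -- iterate
  have hit : ∀ j : ℕ, ∃ Ψ ∈ V 1, Near 1 Ψ e2F ((1 / 2) ^ j) := by
    intro j
    induction j with
    | zero =>
      refine ⟨0, zero_mem _, fun d hd n => ?_⟩
      have := e2F_bdd 1 d hd n
      simpa using this
    | succ j ih =>
      obtain ⟨Ψ, hΨ, h1⟩ := ih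
      refine ⟨(2 : L) • VF Ψ - Hf, sub_mem (Submodule.smul_mem _ _ (VF_mem hΨ)) hH,
        fun d hd n => ?_⟩
      have h3 : ((2 : L) • VF Ψ - Hf) d n - e2F d n =
          2 * (if 2 ∣ n then (Ψ d (n / 2) - e2F d (n / 2)) else 0) := by
        have h4 := congrFun (congrFun hrel d) n
        rw [h4]
        change 2 * (if 2 ∣ n then Ψ d (n / 2) else 0) - Hf d n -
          (2 * (if 2 ∣ n then e2F d (n / 2) else 0) - Hf d n) = _
        split_ifs <;> ring
      rw [h3, norm_mul, norm_two, pow_succ, mul_comm]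
      refine mul_le_mul_of_nonneg_right ?_ (by norm_num)
      split_ifs
      · exact h1 d hd _
      · rw [norm_zero]; positivity
  refine V.closed fun ε hε => ?_
  obtain ⟨j, hj⟩ := exists_pow_lt_of_lt_one hε (by norm_num : (1 / 2 : ℝ) < 1)
  obtain ⟨Ψ, hΨ, h1⟩ := hit j
  exact ⟨Ψ, hΨ, h1.mono hj.le⟩

end

end Vale.Agent.P022.H390
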