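import Vale.Agent.P022.H390.HeckeFun

/-!
# P022: `q`-expansions, and the `q`-expansion of `T_ℓ f`
-/

namespace Vale.Agent.P022.H390

open UpperHalfPlane ModularForm CongruenceSubgroup Matrix.SpecialLinearGroup
open scoped MatrixGroups ModularForm Manifold Real

noncomputable section

variable {N : ℕ} {k : ℤ} {f g : ℍ → ℂ} {ℓ : ℕ}

/-- `q = exp(2 π i z)` -/
abbrev qq (z : ℂ) : ℂ := Function.Periodic.qParam 1 z

lemma qq_eq (z : ℂ) : qq z = Complex.exp (2 * π * Complex.I * z) := by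
  simp [qq, Function.Periodic.qParam]

lemma qq_pow (z : ℂ) (m : ℕ) : qq z ^ m = Complex.exp (2 * π * Complex.I * (m * z)) := by
  rw [qq_eq, ← Complex.exp_nat_mul]; congr 1; ring

/-- `n`-th coefficient of the `q`-expansion -/
def qc (f : ℍ → ℂ) (n : ℕ) : ℂ := (qExpansion 1 f).coeff n

lemma one_mem_sp (N : ℕ) : (1 : ℝ) ∈
    ((Gamma1 N : Subgroup SL(2, ℤ)) : Subgroup (GL (Fin 2) ℝ)).strictPeriods := by
  rw [strictPeriods_Gamma1]; exact AddSubgroup.mem_zmultiples 1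

lemma IsMF.bddInf (hf : IsMF N k f) : IsBoundedAtImInfty f := by
  have := hf.bdd 1
  rwa [SlashAction.slash_one] at this

lemma periodic_of_T {f : ℍ → ℂ} (h : ∀ z : ℍ, f ((1 : ℝ) +ᵥ z) = f z) :
    Function.Periodic (f ∘ ofComplex) (1 : ℝ) := by
  intro w
  by_cases hw : 0 < w.im
  · have h2 : 0 < (w + ((1 : ℝ) : ℂ)).im := by simpa using hw
    simp only [Function.comp_apply, ofComplex_apply_of_im_pos h2, ofComplex_apply_of_im_pos hw]
    rw [← h ⟨w, hw⟩]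
    congr 1
    ext
    simp [add_comm]
  · have h2 : ¬ 0 < (w + ((1 : ℝ) : ℂ)).im := by simpa using hw
    simp only [Function.comp_apply]
    rw [ofComplex_apply_of_im_nonpos (not_lt.1 hw), ofComplex_apply_of_im_nonpos (not_lt.1 h2)]

lemma IsMF.periodic [NeZero N] (hf : IsMF N k f) :
    Function.Periodic (f ∘ ofComplex) (1 : ℝ) :=
  SlashInvariantFormClass.periodic_comp_ofComplex hf.toM (one_mem_sp N)

lemma IsMF.analytic [NeZero N] (hf : IsMF N k f) : AnalyticAt ℂ (cuspFunction 1 f) 0 :=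
  analyticAt_cuspFunction_zero one_pos hf.periodic hf.holo hf.bddInf

lemma IsMF.hasSum [NeZero N] (hf : IsMF N k f) (z : ℍ) :
    HasSum (fun m : ℕ => qc f m * qq z ^ m) (f z) :=
  UpperHalfPlane.hasSum_qExpansion one_pos hf.periodic hf.holo hf.bddInf z

/-- uniqueness of `q`-expansions, for plain functions and any period `h`. -/
lemma qExpansion_unique {h : ℝ} (hh : 0 < h) {f : ℍ → ℂ} {c : ℕ → ℂ}
    (ha : AnalyticAt ℂ (cuspFunction h f) 0)
    (hf : ∀ z : ℍ, HasSum (fun m : ℕ => c m * Function.Periodic.qParam h z ^ m) (f z)) (m : ℕ) :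
    (qExpansion h f).coeff m = c m :=
  letI : FunLike (ℍ → ℂ) ℍ ℂ := ⟨fun f => f, fun _ _ h => h⟩
  (qExpansion_coeff_unique (F := ℍ → ℂ) f hh ha hf m).symm

lemma qc_unique {c : ℕ → ℂ} (ha : AnalyticAt ℂ (cuspFunction 1 f) 0)
    (h : ∀ z : ℍ, HasSum (fun m : ℕ => c m * qq z ^ m) (f z)) (m : ℕ) : qc f m = c m :=
  qExpansion_unique one_pos ha h m

lemma IsMF.qc_eq [NeZero N] (hf : IsMF N k f) {c : ℕ → ℂ}
    (h : ∀ z : ℍ, HasSum (fun m : ℕ => c m * qq z ^ m) (f z)) (m : ℕ) : qc f m = c m :=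
  qc_unique hf.analytic h m

lemma mat_smul_coe {a b d : ℤ} (ha : 0 < a) (hd : 0 < d) (z : ℍ) :
    ((mat a b 0 d • z : ℍ) : ℂ) = (a * z + b) / d := by
  have hdet : a * d - b * 0 ≠ 0 := by simpa using ⟨ha.ne', hd.ne'⟩
  have hpos : 0 < (mat a b 0 d).det.val := by
    rw [Matrix.GeneralLinearGroup.val_det_apply, mat_val hdet, Matrix.det_fin_two_of]
    have : (0 : ℝ) < a * d := by exact_mod_cast mul_pos ha hd
    simpa using this
  rw [UpperHalfPlane.coe_smul_of_det_pos hpos, num, denom, mat_val hdet]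
  simp

lemma mat_slash_apply {a b d : ℤ} (ha : 0 < a) (hd : 0 < d) (f : ℍ → ℂ) (z : ℍ) :
    (f ∣[k] mat a b 0 d) z = f (mat a b 0 d • z) * ((a * d : ℂ)) ^ (k - 1) * (d : ℂ) ^ (-k) := by
  have hdet : a * d - b * 0 ≠ 0 := by simpa using ⟨ha.ne', hd.ne'⟩
  have hdv : (mat a b 0 d).det.val = a * d := by
    rw [Matrix.GeneralLinearGroup.val_det_apply, mat_val hdet, Matrix.det_fin_two_of]
    simp
  have hpos : 0 < (mat a b 0 d).det.val := by
    rw [hdv]; exact_mod_cast mul_pos ha hd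
  rw [slash_apply, σ, if_pos hpos, abs_of_pos hpos, hdv, denom, mat_val hdet]
  simp

lemma qq_mat {a b d : ℤ} (ha : 0 < a) (hd : 0 < d) (z : ℍ) (m : ℕ) :
    qq ((mat a b 0 d • z : ℍ) : ℂ) ^ m = Complex.exp (2 * π * Complex.I * (m * ((a * z + b) / d))) := by
  rw [qq_pow, mat_smul_coe ha hd]

/-- reindexing a sum supported on multiples of `ℓ`. -/
lemma hasSum_mul_iff {F : ℕ → ℂ} {s : ℂ} (hℓ : ℓ ≠ 0) (hF : ∀ m, ¬ ℓ ∣ m → F m = 0) :
    HasSum (fun n => F (n * ℓ)) s ↔ HasSum F s := by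
  have hinj : Function.Injective (fun n : ℕ => n * ℓ) := fun a b h =>
    Nat.eq_of_mul_eq_mul_right (Nat.pos_of_ne_zero hℓ) h
  exact hinj.hasSum_iff (f := F) (fun x hx => hF x (fun ⟨c, hc⟩ => hx ⟨c, by simp [hc, mul_comm]⟩))

lemma sum_range_exp [hℓ : Fact ℓ.Prime] (m : ℕ) :
    ∑ j ∈ Finset.range ℓ, Complex.exp (2 * π * Complex.I * (m * (j / ℓ))) =
      if ℓ ∣ m then (ℓ : ℂ) else 0 := by
  have hℓ0 : (ℓ : ℂ) ≠ 0 := by exact_mod_cast hℓ.out.ne_zero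
  set ζ := Complex.exp (2 * π * Complex.I * (m / ℓ)) with hζ
  have h1 : ∀ j : ℕ, Complex.exp (2 * π * Complex.I * (m * (j / ℓ))) = ζ ^ j := by
    intro j
    rw [hζ, ← Complex.exp_nat_mul]; congr 1; ring
  simp_rw [h1]
  split_ifs with h
  · obtain ⟨c, rfl⟩ := h
    have : ζ = 1 := by
      rw [hζ, Complex.exp_eq_one_iff]
      refine ⟨c, ?_⟩
      push_cast
      field_simp
    simp [this]
  · have hne : ζ ≠ 1 := by
      intro hcon
      rw [hζ, Complex.exp_eq_one_iff] at hcon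
      obtain ⟨n, hn⟩ := hcon
      have h2 : ((m : ℂ) / ℓ) = n := by
        have := Complex.two_pi_I_ne_zero
        have h3 : 2 * π * Complex.I * ((m : ℂ) / ℓ) = 2 * π * Complex.I * n := by
          rw [hn]; ring
        exact mul_left_cancel₀ this h3
      rw [div_eq_iff hℓ0] at h2
      have h3 : (m : ℤ) = n * ℓ := by exact_mod_cast h2
      apply h
      have : (ℓ : ℤ) ∣ m := ⟨n, by rw [h3]; ring⟩
      exact_mod_cast this
    have hpow : ζ ^ ℓ = 1 := by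
      rw [hζ, ← Complex.exp_nat_mul, Complex.exp_eq_one_iff]
      refine ⟨m, ?_⟩
      push_cast
      field_simp
    have := geom_sum_eq hne ℓ
    rw [this, hpow]; simp

/-- the `q`-expansion of `T_ℓ f`. -/
theorem IsMF.qc_hecke [NeZero N] [hℓ : Fact ℓ.Prime] (h : Nat.Coprime ℓ N) (hf : IsMF N k f)
    (n : ℕ) : qc (heckeFun N k ℓ f) n =
      qc f (n * ℓ) + (ℓ : ℂ) ^ (k - 1) * (if ℓ ∣ n then qc (f ∣[k] (H390.dia N ℓ)) (n / ℓ) else 0) := by
  have hℓ0 : (ℓ : ℂ) ≠ 0 := by exact_mod_cast hℓ.out.ne_zero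
  have hℓp : 0 < (ℓ : ℤ) := by exact_mod_cast hℓ.out.pos
  refine (hf.hecke h).qc_eq (c := fun n => qc f (n * ℓ) + (ℓ : ℂ) ^ (k - 1) *
    (if ℓ ∣ n then qc (f ∣[k] (H390.dia N ℓ)) (n / ℓ) else 0)) (fun z => ?_) n
  have hg := hf.dia ℓ
  set g := f ∣[k] (H390.dia N ℓ) with hgdef
  -- first part
  have h1 : HasSum (fun m : ℕ => qc f (m * ℓ) * qq z ^ m)
      ((∑ j ∈ Finset.range ℓ, f ∣[k] (mat 1 j 0 ℓ)) z) := by
    have ha : ∀ j ∈ Finset.range ℓ, HasSum (fun m : ℕ => qc f m *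
        Complex.exp (2 * π * Complex.I * (m * (z / ℓ))) * (ℓ : ℂ)⁻¹ *
          Complex.exp (2 * π * Complex.I * (m * (j / ℓ)))) ((f ∣[k] (mat 1 j 0 ℓ)) z) := by
      intro j _
      rw [mat_slash_apply one_pos hℓp]
      have h2 := ((hf.hasSum (mat 1 j 0 ℓ • z)).mul_right
        ((((1 : ℤ) * (ℓ : ℤ) : ℂ)) ^ (k - 1))).mul_right (((ℓ : ℤ) : ℂ) ^ (-k))
      have h3 : (((1 : ℤ) * (ℓ : ℤ) : ℂ)) ^ (k - 1) * ((ℓ : ℤ) : ℂ) ^ (-k) = (ℓ : ℂ)⁻¹ := by
        push_cast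
        rw [one_mul, ← zpow_add₀ hℓ0, show k - 1 + -k = -1 by ring, zpow_neg_one]
      refine h2.congr_fun (fun m => ?_)
      rw [mul_assoc (qc f m * qq _ ^ m), h3, qq_mat one_pos hℓp]
      have h4 : (2 * π * Complex.I * (m * ((((1 : ℤ) : ℂ) * z + (j : ℤ)) / (ℓ : ℤ)))) =
        (2 * π * Complex.I * (m * (z / ℓ))) + (2 * π * Complex.I * (m * ((j : ℂ) / ℓ))) := by
        push_cast; field_simp
      rw [h4, Complex.exp_add]; ring
    have hb := hasSum_sum ha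
    simp_rw [← Finset.mul_sum, sum_range_exp] at hb
    rw [Finset.sum_apply]
    rw [← hasSum_mul_iff hℓ.out.ne_zero (by
      intro m hm; rw [if_neg hm, mul_zero])] at hb
    refine hb.congr_fun (fun m => ?_)
    rw [if_pos (Dvd.intro_left m rfl), qq_pow]
    have h4 : (2 * π * Complex.I * (((m * ℓ : ℕ) : ℂ) * ((z : ℂ) / ℓ))) =
      2 * π * Complex.I * (m * z) := by push_cast; field_simp
    rw [h4]; field_simp
  -- second part
  have h2 : HasSum (fun m : ℕ => (ℓ : ℂ) ^ (k - 1) * (if ℓ ∣ m then qc g (m / ℓ) else 0) * qq z ^ m)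
      ((g ∣[k] (mat ℓ 0 0 1)) z) := by
    rw [mat_slash_apply hℓp one_pos]
    have h2 := ((hg.hasSum (mat ℓ 0 0 1 • z)).mul_right
        ((((ℓ : ℤ) * (1 : ℤ) : ℂ)) ^ (k - 1))).mul_right (((1 : ℤ) : ℂ) ^ (-k))
    rw [← hasSum_mul_iff (ℓ := ℓ) hℓ.out.ne_zero (by
      intro m hm; rw [if_neg hm]; ring)]
    refine h2.congr_fun (fun m => ?_)
    rw [if_pos (Dvd.intro_left m rfl), Nat.mul_div_cancel _ hℓ.out.pos, qq_mat hℓp one_pos, qq_pow]
    have h4 : (2 * π * Complex.I * (m * ((((ℓ : ℤ) : ℂ) * z + ((0 : ℤ) : ℂ)) / ((1 : ℤ) : ℂ)))) =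
        (2 * π * Complex.I * (((m * ℓ : ℕ) : ℂ) * z)) := by
      push_cast; ring
    rw [h4]; push_cast; simp; ring
  have h3 := h1.add h2
  rw [heckeFun, add_comm]
  exact h3.congr_fun (fun m => by ring)

end

end Vale.Agent.P022.H390
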