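import Vale.Agent.P022.H390.Two
import Vale.Agent.P022.H390.QExp

/-!
# P022: families of `q`-expansions and the space `V N` (2-adic modular forms of tame level `N`)
-/

namespace Vale.Agent.P022.H390

open UpperHalfPlane ModularForm CongruenceSubgroup Matrix.SpecialLinearGroup
open scoped MatrixGroups ModularForm Manifold

noncomputable section

/-- families -/
abbrev Fm : Type := ℕ → ℕ → L

/-- the pure family `d ↦ d^k ⟨d⟩ f` of a modular form of weight `k` -/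
def pf (N k : ℕ) (f : ℍ → ℂ) : Fm := fun d n => (d : L) ^ k * iota (qc (f ∣[(k : ℤ)] (dia N d)) n)

/-- `Ψ` and `Φ` are `ε`-close on the `d` prime to `2N`. -/
def Near (N : ℕ) (Ψ Φ : Fm) (ε : ℝ) : Prop :=
  ∀ d, Nat.Coprime d (2 * N) → ∀ n, ‖Ψ d n - Φ d n‖ ≤ ε

/-- bounded by `C` on the `d` prime to `2N` -/
def BddF (N : ℕ) (Φ : Fm) (C : ℝ) : Prop := ∀ d, Nat.Coprime d (2 * N) → ∀ n, ‖Φ d n‖ ≤ C

variable {N : ℕ} {Φ Ψ Φ' Ψ' Ξ : Fm} {ε δ C : ℝ}

lemma Near.symm (h : Near N Ψ Φ ε) : Near N Φ Ψ ε := fun d hd n => by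
  rw [norm_sub_rev]; exact h d hd n

lemma Near.mono (h : Near N Ψ Φ ε) (hε : ε ≤ δ) : Near N Ψ Φ δ := fun d hd n =>
  (h d hd n).trans hε

lemma Near.trans (h : Near N Ψ Φ ε) (h' : Near N Φ Ξ ε) : Near N Ψ Ξ ε := fun d hd n => by
  have : Ψ d n - Ξ d n = (Ψ d n - Φ d n) + (Φ d n - Ξ d n) := by ring
  rw [this]
  exact (norm_add_le_max _ _).trans (max_le (h d hd n) (h' d hd n))

lemma Near.refl (h : 0 ≤ ε) : Near N Φ Φ ε := fun d hd n => by simpa using h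

lemma Near.add (h : Near N Ψ Φ ε) (h' : Near N Ψ' Φ' ε) : Near N (Ψ + Ψ') (Φ + Φ') ε :=
  fun d hd n => by
    have : (Ψ + Ψ') d n - (Φ + Φ') d n = (Ψ d n - Φ d n) + (Ψ' d n - Φ' d n) := by
      simp only [Pi.add_apply]; ring
    rw [this]
    exact (norm_add_le_max _ _).trans (max_le (h d hd n) (h' d hd n))

lemma Near.smul (c : L) (h : Near N Ψ Φ ε) : Near N (c • Ψ) (c • Φ) (‖c‖ * ε) :=
  fun d hd n => by
    have : (c • Ψ) d n - (c • Φ) d n = c * (Ψ d n - Φ d n) := by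
      simp only [Pi.smul_apply, smul_eq_mul]; ring
    rw [this, norm_mul]
    exact mul_le_mul_of_nonneg_left (h d hd n) (norm_nonneg c)

lemma Near.bdd (h : Near N Ψ Φ ε) (hΦ : BddF N Φ C) : BddF N Ψ (max ε C) := fun d hd n => by
  have : Ψ d n = (Ψ d n - Φ d n) + Φ d n := by ring
  rw [this]
  exact (norm_add_le_max _ _).trans (max_le_max (h d hd n) (hΦ d hd n))

lemma BddF.mono (h : BddF N Φ C) {C' : ℝ} (hC : C ≤ C') : BddF N Φ C' :=
  fun d hd n => (h d hd n).trans hC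

lemma BddF.nonneg (h : BddF N Φ C) : 0 ≤ C :=
  (norm_nonneg _).trans (h 1 (Nat.coprime_one_left _) 0)

/-- bounded pure families -/
def PureSet (N : ℕ) : Set Fm :=
  {Φ | ∃ (k : ℕ) (f : ℍ → ℂ), 1 ≤ k ∧ IsMF N k f ∧ (∃ C, BddF N (pf N k f) C) ∧ Φ = pf N k f}

/-- the span of bounded pure families -/
def V0 (N : ℕ) : Submodule L Fm := Submodule.span L (PureSet N)

lemma exists_bdd_of_V0 (h : Φ ∈ V0 N) : ∃ C, BddF N Φ C := by
  refine Submodule.span_induction ?_ ?_ ?_ ?_ h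
  · rintro _ ⟨k, f, _, _, hC, rfl⟩; exact hC
  · exact ⟨0, fun d hd n => by simp⟩
  · rintro x y _ _ ⟨C, hC⟩ ⟨C', hC'⟩
    refine ⟨max C C', fun d hd n => ?_⟩
    rw [Pi.add_apply, Pi.add_apply]
    exact (norm_add_le_max _ _).trans (max_le_max (hC d hd n) (hC' d hd n))
  · rintro a x _ ⟨C, hC⟩
    refine ⟨‖a‖ * C, fun d hd n => ?_⟩
    rw [Pi.smul_apply, Pi.smul_apply, smul_eq_mul, norm_mul]
    exact mul_le_mul_of_nonneg_left (hC d hd n) (norm_nonneg a)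

/-- 2-adic modular forms of tame level `N`: uniform limits of elements of `V0 N`. -/
def V (N : ℕ) : Submodule L Fm where
  carrier := {Φ | ∀ ε : ℝ, 0 < ε → ∃ Ψ ∈ V0 N, Near N Ψ Φ ε}
  add_mem' := by
    intro a b ha hb ε hε
    obtain ⟨Ψ, hΨ, h1⟩ := ha ε hε
    obtain ⟨Ψ', hΨ', h1'⟩ := hb ε hε
    exact ⟨Ψ + Ψ', add_mem hΨ hΨ', h1.add h1'⟩
  zero_mem' := fun ε hε => ⟨0, zero_mem _, Near.refl hε.le⟩
  smul_mem' := by
    intro c a ha ε hε
    obtain ⟨Ψ, hΨ, h1⟩ := ha (ε / (‖c‖ + 1)) (by positivity)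
    refine ⟨c • Ψ, Submodule.smul_mem _ _ hΨ, (h1.smul c).mono ?_⟩
    rw [mul_div_assoc']
    rw [div_le_iff₀ (by positivity)]
    nlinarith [norm_nonneg c]

lemma V0_le_V : V0 N ≤ V N := fun Φ h ε hε => ⟨Φ, h, Near.refl hε.le⟩

lemma V.closed (h : ∀ ε : ℝ, 0 < ε → ∃ Ψ ∈ V N, Near N Ψ Φ ε) : Φ ∈ V N := by
  intro ε hε
  obtain ⟨Ψ, hΨ, h1⟩ := h ε hε
  obtain ⟨Ξ, hΞ, h2⟩ := hΨ ε hε
  exact ⟨Ξ, hΞ, h2.trans h1⟩

lemma V.congr (h : ∀ d, Nat.Coprime d (2 * N) → Ψ d = Φ d) (hΨ : Ψ ∈ V N) : Φ ∈ V N :=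
  V.closed fun ε hε => ⟨Ψ, hΨ, fun d hd n => by rw [h d hd]; simpa using hε.le⟩

lemma V.exists_bdd (h : Φ ∈ V N) : ∃ C, BddF N Φ C := by
  obtain ⟨Ψ, hΨ, h1⟩ := h 1 one_pos
  obtain ⟨C, hC⟩ := exists_bdd_of_V0 hΨ
  exact ⟨_, h1.symm.bdd hC⟩

lemma pure_mem_V {k : ℕ} {f : ℍ → ℂ} (hk : 1 ≤ k) (hf : IsMF N k f)
    (hC : ∃ C, BddF N (pf N k f) C) : pf N k f ∈ V N :=
  V0_le_V (Submodule.subset_span ⟨k, f, hk, hf, hC, rfl⟩)

/-- A map on families that is additive, homogeneous and bounded, and maps bounded pure families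
to `V N'`, maps `V N` to `V N'`. -/
lemma V.map {N' : ℕ} (T : Fm →ₗ[L] Fm) {C : ℝ} (hC : 0 < C)
    (hT : ∀ Φ ε, Near N Φ 0 ε → Near N' (T Φ) 0 (C * ε))
    (hp : ∀ Φ ∈ PureSet N, T Φ ∈ V N') {Φ : Fm} (h : Φ ∈ V N) : T Φ ∈ V N' := by
  have h0 : ∀ Ψ ∈ V0 N, T Ψ ∈ V N' := by
    intro Ψ hΨ
    refine Submodule.span_induction (p := fun Ψ _ => T Ψ ∈ V N') hp ?_ ?_ ?_ hΨ
    · rw [map_zero]; exact zero_mem _
    · intro x y _ _ hx hy; rw [map_add]; exact add_mem hx hy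
    · intro a x _ hx; rw [map_smul]; exact Submodule.smul_mem _ _ hx
  refine V.closed fun ε hε => ?_
  obtain ⟨Ψ, hΨ, h1⟩ := h (ε / C) (by positivity)
  refine ⟨T Ψ, h0 Ψ hΨ, ?_⟩
  have h2 : Near N (Ψ - Φ) 0 (ε / C) := fun d hd n => by simpa using h1 d hd n
  have h3 := hT _ _ h2
  rw [mul_div_cancel₀ _ hC.ne'] at h3
  intro d hd n
  have := h3 d hd n
  rw [map_sub] at this
  simpa using this

/-- Cauchy product of families -/
def mulF (Φ Ψ : Fm) : Fm := fun d n => ∑ p ∈ Finset.HasAntidiagonal.antidiagonal n, Φ d p.1 * Ψ d p.2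

lemma mulF_bdd {C' : ℝ} (h : BddF N Φ C) (h' : BddF N Ψ C') : BddF N (mulF Φ Ψ) (C * C') := by
  intro d hd n
  apply norm_sum_le _ _ (mul_nonneg h.nonneg h'.nonneg)
  intro p _
  rw [norm_mul]
  exact mul_le_mul (h d hd _) (h' d hd _) (norm_nonneg _) h.nonneg

/-- right multiplication by a family, as a linear map -/
def mulR (Ψ : Fm) : Fm →ₗ[L] Fm where
  toFun Φ := mulF Φ Ψ
  map_add' Φ Φ' := by
    funext d n; simp only [mulF, Pi.add_apply, add_mul, Finset.sum_add_distrib]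
  map_smul' c Φ := by
    funext d n
    simp only [mulF, Pi.smul_apply, smul_eq_mul, RingHom.id_apply, Finset.mul_sum, mul_assoc]

/-- left multiplication by a family, as a linear map -/
def mulLF (Φ : Fm) : Fm →ₗ[L] Fm where
  toFun Ψ := mulF Φ Ψ
  map_add' Φ Φ' := by
    funext d n; simp only [mulF, Pi.add_apply, mul_add, Finset.sum_add_distrib]
  map_smul' c Φ := by
    funext d n
    simp only [mulF, Pi.smul_apply, smul_eq_mul, RingHom.id_apply, Finset.mul_sum]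
    apply Finset.sum_congr rfl
    intro p _; ring

lemma slash_level_one {k : ℤ} {f : ℍ → ℂ} (hf : IsMF 1 k f) (γ : SL(2, ℤ)) : f ∣[k] γ = f := by
  apply hf.inv
  rw [Gamma1_mem]
  exact ⟨Subsingleton.elim _ _, Subsingleton.elim _ _, Subsingleton.elim _ _⟩

lemma pf_one {k : ℕ} {f : ℍ → ℂ} (hf : IsMF 1 k f) (N : ℕ) (d n : ℕ) :
    pf N k f d n = (d : L) ^ k * iota (qc f n) := by
  rw [pf, slash_level_one hf]

lemma IsMF.of_one {k : ℤ} {f : ℍ → ℂ} (hf : IsMF 1 k f) (N : ℕ) : IsMF N k f where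
  inv γ _ := slash_level_one hf γ
  holo := hf.holo
  bdd := hf.bdd

lemma IsMF.mul {k k' : ℤ} {f g : ℍ → ℂ} (hf : IsMF N k f) (hg : IsMF N k' g) :
    IsMF N (k + k') (f * g) where
  inv γ hγ := by rw [mul_slash_SL2, hf.inv γ hγ, hg.inv γ hγ]
  holo := hf.holo.mul hg.holo
  bdd γ := by rw [mul_slash_SL2]; exact (hf.bdd γ).mul (hg.bdd γ)

lemma qc_mul [NeZero N] {k k' : ℤ} {f g : ℍ → ℂ} (hf : IsMF N k f) (hg : IsMF N k' g) (n : ℕ) :
    qc (f * g) n = ∑ p ∈ Finset.HasAntidiagonal.antidiagonal n, qc f p.1 * qc g p.2 := by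
  rw [qc, qExpansion_mul hf.analytic hg.analytic, PowerSeries.coeff_mul]
  rfl

lemma pf_mul [NeZero N] {k k' : ℕ} {f g : ℍ → ℂ} (hf : IsMF 1 k f) (hg : IsMF N k' g) :
    pf N (k + k') (f * g) = mulF (pf 1 k f) (pf N k' g) := by
  funext d n
  have h1 : (f * g) ∣[((k + k' : ℕ) : ℤ)] (dia N d) = f * g ∣[(k' : ℤ)] (dia N d) := by
    push_cast
    rw [mul_slash_SL2, slash_level_one hf]
  rw [pf, h1, qc_mul (hf.of_one N) (hg.dia d), map_sum, Finset.mul_sum, mulF]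
  apply Finset.sum_congr rfl
  intro p _
  rw [pf_one hf 1, pf, map_mul, pow_add]
  ring

lemma coprime_of_mul {d : ℕ} (hd : Nat.Coprime d (2 * N)) : Nat.Coprime d (2 * 1) := by
  rw [mul_one]; exact Nat.Coprime.coprime_mul_right_right hd

lemma BddF.of_one (h : BddF 1 Φ C) : BddF N Φ C := fun d hd n => h d (coprime_of_mul hd) n

lemma Near.of_one (h : Near 1 Φ Ψ ε) : Near N Φ Ψ ε := fun d hd n => h d (coprime_of_mul hd) n

/-- `V 1 * V N ⊆ V N`. -/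
theorem V.mul [NeZero N] (h : Φ ∈ V 1) (h' : Ψ ∈ V N) : mulF Φ Ψ ∈ V N := by
  -- first, `Ψ` pure and `Φ ∈ V 1`
  have h1 : ∀ Ψ ∈ PureSet N, ∀ Φ ∈ V 1, mulF Φ Ψ ∈ V N := by
    rintro _ ⟨k', g, hk', hg, ⟨C, hC⟩, rfl⟩ Φ hΦ
    have h2 : ∀ Φ ∈ V0 1, mulF Φ (pf N k' g) ∈ V N := by
      intro Φ hΦ
      refine Submodule.span_induction (p := fun Φ _ => mulF Φ (pf N k' g) ∈ V N) ?_ ?_ ?_ ?_ hΦ
      · rintro _ ⟨k, f, hk, hf, ⟨C', hC'⟩, rfl⟩
        rw [← pf_mul hf hg]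
        refine pure_mem_V (by omega) ?_ ⟨C' * C, ?_⟩
        · push_cast; exact (hf.of_one N).mul hg
        · rw [pf_mul hf hg]; exact mulF_bdd hC'.of_one hC
      · have : mulF 0 (pf N k' g) = 0 := (mulR (pf N k' g)).map_zero
        rw [this]; exact zero_mem _
      · intro x y _ _ hx hy
        have : mulF (x + y) (pf N k' g) = mulF x (pf N k' g) + mulF y (pf N k' g) :=
          (mulR (pf N k' g)).map_add x y
        rw [this]; exact add_mem hx hy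
      · intro a x _ hx
        have : mulF (a • x) (pf N k' g) = a • mulF x (pf N k' g) :=
          (mulR (pf N k' g)).map_smul a x
        rw [this]; exact Submodule.smul_mem _ _ hx
    refine V.closed fun ε hε => ?_
    have hC0 := hC.nonneg
    obtain ⟨Φ', hΦ', h3⟩ := hΦ (ε / (C + 1)) (by positivity)
    refine ⟨_, h2 Φ' hΦ', ?_⟩
    intro d hd n
    have h4 : mulF Φ' (pf N k' g) d n - mulF Φ (pf N k' g) d n = mulF (Φ' - Φ) (pf N k' g) d n := by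
      have : mulF (Φ' - Φ) (pf N k' g) = mulF Φ' (pf N k' g) - mulF Φ (pf N k' g) :=
          (mulR (pf N k' g)).map_sub _ _
      rw [this]; rfl
    rw [h4]
    have h5 : BddF N (Φ' - Φ) (ε / (C + 1)) := fun d hd n => h3 d (coprime_of_mul hd) n
    refine (mulF_bdd h5 hC d hd n).trans ?_
    rw [div_mul_eq_mul_div, div_le_iff₀ (by positivity)]
    nlinarith
  obtain ⟨C, hC⟩ := V.exists_bdd h
  have hC0 := hC.nonneg
  have := V.map (N' := N) (mulLF Φ) (C := C + 1) (by positivity) ?_ (fun Ψ hΨ => h1 Ψ hΨ Φ h) h'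
  · exact this
  · intro Ψ ε hε d hd n
    have hb : BddF N Ψ ε := fun d hd n => by simpa using hε d hd n
    have h6 := mulF_bdd hC.of_one hb d hd n
    have : (mulLF Φ) Ψ = mulF Φ Ψ := rfl
    rw [this]
    simp only [Pi.zero_apply, sub_zero]
    refine h6.trans ?_
    have := hb.nonneg
    nlinarith

end

end Vale.Agent.P022.H390
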