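import Vale.Agent.P022.H390.NF6

/-!
# P022: representations attached to Hecke characters of imaginary quadratic fields
-/

namespace Vale.Agent.P022.H390

open NumberField Module
open scoped NumberTheorySymbols

noncomputable section

variable {K : Type*} [Field K] [NumberField K] {𝔣 : Ideal (𝓞 K)}
variable {E : IntermediateField ℚ_[2] (PadicAlgCl 2)}

lemma norm_O_le (x : OE E) : ‖(x.val : L)‖ ≤ 1 := by
  apply norm_le_one_of_integral
  haveI : IsScalarTower ℤ_[2] E L := IsScalarTower.of_algebraMap_eq (fun x => rfl)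
  exact (isIntegral_algebraMap_iff (algebraMap E L).injective).2
    ((x : integralClosure ℤ_[2] E).2)

lemma norm_unit {x : OE E} (h : IsUnit x) : ‖(x.val : L)‖ = 1 := by
  obtain ⟨u, rfl⟩ := h
  have h1 := norm_O_le (u : OE E)
  have h2 := norm_O_le ((u⁻¹ : (OE E)ˣ) : OE E)
  have h3 : ((u : OE E).val : L) * (((u⁻¹ : (OE E)ˣ) : OE E).val : L) = 1 := by
    have := u.mul_inv
    exact congrArg (fun z : OE E => (z.val : L)) this
  have h4 := congrArg norm h3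
  rw [norm_mul, norm_one] at h4
  have h5 := norm_nonneg ((u : OE E).val : L)
  have h6 := norm_nonneg (((u⁻¹ : (OE E)ˣ) : OE E).val : L)
  nlinarith

/-- the character with values in `L` -/
def HeckeChar.toL (ψ : HeckeChar K 𝔣 (OE E)) : LChar K 𝔣 where
  p 𝔞 := ((ψ.toFun 𝔞).val : L)
  one := by rw [ψ.map_one']; rfl
  mul 𝔞 𝔟 := by rw [ψ.map_mul']; rfl
  norm 𝔞 h := norm_unit (ψ.isUnit' 𝔞 h)
  zero 𝔞 h := by rw [ψ.zero' 𝔞 h]; rfl
  cont m := by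
    obtain ⟨s, hs⟩ := ψ.cont' m
    refine ⟨s, fun x hx => ?_⟩
    obtain ⟨y, hy⟩ := hs x hx
    have h1 : ((ψ.toFun (Ideal.span {x})).val : L) - 1 = 2 ^ m * (y.val : L) := by
      have h2 : ((ψ.toFun (Ideal.span {x})).val : L) = 1 + 2 ^ m * (y.val : L) := by
        rw [hy]; rfl
      rw [h2]; ring
    rw [h1, norm_mul, norm_pow, norm_two]
    have := norm_O_le y
    calc (1 / 2 : ℝ) ^ m * ‖(y.val : L)‖ ≤ (1 / 2) ^ m * 1 := by gcongr
      _ = _ := mul_one _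

variable (ψ : HeckeChar K 𝔣 (OE E))

lemma HeckeChar.toL_mem (𝔞 : Ideal (𝓞 K)) : ψ.toL.p 𝔞 ∈ OEs E :=
  ⟨(ψ.toFun 𝔞).val.2, norm_O_le _⟩

lemma HeckeChar.a_mem (n : ℕ) : ψ.toL.a n ∈ OEs E :=
  ⟨sum_mem fun 𝔞 _ => (ψ.toL_mem 𝔞).1, ψ.toL.norm_a_le n⟩

lemma HeckeChar.finsum_eq (ℓ : ℕ) :
    ((∑ᶠ 𝔭 ∈ {𝔭 : Ideal (𝓞 K) | Ideal.absNorm 𝔭 = ℓ}, (ψ.toFun 𝔭).val : E) : L) =
      ψ.toL.a ℓ := by
  rw [LChar.a, finsum_mem_eq_finite_toFinset_sum _ (Ideal.finite_setOfPred_absNorm_eq ℓ)]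
  rw [← IntermediateField.algebraMap_apply, map_sum]
  rfl

/-- **Representations attached to 2-adic Hecke characters of imaginary quadratic fields of odd
discriminant occur at an odd level whose prime divisors are ramified primes.** -/
theorem main [FiniteDimensional ℚ_[2] E] (h2 : finrank ℚ K = 2) (hd : discr K < 0)
    (hodd : Odd (discr K)) (hf : 𝔣 ≠ ⊥) (hf2 : IsCoprime 𝔣 (Ideal.span {2}))
    (r : Rep E) (hr : IsAttached r ψ) :
    ∃ (N : ℕ) (_ : NeZero N), Odd N ∧ (∀ q : ℕ, q.Prime → q ∣ N → ¬ UnramifiedAt r q) ∧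
      OccursAt N r := by
  have hfn : Ideal.absNorm 𝔣 ≠ 0 := by rwa [ne_eq, Ideal.absNorm_eq_zero_iff]
  -- `N𝔣` is odd
  have hf2' : Nat.Coprime (Ideal.absNorm 𝔣) 2 := by
    rw [Nat.coprime_comm, Nat.Prime.coprime_iff_not_dvd Nat.prime_two]
    intro hdvd
    obtain ⟨P, hP, hP1, hP2⟩ := exists_above Nat.prime_two hdvd
    rw [Ideal.isCoprime_iff_sup_eq] at hf2
    apply hP.ne_top
    rw [eq_top_iff, ← hf2]
    refine sup_le (Ideal.le_of_dvd hP1) ?_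
    have := Ideal.le_of_dvd hP2
    exact_mod_cast this
  set N : ℕ := ((discr K).natAbs * Ideal.absNorm 𝔣) ^ 2 with hN
  have hd0 : (discr K).natAbs ≠ 0 := by
    rw [ne_eq, Int.natAbs_eq_zero]; exact hd.ne
  have hN0 : N ≠ 0 := pow_ne_zero _ (mul_ne_zero hd0 hfn)
  haveI : NeZero N := ⟨hN0⟩
  have hNodd : Odd N := by
    apply Odd.pow
    exact (Int.natAbs_odd.2 hodd).mul (Nat.coprime_two_right.1 hf2')
  -- primes dividing `N`
  have hprime : ∀ q : ℕ, q.Prime → (q ∣ N ↔ (q : ℤ) ∣ discr K * Ideal.absNorm 𝔣) := by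
    intro q hq
    rw [hN, hq.prime.dvd_pow_iff_dvd two_ne_zero, Int.natCast_dvd, Int.natAbs_mul, Int.natAbs_natCast]
  have hprime2 : ∀ q : ℕ, q.Prime → ¬ q ∣ 2 * N → ¬ (q : ℤ) ∣ 2 * (discr K * Ideal.absNorm 𝔣) := by
    intro q hq h h'
    have hqp := Nat.prime_iff_prime_int.1 hq
    rcases hqp.dvd_or_dvd h' with h1 | h1
    · apply h
      have : q ∣ 2 := by exact_mod_cast h1
      exact Dvd.dvd.mul_right this _
    · exact h (Dvd.dvd.mul_left ((hprime q hq).2 h1) _)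
  have hprime3 : ∀ q : ℕ, q.Prime → ¬ q ∣ 2 * N → ¬ (q : ℤ) ∣ discr K := by
    intro q hq h h'
    exact hprime2 q hq h (Dvd.dvd.mul_left (Dvd.dvd.mul_right h' _) _)
  have hV : ψ.toL.Φ ∈ V N := ψ.toL.Φ_mem h2 hd hodd hf hf2' (dvd_refl _)
  have hE := ψ.toL.eigen h2 hd hodd (N := N) hprime3
  obtain ⟨φ, hφc, hφ⟩ := exists_hom (E := E) hE hV (fun ℓ _ => ψ.a_mem ℓ)
    (fun ℓ _ => OEs.mul (OEs.int _) (ψ.toL_mem _))
  refine ⟨N, inferInstance, hNodd, fun q hq hqN => hr.ram q hq ((hprime q hq).1 hqN),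
    fun ℓ hℓ hℓN => hr.unram ℓ hℓ (hprime2 ℓ hℓ hℓN), φ, hφc, ?_⟩
  intro ℓ h σ hσ
  have hℓ' := hprime2 ℓ h.1 h.2
  have hℓ2 : ℓ ≠ 2 := by
    rintro rfl
    exact h.2 (dvd_mul_right _ _)
  obtain ⟨j1, j2⟩ := jacobi_split h2 hd hodd h.1 hℓ2 (hprime3 ℓ h.1 h.2)
  constructor
  · apply Subtype.ext
    rw [(hφ ℓ h).1, hr.trace ℓ h.1 hℓ' σ hσ, ψ.finsum_eq]
  · apply Subtype.ext
    rw [(hφ ℓ h).2]
    by_cases hex : ∃ 𝔭 : Ideal (𝓞 K), Ideal.absNorm 𝔭 = ℓ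
    · rw [hr.det_split ℓ h.1 hℓ' hex σ hσ, j1 hex, Int.cast_one, one_mul]; rfl
    · rw [hr.det_inert ℓ h.1 hℓ' hex σ hσ, j2 hex]
      push_cast
      rw [neg_one_mul]; rfl

end

end Vale.Agent.P022.H390
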