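import Mathlib

/-!
# P022: two-dimensional Gaussian sums: summability and Poisson summation
-/

namespace Vale.Agent.P022.H390

open scoped Real
open Complex (I exp)

noncomputable section

/-- `e(x) = exp(2 π i x)` -/
def ee (x : ℂ) : ℂ := exp (2 * π * I * x)

lemma ee_add (x y : ℂ) : ee (x + y) = ee x * ee y := by
  rw [ee, ee, ee, ← Complex.exp_add]; congr 1; ring

lemma ee_sub (x y : ℂ) : ee (x - y) = ee x / ee y := by
  rw [ee, ee, ee, ← Complex.exp_sub]; congr 1; ring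

lemma ee_neg (x : ℂ) : ee (-x) = (ee x)⁻¹ := by
  rw [ee, ee, ← Complex.exp_neg]; congr 1; ring

lemma ee_zero : ee 0 = 1 := by simp [ee]

lemma ee_ne_zero (x : ℂ) : ee x ≠ 0 := Complex.exp_ne_zero _

lemma ee_int (n : ℤ) : ee n = 1 := by
  rw [ee, Complex.exp_eq_one_iff]; exact ⟨n, by ring⟩

lemma ee_add_int (x : ℂ) (n : ℤ) : ee (x + n) = ee x := by rw [ee_add, ee_int, mul_one]

lemma norm_ee (x : ℂ) : ‖ee x‖ = Real.exp (-(2 * π) * x.im) := by
  rw [ee, Complex.norm_exp]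
  congr 1
  simp [Complex.mul_re]

/-- one-dimensional Poisson summation -/
lemma gauss1 {t : ℂ} (ht : 0 < t.im) (X : ℂ) :
    ∑' u : ℤ, ee (t * (X + u) ^ 2) =
      1 / (-2 * I * t) ^ (1 / 2 : ℂ) * ∑' n : ℤ, ee (n * X - n ^ 2 / (4 * t)) := by
  have ht0 : t ≠ 0 := by rintro rfl; simp at ht
  have ha : 0 < (-2 * I * t).re := by
    have : (-2 * I * t).re = 2 * t.im := by simp [Complex.mul_re]
    rw [this]; linarith
  have h := Complex.tsum_exp_neg_quadratic ha (2 * I * t * X)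
  have h1 : ∀ u : ℤ, ee (t * (X + u) ^ 2) = ee (t * X ^ 2) *
      exp (-π * (-2 * I * t) * (u : ℂ) ^ 2 + 2 * π * (2 * I * t * X) * u) := by
    intro u
    rw [ee, ee, ← Complex.exp_add]; congr 1; ring
  have h2 : ∀ n : ℤ, ee (n * X - n ^ 2 / (4 * t)) =
      ee (t * X ^ 2) * exp (-π / (-2 * I * t) * (n + I * (2 * I * t * X)) ^ 2) := by
    intro n
    rw [ee, ee, ← Complex.exp_add]; congr 1
    have hI : I * (2 * I * t * X) = -(2 * t * X) := by
      have : I * (2 * I * t * X) = (I * I) * (2 * t * X) := by ring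
      rw [this, Complex.I_mul_I]; ring
    rw [hI]
    have h3 : -(π : ℂ) / (-2 * I * t) = -(π * I / (2 * t)) := by
      rw [div_eq_iff (by simp [ht0])]
      field_simp
      rw [Complex.I_sq]
    rw [h3]
    field_simp
    ring
  rw [tsum_congr h1, tsum_congr h2, tsum_mul_left, tsum_mul_left, h]
  ring

/-- 1-D summability -/
lemma sg1 {ε : ℝ} (hε : 0 < ε) (C : ℝ) :
    Summable fun n : ℤ => Real.exp (-ε * (n : ℝ) ^ 2 + C * |(n : ℝ)|) := by
  have h1 : ∀ C : ℝ, Summable fun n : ℤ => Real.exp (-ε * (n : ℝ) ^ 2 + C * n) := by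
    intro C
    have h := (summable_jacobiTheta₂_term_iff (⟨0, -(C / (2 * π))⟩ : ℂ) ⟨0, ε / π⟩).2
      (by positivity)
    refine h.norm.congr fun n => ?_
    rw [norm_jacobiTheta₂_term]
    congr 1
    have := Real.pi_ne_zero
    field_simp
    ring
  refine Summable.of_nonneg_of_le (fun _ => (Real.exp_pos _).le) (fun n => ?_)
    ((h1 C).add (h1 (-C)))
  rcases le_total 0 (n : ℝ) with h | h
  · rw [abs_of_nonneg h]
    exact le_add_of_nonneg_right (Real.exp_pos _).le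
  · rw [abs_of_nonpos h]
    have : -ε * (n : ℝ) ^ 2 + C * -(n : ℝ) = -ε * (n : ℝ) ^ 2 + -C * n := by ring
    rw [this]
    exact le_add_of_nonneg_left (Real.exp_pos _).le

/-- the Gaussian majorant -/
def maj (ε C : ℝ) (u : ℤ × ℤ) : ℝ :=
  Real.exp (-ε * ((u.1 : ℝ) ^ 2 + (u.2 : ℝ) ^ 2) + C * (|(u.1 : ℝ)| + |(u.2 : ℝ)|))

lemma maj_nonneg (ε C : ℝ) (u : ℤ × ℤ) : 0 ≤ maj ε C u := (Real.exp_pos _).le

lemma summable_maj {ε : ℝ} (hε : 0 < ε) (C : ℝ) : Summable (maj ε C) := by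
  have := (sg1 hε C).mul_of_nonneg (sg1 hε C) (fun _ => (Real.exp_pos _).le)
    (fun _ => (Real.exp_pos _).le)
  refine this.congr fun u => ?_
  rw [maj, ← Real.exp_add]
  congr 1; ring

/-- general 2-D summability -/
lemma summable_gen {a b c : ℝ} (ha : 0 < a) (hd : 0 < 4 * a * c - b ^ 2) (l1 l2 l0 R : ℝ) :
    Summable fun u : ℤ × ℤ => Real.exp (-(a * (u.1 : ℝ) ^ 2 + b * u.1 * u.2 + c * (u.2 : ℝ) ^ 2)
      + l1 * u.1 + l2 * u.2 + l0 + R * (|(u.1 : ℝ)| + |(u.2 : ℝ)|)) := by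
  have hc : 0 < c := by
    by_contra h
    push Not at h
    nlinarith [mul_nonneg ha.le (neg_nonneg.2 h), sq_nonneg b]
  have hs : 0 < a + c := by linarith
  set ε : ℝ := (4 * a * c - b ^ 2) / (4 * (a + c)) with hε
  have hε0 : 0 < ε := by positivity
  have hpos : ∀ x y : ℝ, ε * (x ^ 2 + y ^ 2) ≤ a * x ^ 2 + b * x * y + c * y ^ 2 := by
    intro x y
    rw [hε, div_mul_eq_mul_div, div_le_iff₀ (by positivity)]
    nlinarith [sq_nonneg (a * x + b * y / 2), sq_nonneg (b * x / 2 + c * y)]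
  refine Summable.of_nonneg_of_le (fun _ => (Real.exp_pos _).le) (fun u => ?_)
    ((summable_maj hε0 (|l1| + |l2| + R)).mul_left (Real.exp l0))
  rw [maj, ← Real.exp_add]
  apply Real.exp_le_exp.2
  have h1 := hpos u.1 u.2
  have h2 : l1 * (u.1 : ℝ) ≤ |l1| * |(u.1 : ℝ)| := by rw [← abs_mul]; exact le_abs_self _
  have h3 : l2 * (u.2 : ℝ) ≤ |l2| * |(u.2 : ℝ)| := by rw [← abs_mul]; exact le_abs_self _
  have h4 : 0 ≤ |l1| * |(u.2 : ℝ)| := by positivity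
  have h5 : 0 ≤ |l2| * |(u.1 : ℝ)| := by positivity
  nlinarith

/-- the binary form `A x² + B x y + C y²` over `ℂ` -/
def Qc (A B C : ℤ) (x y : ℂ) : ℂ := A * x ^ 2 + B * x * y + C * y ^ 2

variable {A B C : ℤ} {τ : ℂ}

lemma summable_Q (hA : 0 < A) (hD : 0 < 4 * A * C - B ^ 2) (hτ : 0 < τ.im) (x y : ℂ) (R : ℝ) :
    Summable fun u : ℤ × ℤ => ‖ee (τ * Qc A B C (x + u.1) (y + u.2))‖ *
      Real.exp (R * (|(u.1 : ℝ)| + |(u.2 : ℝ)|)) := by
  have hA' : (0 : ℝ) < A := by exact_mod_cast hA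
  have hD' : (0 : ℝ) < 4 * A * C - B ^ 2 := by exact_mod_cast hD
  have hpi := Real.pi_pos
  refine (summable_gen (a := 2 * π * τ.im * A) (b := 2 * π * τ.im * B) (c := 2 * π * τ.im * C)
    (by positivity) ?_ (-(2 * π) * (τ * (2 * A * x + B * y)).im)
    (-(2 * π) * (τ * (B * x + 2 * C * y)).im) (-(2 * π) * (τ * Qc A B C x y).im) R).congr
    fun u => ?_
  · have : 4 * (2 * π * τ.im * A) * (2 * π * τ.im * C) - (2 * π * τ.im * B) ^ 2 =
      (2 * π * τ.im) ^ 2 * (4 * A * C - B ^ 2) := by ring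
    rw [this]; positivity
  · rw [norm_ee, ← Real.exp_add]
    congr 1
    have h1 : τ * Qc A B C (x + u.1) (y + u.2) = τ * Qc A B C x y +
        ((u.1 : ℝ) : ℂ) * (τ * (2 * A * x + B * y)) + ((u.2 : ℝ) : ℂ) * (τ * (B * x + 2 * C * y)) +
        (((A * (u.1 : ℝ) ^ 2 + B * u.1 * u.2 + C * (u.2 : ℝ) ^ 2 : ℝ)) : ℂ) * τ := by
      simp only [Qc]; push_cast; ring
    rw [h1, Complex.add_im, Complex.add_im, Complex.add_im, Complex.im_ofReal_mul,
      Complex.im_ofReal_mul, Complex.im_ofReal_mul]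
    ring

/-- the dual form, divided by `-τ` -/
lemma summable_Qd (hA : 0 < A) (hD : 0 < 4 * A * C - B ^ 2) (hτ : 0 < τ.im) (x y : ℂ) (R : ℝ) :
    Summable fun n : ℤ × ℤ => ‖ee (n.1 * x + n.2 * y -
        Qc C (-B) A n.1 n.2 / ((4 * A * C - B ^ 2) * τ))‖ *
      Real.exp (R * (|(n.1 : ℝ)| + |(n.2 : ℝ)|)) := by
  have hA' : (0 : ℝ) < A := by exact_mod_cast hA
  have hD' : (0 : ℝ) < 4 * A * C - B ^ 2 := by exact_mod_cast hD
  have hC' : (0 : ℝ) < C := by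
    by_contra h
    push Not at h
    nlinarith [mul_nonneg hA'.le (neg_nonneg.2 h), sq_nonneg (B : ℝ)]
  have hpi := Real.pi_pos
  have hτ0 : τ ≠ 0 := by rintro rfl; simp at hτ
  set ν : ℝ := (-τ⁻¹).im with hν
  have hν0 : 0 < ν := by
    rw [hν, Complex.neg_im, Complex.inv_im]
    have := Complex.normSq_pos.2 hτ0
    rw [neg_div, neg_neg]; positivity
  set D : ℝ := 4 * A * C - B ^ 2 with hDD
  refine (summable_gen (a := 2 * π * ν / D * C) (b := 2 * π * ν / D * (-B))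
    (c := 2 * π * ν / D * A) (by positivity) ?_ (-(2 * π) * x.im) (-(2 * π) * y.im) 0 R).congr
    fun n => ?_
  · have : 4 * (2 * π * ν / D * C) * (2 * π * ν / D * A) - (2 * π * ν / D * (-B)) ^ 2 =
      (2 * π * ν / D) ^ 2 * D := by rw [hDD]; ring
    rw [this]; positivity
  · rw [norm_ee, ← Real.exp_add]
    congr 1
    have h1 : n.1 * x + n.2 * y - Qc C (-B) A n.1 n.2 / ((4 * A * C - B ^ 2) * τ) =
        ((n.1 : ℝ) : ℂ) * x + ((n.2 : ℝ) : ℂ) * y +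
        (((C * (n.1 : ℝ) ^ 2 - B * n.1 * n.2 + A * (n.2 : ℝ) ^ 2) / D : ℝ) : ℂ) * (-τ⁻¹) := by
      have : (4 * (A : ℂ) * C - B ^ 2) ≠ 0 := by
        rw [hDD] at hD'; exact_mod_cast hD'.ne'
      rw [hDD]
      simp only [Qc]; push_cast
      field_simp
      ring
    rw [h1, Complex.add_im, Complex.add_im, Complex.im_ofReal_mul,
      Complex.im_ofReal_mul, Complex.im_ofReal_mul, ← hν]
    field_simp
    ring

lemma cpow_half_mul {a b : ℝ} (ha : 0 < a) (hb : 0 < b) {w : ℂ} (hw : w ≠ 0) :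
    ((a : ℂ) * w) ^ (1 / 2 : ℂ) * ((b : ℂ) * w) ^ (1 / 2 : ℂ) = (Real.sqrt (a * b) : ℝ) * w := by
  have h1 : (a : ℂ) * w ≠ 0 := mul_ne_zero (by exact_mod_cast ha.ne') hw
  have h2 : (b : ℂ) * w ≠ 0 := mul_ne_zero (by exact_mod_cast hb.ne') hw
  rw [Complex.cpow_def_of_ne_zero h1, Complex.cpow_def_of_ne_zero h2, ← Complex.exp_add,
    Complex.log_ofReal_mul ha hw, Complex.log_ofReal_mul hb hw]
  have h3 : ((Real.log a : ℝ) + Complex.log w) * (1 / 2) +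
      ((Real.log b : ℝ) + Complex.log w) * (1 / 2) = ((Real.log (Real.sqrt (a * b)) : ℝ) : ℂ) +
        Complex.log w := by
    rw [Real.log_sqrt (mul_pos ha hb).le, Real.log_mul ha.ne' hb.ne']
    push_cast; ring
  rw [h3, Complex.exp_add, Complex.exp_log hw, ← Complex.ofReal_exp,
    Real.exp_log (Real.sqrt_pos.2 (mul_pos ha hb))]

/-- **two-dimensional Poisson summation** -/
theorem poisson2 (hA : 0 < A) (hD : 0 < 4 * A * C - B ^ 2) (hτ : 0 < τ.im) (x y : ℂ) :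
    ∑' u : ℤ × ℤ, ee (τ * Qc A B C (x + u.1) (y + u.2)) =
      1 / (-I * τ * Real.sqrt (4 * A * C - B ^ 2)) * ∑' n : ℤ × ℤ,
        ee (n.1 * x + n.2 * y - Qc C (-B) A n.1 n.2 / ((4 * A * C - B ^ 2) * τ)) := by
  have hA' : (0 : ℝ) < A := by exact_mod_cast hA
  have hD' : (0 : ℝ) < 4 * A * C - B ^ 2 := by exact_mod_cast hD
  have hAc : (A : ℂ) ≠ 0 := by exact_mod_cast hA.ne'
  have hDc : (4 * (A : ℂ) * C - B ^ 2) ≠ 0 := by exact_mod_cast hD'.ne'
  have hpi := Real.pi_pos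
  have hτ0 : τ ≠ 0 := by rintro rfl; simp at hτ
  have hν0 : 0 < (-τ⁻¹).im := by
    rw [Complex.neg_im, Complex.inv_im]
    have := Complex.normSq_pos.2 hτ0
    rw [neg_div, neg_neg]; positivity
  have hf : Summable fun u : ℤ × ℤ => ee (τ * Qc A B C (x + u.1) (y + u.2)) := by
    refine Summable.of_norm ((summable_Q hA hD hτ x y 0).congr fun u => ?_)
    rw [zero_mul, Real.exp_zero, mul_one]
  have hh : Summable fun n : ℤ × ℤ =>
      ee (n.1 * x + n.2 * y - Qc C (-B) A n.1 n.2 / ((4 * A * C - B ^ 2) * τ)) := by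
    refine Summable.of_norm ((summable_Qd hA hD hτ x y 0).congr fun u => ?_)
    rw [zero_mul, Real.exp_zero, mul_one]
  -- the mixed sum
  set D : ℝ := 4 * A * C - B ^ 2 with hDD
  have hDc' : (D : ℂ) = 4 * (A : ℂ) * C - B ^ 2 := by rw [hDD]; push_cast; ring
  set g : ℤ → ℤ → ℂ := fun n u => ee (n * (x + B * (y + u) / (2 * A)) - n ^ 2 / (4 * (A * τ)) +
    D / (4 * A) * τ * (y + u) ^ 2) with hg
  have hgs : Summable (Function.uncurry g) := by
    refine Summable.of_norm ?_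
    refine (summable_gen (a := 2 * π * (-τ⁻¹).im / (4 * A)) (b := 0)
      (c := 2 * π * (D / (4 * A)) * τ.im) (by positivity) (by
        have : 0 < 4 * (2 * π * (-τ⁻¹).im / (4 * A)) * (2 * π * (D / (4 * A)) * τ.im) := by positivity
        linarith) (-(2 * π) * (x + B * y / (2 * A)).im)
      (-(2 * π) * (2 * (D / (4 * A) * τ) * y).im) (-(2 * π) * (D / (4 * A) * τ * y ^ 2).im) 0).congr
      fun n => ?_
    rw [Function.uncurry, hg]
    dsimp only
    rw [norm_ee]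
    congr 1
    have h1 : n.1 * (x + B * (y + n.2) / (2 * A)) - (n.1 : ℂ) ^ 2 / (4 * (A * τ)) +
        D / (4 * A) * τ * (y + n.2) ^ 2 =
        ((n.1 : ℝ) : ℂ) * (x + B * y / (2 * A)) + ((n.2 : ℝ) : ℂ) * (2 * (D / (4 * A) * τ) * y) +
        D / (4 * A) * τ * y ^ 2 + (((n.1 : ℝ) ^ 2 / (4 * A) : ℝ) : ℂ) * (-τ⁻¹) +
        ((D / (4 * A) * (n.2 : ℝ) ^ 2 : ℝ) : ℂ) * τ + ((n.1 * B * n.2 / (2 * A) : ℝ) : ℂ) := by
      push_cast
      field_simp
      ring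
    generalize x + B * y / (2 * A) = w1 at h1 ⊢
    generalize 2 * (D / (4 * A) * τ) * y = w2 at h1 ⊢
    generalize (D : ℂ) / (4 * A) * τ * y ^ 2 = w3 at h1 ⊢
    rw [h1, Complex.add_im, Complex.add_im, Complex.add_im, Complex.add_im, Complex.add_im,
      Complex.ofReal_im, Complex.im_ofReal_mul, Complex.im_ofReal_mul, Complex.im_ofReal_mul,
      Complex.im_ofReal_mul]
    ring
  have step1 : ∀ u2 : ℤ, ∑' u1 : ℤ, ee (τ * Qc A B C (x + u1) (y + u2)) =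
      1 / (-2 * I * (A * τ)) ^ (1 / 2 : ℂ) * ∑' n1 : ℤ, g n1 u2 := by
    intro u2
    have ht : 0 < ((A : ℂ) * τ).im := by
      have : ((A : ℂ) * τ).im = (A : ℝ) * τ.im := by
        rw [show (A : ℂ) = ((A : ℝ) : ℂ) by push_cast; rfl, Complex.im_ofReal_mul]
      rw [this]; positivity
    have h1 : ∀ u1 : ℤ, ee (τ * Qc A B C (x + u1) (y + u2)) =
        ee (D / (4 * A) * τ * (y + u2) ^ 2) *
          ee ((A * τ) * ((x + B * (y + u2) / (2 * A)) + u1) ^ 2) := by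
      intro u1
      rw [← ee_add]; congr 1
      rw [hDc', Qc]
      field_simp
      ring
    have h2 : ∀ n1 : ℤ, g n1 u2 = ee (D / (4 * A) * τ * (y + u2) ^ 2) *
        ee (n1 * (x + B * (y + u2) / (2 * A)) - (n1 : ℂ) ^ 2 / (4 * (A * τ))) := by
      intro n1
      rw [← ee_add, hg]; dsimp only; congr 1; ring
    rw [tsum_congr h1, tsum_congr h2, tsum_mul_left, tsum_mul_left, gauss1 ht]
    ring
  have step2 : ∀ n1 : ℤ, ∑' u2 : ℤ, g n1 u2 =
      1 / (-2 * I * (D / (4 * A) * τ)) ^ (1 / 2 : ℂ) * ∑' n2 : ℤ,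
        ee (n1 * x + n2 * y - Qc C (-B) A n1 n2 / ((4 * A * C - B ^ 2) * τ)) := by
    intro n1
    have ht : 0 < ((D : ℂ) / (4 * A) * τ).im := by
      have : ((D : ℂ) / (4 * A) * τ).im = (D / (4 * A) : ℝ) * τ.im := by
        rw [show (D : ℂ) / (4 * A) = ((D / (4 * A) : ℝ) : ℂ) by push_cast; rfl,
          Complex.im_ofReal_mul]
      rw [this]; positivity
    have hDne : (D : ℂ) ≠ 0 := by rw [hDc']; exact hDc
    have h1 : ∀ u2 : ℤ, g n1 u2 =
        ee (n1 * x - (n1 : ℂ) ^ 2 / (4 * (A * τ)) - (n1 : ℂ) ^ 2 * B ^ 2 / (4 * A * D * τ)) *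
          ee ((D / (4 * A) * τ) * ((y + n1 * B / (D * τ)) + u2) ^ 2) := by
      intro u2
      rw [← ee_add, hg]; dsimp only; congr 1
      field_simp
      ring
    have h2 : ∀ n2 : ℤ, ee (n1 * x + n2 * y - Qc C (-B) A n1 n2 / ((4 * A * C - B ^ 2) * τ)) =
        ee (n1 * x - (n1 : ℂ) ^ 2 / (4 * (A * τ)) - (n1 : ℂ) ^ 2 * B ^ 2 / (4 * A * D * τ)) *
          ee (n2 * (y + n1 * B / (D * τ)) - (n2 : ℂ) ^ 2 / (4 * (D / (4 * A) * τ))) := by
      intro n2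
      rw [← ee_add]; congr 1
      rw [← hDc', Qc]
      push_cast
      have h3 : (C : ℂ) = (D + B ^ 2) / (4 * A) := by
        rw [hDc']; field_simp; ring
      rw [h3]
      field_simp
      ring
    rw [tsum_congr h1, tsum_congr h2, tsum_mul_left, tsum_mul_left, gauss1 ht]
    ring
  have hw : -I * τ ≠ 0 := mul_ne_zero (neg_ne_zero.2 Complex.I_ne_zero) hτ0
  have hconst : 1 / (-2 * I * (A * τ)) ^ (1 / 2 : ℂ) *
      (1 / (-2 * I * (D / (4 * A) * τ)) ^ (1 / 2 : ℂ)) = 1 / (-I * τ * Real.sqrt D) := by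
    have e1 : -2 * I * (A * τ) = ((2 * A : ℝ) : ℂ) * (-I * τ) := by push_cast; ring
    have e2 : -2 * I * (D / (4 * A) * τ) = ((D / (2 * A) : ℝ) : ℂ) * (-I * τ) := by
      push_cast; field_simp; ring
    rw [e1, e2, one_div_mul_one_div, cpow_half_mul (by positivity) (by positivity) hw]
    have e3 : (2 * (A : ℝ)) * (D / (2 * A)) = D := by field_simp
    rw [e3, mul_comm]
  calc ∑' u : ℤ × ℤ, ee (τ * Qc A B C (x + u.1) (y + u.2))
      = ∑' u1 : ℤ, ∑' u2 : ℤ, ee (τ * Qc A B C (x + u1) (y + u2)) := hf.tsum_prod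
    _ = ∑' u2 : ℤ, ∑' u1 : ℤ, ee (τ * Qc A B C (x + u1) (y + u2)) :=
        (Summable.tsum_comm (f := fun u1 u2 : ℤ => ee (τ * Qc A B C (x + u1) (y + u2))) hf).symm
    _ = ∑' u2 : ℤ, 1 / (-2 * I * (A * τ)) ^ (1 / 2 : ℂ) * ∑' n1 : ℤ, g n1 u2 :=
        tsum_congr step1
    _ = 1 / (-2 * I * (A * τ)) ^ (1 / 2 : ℂ) * ∑' n1 : ℤ, ∑' u2 : ℤ, g n1 u2 := by
        rw [tsum_mul_left, Summable.tsum_comm hgs]
    _ = 1 / (-2 * I * (A * τ)) ^ (1 / 2 : ℂ) *
        (1 / (-2 * I * (D / (4 * A) * τ)) ^ (1 / 2 : ℂ) * ∑' n1 : ℤ, ∑' n2 : ℤ,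
        ee (n1 * x + n2 * y - Qc C (-B) A n1 n2 / ((4 * A * C - B ^ 2) * τ))) := by
        rw [tsum_congr step2, tsum_mul_left]
    _ = _ := by
        rw [← mul_assoc, hconst, hh.tsum_prod]

end

end Vale.Agent.P022.H390
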