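import Vale.Agent.P022.H390.Assemble

/-!
# P022: from an eigenfamily in `V N` to a homomorphism `𝕋₂(N) → 𝒪_E`, second part
-/

namespace Vale.Agent.P022.H390

open UpperHalfPlane ModularForm CongruenceSubgroup Matrix.SpecialLinearGroup Filter
open scoped MatrixGroups ModularForm Manifold TensorProduct Topology

noncomputable section

variable {N : ℕ} [NeZero N] {k : ℕ} {Φ : Fm} {t s : ℕ → L} {F G : Tup N} {ε δ : ℝ}

lemma fam_ap_le {k K : ℕ} (h : k ≤ K) (X : BlockEnd N k) (F : Tup N) :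
    fam K (ap X F) = fam k (ap X F) := by
  funext d n
  simp only [fam]
  symm
  apply Finset.sum_subset (Finset.Icc_subset_Icc_right h)
  intro i _ hi'
  have : ¬ (1 ≤ i ∧ i ≤ k) := by rwa [Finset.mem_Icc] at hi'
  have h0 : ((ap X F i : M N i) : ℍ → ℂ) = (0 : ℂ) • (ap X F i : ℍ → ℂ) := by
    rw [ap, dif_neg this]; simp
  rw [h0, pf_smul (isMF_coe _), map_zero, zero_mul]

lemma V0_eq_fam {Ψ : Fm} (h : Ψ ∈ V0 N) : ∃ (k : ℕ) (F : Tup N), fam k F = Ψ := by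
  refine Submodule.span_induction ?_ ?_ ?_ ?_ h
  · rintro _ ⟨k, f, hk, hf, _, rfl⟩
    refine ⟨k, Pi.single k hf.toM, ?_⟩
    funext d n
    rw [fam, Finset.sum_eq_single k]
    · rw [Pi.single_eq_same, IsMF.coe_toM]
    · intro i _ hik
      rw [Pi.single_eq_of_ne hik]
      have h0 : ((0 : M N i) : ℍ → ℂ) = (0 : ℂ) • ((0 : M N i) : ℍ → ℂ) := by simp
      rw [h0, pf_smul (isMF_coe _), map_zero, zero_mul]
    · intro hk'
      exact absurd (Finset.mem_Icc.2 ⟨hk, le_rfl⟩) hk'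
  · exact ⟨0, 0, by funext d n; exact fam_zero d n⟩
  · rintro x y _ _ ⟨k, F, hF⟩ ⟨k', G, hG⟩
    refine ⟨max k k', ap (1 : BlockEnd N k) F + ap (1 : BlockEnd N k') G, ?_⟩
    funext d n
    rw [fam_add, fam_ap_le (le_max_left _ _), fam_ap_le (le_max_right _ _), fam_ap_one, fam_ap_one,
      hF, hG]
    rfl
  · rintro a x _ ⟨k, F, hF⟩
    refine ⟨k, (iota.symm a) • F, ?_⟩
    funext d n
    rw [fam_smul, hF]; simp

lemma act_resZ {k K : ℕ} (h : k ≤ K) (x : TZ N K) :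
    act N k (resZ N h x) = restr N h (act N K x) := by
  refine TZ.induction (p := fun x => act N k (resZ N h x) = restr N h (act N K x)) x ?_ ?_ ?_
  · rw [map_zero, map_zero, map_zero, map_zero]
  · intro a T
    rw [resZ_tmul, act_tmul, act_tmul, map_mul]
    rfl
  · intro x y hx hy
    rw [map_add, map_add, hx, hy, map_add, map_add]

lemma ap_act_le {k K : ℕ} (h : k ≤ K) (t : BigHecke N) (F : Tup N) :
    ap (act N K (t.comp K)) (ap (1 : BlockEnd N k) F) = ap (act N k (t.comp k)) F := by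
  have h1 : act N k (t.comp k) = restr N h (act N K (t.comp K)) := by
    have h2 : resZ N h (t.comp K) = t.comp k := mem_bigSub.1 t.2 k K h
    rw [← act_resZ, h2]
  funext i
  by_cases hi : 1 ≤ i ∧ i ≤ k
  · have hi' : 1 ≤ i ∧ i ≤ K := ⟨hi.1, hi.2.trans h⟩
    simp only [ap, dif_pos hi, dif_pos hi', h1, restr_apply]
    rfl
  · simp only [ap, dif_neg hi]
    split_ifs
    · exact map_zero _
    · rfl

/-- `{c ∈ E, ‖c‖ ≤ 1}` -/
def OEs (E : IntermediateField ℚ_[2] L) : Set L := {c | c ∈ E ∧ ‖c‖ ≤ 1}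

variable {E : IntermediateField ℚ_[2] L}

lemma OEs.add {a b : L} (ha : a ∈ OEs E) (hb : b ∈ OEs E) : a + b ∈ OEs E :=
  ⟨add_mem ha.1 hb.1, (norm_add_le_max _ _).trans (max_le ha.2 hb.2)⟩

lemma OEs.mul {a b : L} (ha : a ∈ OEs E) (hb : b ∈ OEs E) : a * b ∈ OEs E :=
  ⟨mul_mem ha.1 hb.1, by rw [norm_mul]; exact mul_le_one₀ ha.2 (norm_nonneg _) hb.2⟩

lemma OEs.int (m : ℤ) : (m : L) ∈ OEs E := ⟨intCast_mem E m, norm_int_le_one m⟩

lemma OEs.zp (a : ℤ_[2]) : algebraMap ℤ_[2] L a ∈ OEs E := by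
  refine ⟨?_, norm_zp_le_one a⟩
  rw [IsScalarTower.algebraMap_apply ℤ_[2] ℚ_[2] L]
  exact E.algebraMap_mem _

lemma exists_val_hecke (hΦ : EigenFam N Φ t s) (ht : ∀ ℓ, ℓ.Prime ∧ ¬ ℓ ∣ 2 * N → t ℓ ∈ OEs E)
    (hs : ∀ ℓ, ℓ.Prime ∧ ¬ ℓ ∣ 2 * N → s ℓ ∈ OEs E) (hε : 0 ≤ ε) (hF : Near N (fam k F) Φ ε)
    {T : BlockEnd N k} (hT : T ∈ heckeAlg N k) : ∃ c ∈ OEs E, ActsBy Φ F ε T c := by
  have hint : ∀ r : ℤ, ActsBy Φ F ε ((r : ℤ) : BlockEnd N k) (r : L) := by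
    intro r
    have h : ((r : ℤ) : BlockEnd N k) = algebraMap ℂ (BlockEnd N k) (r : ℂ) * 1 := by
      rw [mul_one, map_intCast]
    have h2 : (r : L) = iota (r : ℂ) * 1 := by simp
    rw [h, h2]
    apply ActsBy.scalar _ hε (ActsBy.one hF)
    rw [map_intCast]; exact norm_int_le_one r
  refine Subring.closure_induction (p := fun T _ => ∃ c ∈ OEs E, ActsBy Φ F ε T c)
    ?_ ?_ ?_ ?_ ?_ ?_ hT
  · rintro T ⟨ℓ, hℓ, rfl | rfl⟩
    · exact ⟨_, ht ℓ hℓ, ActsBy.tElt hΦ hF hℓ⟩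
    · exact ⟨_, hs ℓ hℓ, ActsBy.sElt hΦ hF hℓ⟩
  · refine ⟨_, OEs.int 0, ?_⟩
    have := hint 0
    simpa using this
  · refine ⟨_, OEs.int 1, ?_⟩
    have := hint 1
    simpa using this
  · rintro x y _ _ ⟨a, ha, hxa⟩ ⟨b, hb, hyb⟩
    exact ⟨a + b, OEs.add ha hb, hxa.add hyb⟩
  · rintro x hx ⟨a, ha, hxa⟩
    refine ⟨_, OEs.mul (OEs.int (-1)) ha, ?_⟩
    have := (hint (-1)).mul ha.2 hε (NormLe.intCast (-1)) hF hxa
    simpa using this
  · rintro x y hx _ ⟨a, ha, hxa⟩ ⟨b, hb, hyb⟩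
    exact ⟨a * b, OEs.mul ha hb, hxa.mul hb.2 hε (NormLe.heckeAlg hx) hF hyb⟩

lemma exists_val (hΦ : EigenFam N Φ t s) (ht : ∀ ℓ, ℓ.Prime ∧ ¬ ℓ ∣ 2 * N → t ℓ ∈ OEs E)
    (hs : ∀ ℓ, ℓ.Prime ∧ ¬ ℓ ∣ 2 * N → s ℓ ∈ OEs E) (hε : 0 ≤ ε) (hF : Near N (fam k F) Φ ε)
    (x : TZ N k) : ∃ c ∈ OEs E, ActsBy Φ F ε (act N k x) c := by
  refine TZ.induction (p := fun x => ∃ c ∈ OEs E, ActsBy Φ F ε (act N k x) c) x ?_ ?_ ?_
  · refine ⟨0, by simpa using OEs.int (E := E) 0, ?_⟩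
    rw [map_zero]
    intro d hd n
    have : ap (0 : BlockEnd N k) F = 0 := by
      funext i
      by_cases h : 1 ≤ i ∧ i ≤ k
      · simp [ap, h]
      · simp only [ap, dif_neg h]; rfl
    rw [this, fam_zero]; simpa using hε
  · intro a T
    obtain ⟨c, hc, hTc⟩ := exists_val_hecke hΦ ht hs hε hF T.2
    refine ⟨algebraMap ℤ_[2] L a * c, OEs.mul (OEs.zp a) hc, ?_⟩
    rw [act_tmul, ← iota_zpC]
    apply ActsBy.scalar _ hε hTc
    rw [iota_zpC]; exact norm_zp_le_one a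
  · intro x y hx hy
    obtain ⟨a, ha, hxa⟩ := hx
    obtain ⟨b, hb, hyb⟩ := hy
    rw [map_add]
    exact ⟨a + b, OEs.add ha hb, hxa.add hyb⟩

lemma val_near (hΦ : EigenFam N Φ t s) {k k' : ℕ} {F F' : Tup N} {ε ε' : ℝ}
    (hF : Near N (fam k F) Φ ε) (hF' : Near N (fam k' F') Φ ε')
    (x : BigHecke N) {c c' : L} (h : ActsBy Φ F ε (act N k (x.comp k)) c)
    (h' : ActsBy Φ F' ε' (act N k' (x.comp k')) c') : ‖c - c'‖ ≤ max ε ε' := by
  set K := max k k' with hK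
  have hk : k ≤ K := le_max_left _ _
  have hk' : k' ≤ K := le_max_right _ _
  set D : Tup N := ap (1 : BlockEnd N k) F - ap (1 : BlockEnd N k') F' with hD
  have h1 : BddF N (fam K D) (max ε ε') := by
    intro d hd n
    rw [hD, fam_sub, fam_ap_le hk, fam_ap_le hk', fam_ap_one, fam_ap_one]
    have : fam k F d n - fam k' F' d n = (fam k F d n - Φ d n) - (fam k' F' d n - Φ d n) := by ring
    rw [this]
    exact (norm_sub_le_max _ _).trans (max_le_max (hF d hd n) (hF' d hd n))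
  have h2 := (NormLe.act (x.comp K)) _ _ h1 1 (Nat.coprime_one_left _) 1
  rw [hD, ap_sub_right, ap_act_le hk, ap_act_le hk', fam_sub, fam_ap_le hk, fam_ap_le hk'] at h2
  have h3 := h 1 (Nat.coprime_one_left _) 1
  have h4 := h' 1 (Nat.coprime_one_left _) 1
  simp only [Pi.smul_apply, smul_eq_mul, hΦ.one, mul_one] at h3 h4
  have : c - c' = (fam k (ap (act N k (x.comp k)) F) 1 1 - fam k' (ap (act N k' (x.comp k')) F') 1 1)
    - ((fam k (ap (act N k (x.comp k)) F) 1 1 - c) - (fam k' (ap (act N k' (x.comp k')) F') 1 1 - c')) := by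
    ring
  rw [this]
  refine (norm_sub_le_max _ _).trans (max_le h2 ?_)
  exact (norm_sub_le_max _ _).trans (max_le_max h3 h4)

/-- `x ∈ 𝕋₂(N)` acts on `Φ` by `c`. -/
def Val (Φ : Fm) (x : BigHecke N) (c : L) : Prop :=
  ∀ (ε : ℝ), 0 < ε → ∀ (k : ℕ) (F : Tup N), Near N (fam k F) Φ ε →
    ActsBy Φ F ε (act N k (x.comp k)) c

lemma Val.unique (hΦ : EigenFam N Φ t s) (hV : Φ ∈ V N) {x : BigHecke N} {c c' : L}
    (h : Val Φ x c) (h' : Val Φ x c') : c = c' := by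
  rw [← sub_eq_zero, ← norm_eq_zero]
  apply le_antisymm _ (norm_nonneg _)
  apply le_of_forall_pos_le_add
  intro ε hε
  obtain ⟨Ψ, hΨ, h1⟩ := hV ε hε
  obtain ⟨k, F, rfl⟩ := V0_eq_fam hΨ
  have := val_near hΦ h1 h1 x (h ε hε k F h1) (h' ε hε k F h1)
  simpa using this

lemma exists_Val [FiniteDimensional ℚ_[2] E] (hΦ : EigenFam N Φ t s) (hV : Φ ∈ V N)
    (ht : ∀ ℓ, ℓ.Prime ∧ ¬ ℓ ∣ 2 * N → t ℓ ∈ OEs E)
    (hs : ∀ ℓ, ℓ.Prime ∧ ¬ ℓ ∣ 2 * N → s ℓ ∈ OEs E) (x : BigHecke N) :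
    ∃ c ∈ OEs E, Val Φ x c := by
  have hex : ∀ m : ℕ, ∃ (k : ℕ) (F : Tup N), Near N (fam k F) Φ ((1 / 2) ^ m) := by
    intro m
    obtain ⟨Ψ, hΨ, h1⟩ := hV ((1 / 2) ^ m) (by positivity)
    obtain ⟨k, F, rfl⟩ := V0_eq_fam hΨ
    exact ⟨k, F, h1⟩
  choose κ F hF using hex
  have hc : ∀ m : ℕ, ∃ c ∈ OEs E, ActsBy Φ (F m) ((1 / 2) ^ m) (act N (κ m) (x.comp (κ m))) c :=
    fun m => exists_val hΦ ht hs (by positivity) (hF m) _
  choose c hcE hc using hc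
  have hcauchy : CauchySeq (fun m => (⟨c m, (hcE m).1⟩ : E)) := by
    rw [Metric.cauchySeq_iff']
    intro ε hε
    obtain ⟨n, hn⟩ := exists_pow_lt_of_lt_one hε (by norm_num : (1 / 2 : ℝ) < 1)
    refine ⟨n, fun m hm => ?_⟩
    have h1 := val_near hΦ (hF m) (hF n) x (hc m) (hc n)
    have h2 : ((1 / 2 : ℝ)) ^ m ≤ (1 / 2) ^ n := pow_le_pow_of_le_one (by norm_num) (by norm_num) hm
    rw [max_eq_right h2] at h1
    rw [Subtype.dist_eq, dist_eq_norm]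
    exact h1.trans_lt hn
  haveI : CompleteSpace E := FiniteDimensional.complete ℚ_[2] E
  obtain ⟨c0, hc0⟩ := cauchySeq_tendsto_of_complete hcauchy
  have hlim : Tendsto c atTop (𝓝 (c0 : L)) :=
    (continuous_subtype_val.tendsto c0).comp hc0
  have hc0n : ‖(c0 : L)‖ ≤ 1 :=
    le_of_tendsto hlim.norm (Eventually.of_forall fun m => (hcE m).2)
  refine ⟨c0, ⟨c0.2, hc0n⟩, ?_⟩
  intro ε hε k F' hF'
  obtain ⟨a, ha, hFa⟩ := exists_val hΦ ht hs hε.le hF' (x.comp k)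
  have h1 : ‖a - (c0 : L)‖ ≤ ε := by
    have hl : Tendsto (fun m => ‖a - c m‖) atTop (𝓝 ‖a - (c0 : L)‖) :=
      (tendsto_const_nhds.sub hlim).norm
    obtain ⟨n, hn⟩ := exists_pow_lt_of_lt_one hε (by norm_num : (1 / 2 : ℝ) < 1)
    refine le_of_tendsto hl ((eventually_ge_atTop n).mono fun m hm => ?_)
    have h2 := val_near hΦ hF' (hF m) x hFa (hc m)
    refine h2.trans (max_le le_rfl ?_)
    have h3 : ((1 / 2 : ℝ)) ^ m ≤ (1 / 2) ^ n := pow_le_pow_of_le_one (by norm_num) (by norm_num) hm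
    linarith
  intro d hd n
  have h2 := hFa d hd n
  have : fam k (ap (act N k (x.comp k)) F') d n - ((c0 : L) • Φ) d n =
    (fam k (ap (act N k (x.comp k)) F') d n - (a • Φ) d n) + (a - (c0 : L)) * Φ d n := by
    simp only [Pi.smul_apply, smul_eq_mul]; ring
  rw [this]
  refine (norm_add_le_max _ _).trans (max_le h2 ?_)
  rw [norm_mul]
  calc ‖a - (c0 : L)‖ * ‖Φ d n‖ ≤ ε * 1 := by
        gcongr
        exact hΦ.bdd d hd n
    _ = ε := mul_one ε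

lemma Val.add {x y : BigHecke N} {a b : L} (h : Val Φ x a) (h' : Val Φ y b) :
    Val Φ (x + y) (a + b) := by
  intro ε hε k F hF
  have : act N k ((x + y : BigHecke N).comp k) = act N k (x.comp k) + act N k (y.comp k) := by
    rw [← map_add]; rfl
  rw [this]
  exact (h ε hε k F hF).add (h' ε hε k F hF)

lemma Val.mul {x y : BigHecke N} {a b : L} (hb : ‖b‖ ≤ 1) (h : Val Φ x a) (h' : Val Φ y b) :
    Val Φ (x * y) (a * b) := by
  intro ε hε k F hF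
  have : act N k ((x * y : BigHecke N).comp k) = act N k (x.comp k) * act N k (y.comp k) := by
    rw [← map_mul]; rfl
  rw [this]
  exact (h ε hε k F hF).mul hb hε.le (NormLe.act _) hF (h' ε hε k F hF)

lemma Val.zp (a : ℤ_[2]) : Val (N := N) Φ (algebraMap ℤ_[2] (BigHecke N) a)
    (algebraMap ℤ_[2] L a) := by
  intro ε hε k F hF
  have h1 : (algebraMap ℤ_[2] (BigHecke N) a).comp k = TZ.tmul a (1 : HA N k) := rfl
  have h2 : algebraMap ℤ_[2] L a = iota (zpC a) * 1 := by rw [iota_zpC, mul_one]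
  rw [h1, act_tmul, h2]
  apply ActsBy.scalar _ hε.le (ActsBy.one hF)
  rw [iota_zpC]; exact norm_zp_le_one a

lemma Val.one : Val (N := N) Φ 1 1 := by
  intro ε hε k F hF
  have h1 : (1 : BigHecke N).comp k = 1 := rfl
  rw [h1, map_one]
  exact ActsBy.one hF

lemma Val.zero : Val (N := N) Φ 0 0 := by
  intro ε hε k F hF
  have h1 : (0 : BigHecke N).comp k = 0 := rfl
  rw [h1, map_zero]
  intro d hd n
  have : ap (0 : BlockEnd N k) F = 0 := by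
    funext i
    by_cases h : 1 ≤ i ∧ i ≤ k
    · simp [ap, h]
    · simp only [ap, dif_neg h]; rfl
  rw [this, fam_zero]; simpa using hε.le

lemma Val.bigT (hΦ : EigenFam N Φ t s) {ℓ : ℕ} (h : ℓ.Prime ∧ ¬ ℓ ∣ 2 * N) :
    Val Φ (H390.bigT N ℓ h) (t ℓ) := by
  intro ε hε k F hF
  have h1 : (H390.bigT N ℓ h).comp k = TZ.tmul 1 (HA.T N k ℓ h) := rfl
  rw [h1, act_tmul, map_one, map_one, one_mul]
  exact ActsBy.tElt hΦ hF h

lemma Val.bigS (hΦ : EigenFam N Φ t s) {ℓ : ℕ} (h : ℓ.Prime ∧ ¬ ℓ ∣ 2 * N) :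
    Val Φ (H390.bigS N ℓ h) (s ℓ) := by
  intro ε hε k F hF
  have h1 : (H390.bigS N ℓ h).comp k = TZ.tmul 1 (HA.S N k ℓ h) := rfl
  rw [h1, act_tmul, map_one, map_one, one_mul]
  exact ActsBy.sElt hΦ hF h

/-- continuity -/
lemma Val.near (hΦ : EigenFam N Φ t s) (hV : Φ ∈ V N) (hε : 0 < ε) :
    ∃ k n : ℕ, ∀ (x x' : BigHecke N) (c c' : L), Val Φ x c → Val Φ x' c' →
      (∃ y : TZ N k, x'.comp k = x.comp k + (2 ^ n : ℕ) • y) → ‖c' - c‖ ≤ ε := by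
  obtain ⟨Ψ, hΨ, h1⟩ := hV ε hε
  obtain ⟨k, F, rfl⟩ := V0_eq_fam hΨ
  have hb : BddF N (fam k F) (max ε 1) := h1.bdd hΦ.bdd
  obtain ⟨n, hn⟩ := exists_pow_lt_of_lt_one (show 0 < ε / max ε 1 by positivity)
    (by norm_num : (1 / 2 : ℝ) < 1)
  refine ⟨k, n, ?_⟩
  rintro x x' c c' hx hx' ⟨y, hy⟩
  have h2 := hx ε hε k F h1 1 (Nat.coprime_one_left _) 1
  have h3 := hx' ε hε k F h1 1 (Nat.coprime_one_left _) 1
  simp only [Pi.smul_apply, smul_eq_mul, hΦ.one, mul_one] at h2 h3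
  have h4 : act N k (x'.comp k) = act N k (x.comp k) +
      algebraMap ℂ (BlockEnd N k) ((2 : ℂ) ^ n) * act N k y := by
    rw [hy, map_add, map_nsmul, nsmul_eq_mul]
    congr 2
    rw [map_pow, map_ofNat]
    push_cast
    rfl
  have h5 : ‖fam k (ap (algebraMap ℂ (BlockEnd N k) ((2 : ℂ) ^ n) * act N k y) F) 1 1‖ ≤ ε := by
    rw [ap_algebraMap, fam_smul, norm_mul, map_pow, map_ofNat, norm_pow, norm_two]
    have := NormLe.act y _ _ hb 1 (Nat.coprime_one_left _) 1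
    calc (1 / 2 : ℝ) ^ n * ‖fam k (ap (act N k y) F) 1 1‖ ≤ (ε / max ε 1) * max ε 1 := by
          gcongr
      _ = ε := by field_simp
  rw [h4, ap_add, fam_add] at h3
  have : c' - c = (fam k (ap (act N k (x.comp k)) F) 1 1 - c)
      - (fam k (ap (act N k (x.comp k)) F) 1 1 +
        fam k (ap (algebraMap ℂ (BlockEnd N k) ((2 : ℂ) ^ n) * act N k y) F) 1 1 - c')
      + fam k (ap (algebraMap ℂ (BlockEnd N k) ((2 : ℂ) ^ n) * act N k y) F) 1 1 := by ring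
  rw [this]
  exact (norm_add_le_max _ _).trans (max_le ((norm_sub_le_max _ _).trans (max_le h2 h3)) h5)

/-- **Assembly**: an eigenfamily in `V N` with eigenvalues in `𝒪_E` gives a continuous
homomorphism `𝕋₂(N) → 𝒪_E`. -/
theorem exists_hom' [FiniteDimensional ℚ_[2] E] (hΦ : EigenFam N Φ t s) (hV : Φ ∈ V N)
    (ht : ∀ ℓ, ℓ.Prime ∧ ¬ ℓ ∣ 2 * N → t ℓ ∈ OEs E)
    (hs : ∀ ℓ, ℓ.Prime ∧ ¬ ℓ ∣ 2 * N → s ℓ ∈ OEs E) :
    ∃ φ : BigHecke N →ₐ[ℤ_[2]] integralClosure ℤ_[2] E,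
      Continuous φ ∧
      ∀ (ℓ : ℕ) (h : ℓ.Prime ∧ ¬ ℓ ∣ 2 * N),
        (((φ (bigT N ℓ h) : integralClosure ℤ_[2] E) : E) : L) = t ℓ ∧
        (((φ (bigS N ℓ h) : integralClosure ℤ_[2] E) : E) : L) = s ℓ := by
  choose c hcE hcV using fun x => exists_Val hΦ hV ht hs x
  have hint : ∀ x, IsIntegral ℤ_[2] (⟨c x, (hcE x).1⟩ : E) := by
    intro x
    have h1 := integral_of_norm_le_one (hcE x).2
    haveI : IsScalarTower ℤ_[2] E L := IsScalarTower.of_algebraMap_eq (fun x => rfl)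
    rw [← isIntegral_algebraMap_iff (algebraMap E L).injective]
    exact h1
  have c1 : c 1 = 1 := Val.unique hΦ hV (hcV 1) Val.one
  have c0 : c 0 = 0 := Val.unique hΦ hV (hcV 0) Val.zero
  have cmul : ∀ x y, c (x * y) = c x * c y := fun x y =>
    Val.unique hΦ hV (hcV _) ((hcV x).mul (hcE y).2 (hcV y))
  have cadd : ∀ x y, c (x + y) = c x + c y := fun x y =>
    Val.unique hΦ hV (hcV _) ((hcV x).add (hcV y))
  have czp : ∀ r, c (algebraMap ℤ_[2] (BigHecke N) r) = algebraMap ℤ_[2] L r := fun r =>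
    Val.unique hΦ hV (hcV _) (Val.zp r)
  let φ : BigHecke N →ₐ[ℤ_[2]] integralClosure ℤ_[2] E :=
    { toFun := fun x => ⟨⟨c x, (hcE x).1⟩, hint x⟩
      map_one' := Subtype.ext (Subtype.ext c1)
      map_mul' := fun x y => Subtype.ext (Subtype.ext (cmul x y))
      map_zero' := Subtype.ext (Subtype.ext c0)
      map_add' := fun x y => Subtype.ext (Subtype.ext (cadd x y))
      commutes' := fun r => Subtype.ext (Subtype.ext (czp r)) }
  have hφ : ∀ x, (((φ x : integralClosure ℤ_[2] E) : E) : L) = c x := fun x => rfl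
  refine ⟨φ, ?_, ?_⟩
  · refine continuous_def.2 fun U hU => ?_
    rw [isOpen_iff_forall_mem_open]
    intro x hx
    -- `U` contains a ball
    have hU' : U ∈ 𝓝 (φ x) := hU.mem_nhds hx
    rw [Metric.mem_nhds_iff] at hU'
    obtain ⟨ε, hε, hball⟩ := hU'
    obtain ⟨k, n, hkn⟩ := Val.near hΦ hV (half_pos hε)
    refine ⟨(fun y : BigHecke N => y.comp k) ⁻¹' {z | ∃ y : TZ N k, z = x.comp k + (2 ^ n : ℕ) • y},
      ?_, ?_, ?_⟩
    · rintro x' hx'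
      apply hball
      rw [Metric.mem_ball, Subtype.dist_eq, Subtype.dist_eq, dist_eq_norm]
      have := hkn x x' (c x) (c x') (hcV x) (hcV x') hx'
      rw [hφ, hφ]
      linarith
    · have hle : instTopBig N ≤ TopologicalSpace.induced (fun t : BigHecke N => t.comp k)
          (twoAdic (TZ N k)) := iInf_le _ k
      apply hle
      refine ⟨_, ?_, rfl⟩
      rintro z ⟨y, rfl⟩
      refine ⟨n, fun y' => ⟨y + y', ?_⟩⟩
      rw [smul_add, add_assoc]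
    · exact ⟨0, by simp⟩
  · intro ℓ h
    refine ⟨?_, ?_⟩
    · rw [hφ]; exact Val.unique hΦ hV (hcV _) (Val.bigT hΦ h)
    · rw [hφ]; exact Val.unique hΦ hV (hcV _) (Val.bigS hΦ h)

theorem exists_hom [FiniteDimensional ℚ_[2] E] (hΦ : EigenFam N Φ t s) (hV : Φ ∈ V N)
    (ht : ∀ ℓ, ℓ.Prime ∧ ¬ ℓ ∣ 2 * N → t ℓ ∈ OEs E)
    (hs : ∀ ℓ, ℓ.Prime ∧ ¬ ℓ ∣ 2 * N → s ℓ ∈ OEs E) :
    ∃ φ : BigHecke N →ₐ[ℤ_[2]] OE E, Continuous φ ∧
      ∀ (ℓ : ℕ) (h : ℓ.Prime ∧ ¬ ℓ ∣ 2 * N),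
        ((φ (bigT N ℓ h)).val : L) = t ℓ ∧ ((φ (bigS N ℓ h)).val : L) = s ℓ :=
  exists_hom' hΦ hV ht hs

end

end Vale.Agent.P022.H390
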