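import Vale.Agent.P022.H390.Diamond

/-!
# P022: the Hecke operator `T_ℓ` on `M_k(Γ₁(N))`, `ℓ` a prime not dividing `N`
-/

namespace Vale.Agent.P022.H390

open UpperHalfPlane ModularForm CongruenceSubgroup Matrix.SpecialLinearGroup
open scoped MatrixGroups ModularForm Manifold

noncomputable section

/-- an integral `2 × 2` matrix as element of `GL₂(ℝ)` -/
def matM (A : Matrix (Fin 2) (Fin 2) ℤ) : GL (Fin 2) ℝ := mat (A 0 0) (A 0 1) (A 1 0) (A 1 1)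

lemma matM_mul {A B : Matrix (Fin 2) (Fin 2) ℤ} (hA : A.det ≠ 0) (hB : B.det ≠ 0) :
    matM A * matM B = matM (A * B) := by
  rw [Matrix.det_fin_two] at hA hB
  rw [matM, matM, mat_mul hA hB, matM]
  simp [Matrix.mul_apply, Fin.sum_univ_two]

lemma matM_sl (γ : SL(2, ℤ)) : matM (γ : Matrix (Fin 2) (Fin 2) ℤ) = mapGL ℝ γ :=
  mat_eq_mapGL γ

variable {N : ℕ} {k : ℤ} {f : ℍ → ℂ} {ℓ : ℕ}

/-- kernel condition modulo `ℓ`. -/
def Kr (ℓ : ℕ) (A : Matrix (Fin 2) (Fin 2) ℤ) : Option (ZMod ℓ) → Prop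
  | none => (A 0 0 : ZMod ℓ) = 0 ∧ (A 1 0 : ZMod ℓ) = 0
  | some j => (A 0 1 : ZMod ℓ) = j * A 0 0 ∧ (A 1 1 : ZMod ℓ) = j * A 1 0

lemma exists_Kr [Fact ℓ.Prime] (A : Matrix (Fin 2) (Fin 2) ℤ) (hA : (ℓ : ℤ) ∣ A.det) :
    ∃ c, Kr ℓ A c := by
  have hd : (A 0 0 : ZMod ℓ) * A 1 1 = A 0 1 * A 1 0 := by
    have : ((A.det : ℤ) : ZMod ℓ) = 0 := (ZMod.intCast_zmod_eq_zero_iff_dvd _ _).2 hA
    rw [Matrix.det_fin_two] at this
    push_cast at this
    linear_combination this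
  by_cases h0 : (A 0 0 : ZMod ℓ) = 0
  · by_cases h1 : (A 1 0 : ZMod ℓ) = 0
    · exact ⟨none, h0, h1⟩
    · refine ⟨some (A 1 1 / A 1 0), ?_, ?_⟩
      · rw [h0, zero_mul] at hd
        have : (A 0 1 : ZMod ℓ) = 0 := by
          rcases mul_eq_zero.1 hd.symm with h | h
          · exact h
          · exact absurd h h1
        rw [this, h0, mul_zero]
      · rw [div_mul_cancel₀ _ h1]
  · refine ⟨some (A 0 1 / A 0 0), ?_, ?_⟩
    · rw [div_mul_cancel₀ _ h0]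
    · rw [div_mul_eq_mul_div, eq_div_iff h0, ← hd]; ring

lemma slash_eq_of_Kr [hℓ : Fact ℓ.Prime] (hf : ∀ γ ∈ Gamma1 N, f ∣[k] γ = f)
    {A B : Matrix (Fin 2) (Fin 2) ℤ} (hA : A.det = ℓ) (hB : B.det = ℓ)
    (hA0 : IsUnit (A 0 0 : ZMod N)) (hA1 : (A 1 0 : ZMod N) = 0)
    (hB0 : (B 0 0 : ZMod N) = A 0 0) (hB1 : (B 1 0 : ZMod N) = 0)
    {c : Option (ZMod ℓ)} (hAc : Kr ℓ A c) (hBc : Kr ℓ B c) :
    f ∣[k] matM A = f ∣[k] matM B := by
  have hℓ0 : (ℓ : ℤ) ≠ 0 := by exact_mod_cast hℓ.out.ne_zero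
  -- divisibility of `B * adj A`
  have key : ((ℓ : ℤ) ∣ B 0 0 * A 1 1 - B 0 1 * A 1 0) ∧ ((ℓ : ℤ) ∣ B 0 1 * A 0 0 - B 0 0 * A 0 1)
      ∧ ((ℓ : ℤ) ∣ B 1 0 * A 1 1 - B 1 1 * A 1 0) ∧ ((ℓ : ℤ) ∣ B 1 1 * A 0 0 - B 1 0 * A 0 1) := by
    simp only [← ZMod.intCast_zmod_eq_zero_iff_dvd]
    push_cast
    rcases c with _ | j
    · obtain ⟨a1, a2⟩ := hAc
      obtain ⟨b1, b2⟩ := hBc
      rw [a1, a2, b1, b2]
      refine ⟨by ring, by ring, by ring, by ring⟩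
    · obtain ⟨a1, a2⟩ := hAc
      obtain ⟨b1, b2⟩ := hBc
      rw [a1, a2, b1, b2]
      refine ⟨by ring, by ring, by ring, by ring⟩
  obtain ⟨⟨p, hp⟩, ⟨q, hq⟩, ⟨r, hr⟩, ⟨s, hs⟩⟩ := key
  rw [Matrix.det_fin_two] at hA hB
  -- det of δ
  have hdet : p * s - q * r = 1 := by
    have h1 : (ℓ : ℤ) * ℓ * (p * s - q * r) = ℓ * ℓ * 1 := by
      calc (ℓ : ℤ) * ℓ * (p * s - q * r) = (ℓ * p) * (ℓ * s) - (ℓ * q) * (ℓ * r) := by ring
        _ = (A 0 0 * A 1 1 - A 0 1 * A 1 0) * (B 0 0 * B 1 1 - B 0 1 * B 1 0) := by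
            rw [← hp, ← hq, ← hr, ← hs]; ring
        _ = ℓ * ℓ * 1 := by rw [hA, hB]; ring
    exact mul_left_cancel₀ (mul_ne_zero hℓ0 hℓ0) h1
  set δ : SL(2, ℤ) := slMk p q r s hdet with hδ
  have e00 : B 0 0 = p * A 0 0 + q * A 1 0 := by
    apply mul_left_cancel₀ hℓ0
    linear_combination (-B 0 0) * hA + A 0 0 * hp + A 1 0 * hq
  have e01 : B 0 1 = p * A 0 1 + q * A 1 1 := by
    apply mul_left_cancel₀ hℓ0
    linear_combination (-B 0 1) * hA + A 0 1 * hp + A 1 1 * hq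
  have e10 : B 1 0 = r * A 0 0 + s * A 1 0 := by
    apply mul_left_cancel₀ hℓ0
    linear_combination (-B 1 0) * hA + A 0 0 * hr + A 1 0 * hs
  have e11 : B 1 1 = r * A 0 1 + s * A 1 1 := by
    apply mul_left_cancel₀ hℓ0
    linear_combination (-B 1 1) * hA + A 0 1 * hr + A 1 1 * hs
  have hBeq : matM B = mapGL ℝ δ * matM A := by
    rw [← matM_sl, matM_mul]
    · rw [matM, matM]
      simp only [Matrix.mul_apply, Fin.sum_univ_two]
      simp only [hδ, slMk_00, slMk_01, slMk_10, slMk_11]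
      rw [← e00, ← e01, ← e10, ← e11]
    · rw [δ.det_coe]; exact one_ne_zero
    · rw [Matrix.det_fin_two, hA]; exact hℓ0
  have hp1 : ((p : ℤ) : ZMod N) = 1 := by
    have := congrArg (fun x : ℤ => (x : ZMod N)) e00
    push_cast at this
    rw [hA1, hB0] at this
    apply hA0.mul_right_cancel
    linear_combination -this
  have hr1 : ((r : ℤ) : ZMod N) = 0 := by
    have := congrArg (fun x : ℤ => (x : ZMod N)) e10
    push_cast at this
    rw [hA1, hB1] at this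
    apply hA0.mul_right_cancel
    linear_combination -this
  have hs1 : ((s : ℤ) : ZMod N) = 1 := by
    have := congrArg (fun x : ℤ => (x : ZMod N)) hdet
    push_cast at this
    rw [hp1, hr1] at this
    simpa using this
  have hδ1 : δ ∈ Gamma1 N := by
    rw [Gamma1_mem]
    simp only [hδ, slMk_00, slMk_11, slMk_10]
    exact ⟨hp1, hs1, hr1⟩
  rw [hBeq, SlashAction.slash_mul]
  rw [show f ∣[k] (mapGL ℝ δ) = f from hf δ hδ1]

/-- representatives for `Γ₁(N) \ Γ₁(N) diag(1, ℓ) Γ₁(N)`. -/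
def repM (N ℓ : ℕ) : Option (ZMod ℓ) → Matrix (Fin 2) (Fin 2) ℤ
  | none => !![(dia N ℓ) 0 0 * ℓ, (dia N ℓ) 0 1; (dia N ℓ) 1 0 * ℓ, (dia N ℓ) 1 1]
  | some j => !![1, (j.val : ℤ); 0, (ℓ : ℤ)]

lemma repM_det (i : Option (ZMod ℓ)) : (repM N ℓ i).det = ℓ := by
  rcases i with _ | j
  · rw [repM, Matrix.det_fin_two_of]
    have := det_eq (dia N ℓ)
    linear_combination (ℓ : ℤ) * this
  · rw [repM, Matrix.det_fin_two_of]; ring

lemma repM_N0 (h : Nat.Coprime ℓ N) (i : Option (ZMod ℓ)) : (repM N ℓ i 0 0 : ZMod N) = 1 := by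
  rcases i with _ | j
  · have := congrArg (fun x : ℤ => (x : ZMod N)) (det_eq (dia N ℓ))
    rw [dia_10 h, dia_11 h] at this
    push_cast at this
    simp only [CharP.cast_eq_zero, mul_zero, sub_zero] at this
    simpa [repM] using this
  · simp [repM]

lemma repM_N1 (h : Nat.Coprime ℓ N) (i : Option (ZMod ℓ)) : (repM N ℓ i 1 0 : ZMod N) = 0 := by
  rcases i with _ | j
  · simp [repM, dia_10 h]
  · simp [repM]

lemma repM_Kr [NeZero ℓ] (i : Option (ZMod ℓ)) : Kr ℓ (repM N ℓ i) i := by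
  rcases i with _ | j
  · simp [Kr, repM]
  · simp [Kr, repM]

lemma kr_repM_mul_inj [hℓ : Fact ℓ.Prime] (γ : SL(2, ℤ)) {i i' c : Option (ZMod ℓ)}
    (h : Kr ℓ (repM N ℓ i * γ) c) (h' : Kr ℓ (repM N ℓ i' * γ) c) : i = i' := by
  have hγ : ((γ 0 0 : ℤ) : ZMod ℓ) * γ 1 1 - γ 0 1 * γ 1 0 = 1 := by
    have := congrArg (fun x : ℤ => (x : ZMod ℓ)) (det_eq γ)
    push_cast at this; exact this
  have hD : ((dia N ℓ 0 0 : ℤ) : ZMod ℓ) * dia N ℓ 1 1 - dia N ℓ 0 1 * dia N ℓ 1 0 = 1 := by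
    have := congrArg (fun x : ℤ => (x : ZMod ℓ)) (det_eq (dia N ℓ))
    push_cast at this; exact this
  -- the vector `w = γ v_c`
  obtain ⟨w0, w1, hw, key⟩ : ∃ w0 w1 : ZMod ℓ, (w0 ≠ 0 ∨ w1 ≠ 0) ∧
      ∀ i, Kr ℓ (repM N ℓ i * γ) c →
        ((repM N ℓ i 0 0 : ZMod ℓ) * w0 + (repM N ℓ i 0 1 : ZMod ℓ) * w1 = 0 ∧
        (repM N ℓ i 1 0 : ZMod ℓ) * w0 + (repM N ℓ i 1 1 : ZMod ℓ) * w1 = 0) := by
    rcases c with _ | j
    · refine ⟨γ 0 0, γ 1 0, ?_, ?_⟩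
      · by_contra hcon
        push Not at hcon
        rw [hcon.1, hcon.2] at hγ
        simp at hγ
      · rintro i ⟨h1, h2⟩
        simp only [Matrix.mul_apply, Fin.sum_univ_two] at h1 h2
        push_cast at h1 h2
        exact ⟨h1, h2⟩
    · refine ⟨γ 0 1 - j * γ 0 0, γ 1 1 - j * γ 1 0, ?_, ?_⟩
      · by_contra hcon
        push Not at hcon
        have a1 : ((γ 0 1 : ℤ) : ZMod ℓ) = j * γ 0 0 := by linear_combination hcon.1
        have a2 : ((γ 1 1 : ℤ) : ZMod ℓ) = j * γ 1 0 := by linear_combination hcon.2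
        rw [a1, a2] at hγ
        have : (1 : ZMod ℓ) = 0 := by linear_combination -hγ
        exact one_ne_zero this
      · rintro i ⟨h1, h2⟩
        simp only [Matrix.mul_apply, Fin.sum_univ_two] at h1 h2
        push_cast at h1 h2
        exact ⟨by linear_combination h1, by linear_combination h2⟩
  have k1 := key i h
  have k2 := key i' h'
  have hℓ0 : ((ℓ : ℕ) : ZMod ℓ) = 0 := by simp
  -- analysis of `rep i w = 0`
  have none_case : ∀ (h : ((repM N ℓ none 0 0 : ZMod ℓ) * w0 + (repM N ℓ none 0 1 : ZMod ℓ) * w1 = 0 ∧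
        (repM N ℓ none 1 0 : ZMod ℓ) * w0 + (repM N ℓ none 1 1 : ZMod ℓ) * w1 = 0)), w1 = 0 := by
    rintro ⟨h1, h2⟩
    simp only [repM, Matrix.of_apply, Matrix.cons_val', Matrix.cons_val_zero,
      Matrix.cons_val_one, Matrix.cons_val_fin_one] at h1 h2
    push_cast at h1 h2
    rw [hℓ0] at h1 h2
    linear_combination ((dia N ℓ 0 0 : ℤ) : ZMod ℓ) * h2 - ((dia N ℓ 1 0 : ℤ) : ZMod ℓ) * h1 - w1 * hD
  have some_case : ∀ j : ZMod ℓ, ∀ (h : ((repM N ℓ (some j) 0 0 : ZMod ℓ) * w0 +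
        (repM N ℓ (some j) 0 1 : ZMod ℓ) * w1 = 0 ∧
        (repM N ℓ (some j) 1 0 : ZMod ℓ) * w0 + (repM N ℓ (some j) 1 1 : ZMod ℓ) * w1 = 0)),
        w0 + j * w1 = 0 := by
    rintro j ⟨h1, h2⟩
    simp only [repM, Matrix.of_apply, Matrix.cons_val', Matrix.cons_val_zero,
      Matrix.cons_val_one, Matrix.cons_val_fin_one] at h1 h2
    push_cast at h1 h2
    rw [ZMod.natCast_zmod_val] at h1
    linear_combination h1
  rcases i with _ | j <;> rcases i' with _ | j'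
  · rfl
  · have a := none_case k1
    have b := some_case j' k2
    rw [a] at b hw
    simp at b hw
    exact absurd b hw
  · have a := none_case k2
    have b := some_case j k1
    rw [a] at b hw
    simp at b hw
    exact absurd b hw
  · have a := some_case j k1
    have b := some_case j' k2
    have hj : (j - j') * w1 = 0 := by linear_combination a - b
    rcases mul_eq_zero.1 hj with h3 | h3
    · rw [sub_eq_zero.1 h3]
    · rw [h3] at a hw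
      simp at a hw
      exact absurd a hw

lemma heckeFun_eq [hℓ : Fact ℓ.Prime] (f : ℍ → ℂ) :
    heckeFun N k ℓ f = ∑ i : Option (ZMod ℓ), f ∣[k] matM (repM N ℓ i) := by
  have hℓ0 : (ℓ : ℤ) ≠ 0 := by exact_mod_cast hℓ.out.ne_zero
  rw [heckeFun, Fintype.sum_option]
  congr 1
  · rw [SL_slash]
    change (f ∣[k] (mapGL ℝ (dia N ℓ))) ∣[k] _ = _
    rw [← SlashAction.slash_mul, ← matM_sl]
    congr 1
    have : mat ℓ 0 0 1 = matM !![(ℓ : ℤ), 0; 0, 1] := rfl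
    rw [this, matM_mul (by rw [(dia N ℓ).det_coe]; exact one_ne_zero)
      (by rw [Matrix.det_fin_two_of]; simpa using hℓ0)]
    rw [matM, matM]
    simp [Matrix.mul_apply, Fin.sum_univ_two, repM]
  · have : ∀ j : ZMod ℓ, f ∣[k] matM (repM N ℓ (some j)) = f ∣[k] (mat 1 (j.val : ℤ) 0 ℓ) := by
      intro j; rfl
    simp_rw [this]
    obtain ⟨m, rfl⟩ : ∃ m, ℓ = m + 1 := Nat.exists_eq_succ_of_ne_zero hℓ.out.ne_zero
    rw [Finset.sum_range]
    rfl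

lemma Kr_mul_left {ℓ : ℕ} (γ A : Matrix (Fin 2) (Fin 2) ℤ) {c : Option (ZMod ℓ)} (h : Kr ℓ A c) :
    Kr ℓ (γ * A) c := by
  rcases c with _ | j
  · obtain ⟨h1, h2⟩ := h
    refine ⟨?_, ?_⟩ <;>
    · simp only [Matrix.mul_apply, Fin.sum_univ_two]
      push_cast
      rw [h1, h2]; ring
  · obtain ⟨h1, h2⟩ := h
    refine ⟨?_, ?_⟩ <;>
    · simp only [Matrix.mul_apply, Fin.sum_univ_two]
      push_cast
      rw [h1, h2]; ring

/-- `T_ℓ` commutes with `Γ₀(N)`. -/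
lemma IsMF.hecke_slash [hℓ : Fact ℓ.Prime] (h : Nat.Coprime ℓ N)
    (hf : ∀ γ ∈ Gamma1 N, f ∣[k] γ = f) {γ : SL(2, ℤ)} (hγ : γ ∈ Gamma0 N) :
    (heckeFun N k ℓ f) ∣[k] γ = heckeFun N k ℓ (f ∣[k] γ) := by
  have hℓ0 : (ℓ : ℤ) ≠ 0 := by exact_mod_cast hℓ.out.ne_zero
  have hdet : ∀ i, (repM N ℓ i * (γ : Matrix (Fin 2) (Fin 2) ℤ)).det = ℓ := by
    intro i
    rw [Matrix.det_mul, repM_det, γ.det_coe, mul_one]
  have hdet' : ∀ i, ((γ : Matrix (Fin 2) (Fin 2) ℤ) * repM N ℓ i).det = ℓ := by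
    intro i
    rw [Matrix.det_mul, repM_det, γ.det_coe, one_mul]
  have hex : ∀ i, ∃ c, Kr ℓ (repM N ℓ i * (γ : Matrix (Fin 2) (Fin 2) ℤ)) c := fun i =>
    exists_Kr _ (by rw [hdet])
  choose c hc using hex
  have hinj : Function.Injective c := by
    intro i i' hii
    apply kr_repM_mul_inj γ (hc i)
    rw [hii]; exact hc i'
  have hbij : Function.Bijective c := Finite.injective_iff_bijective.1 hinj
  rw [heckeFun_eq, SL_slash]
  change (∑ i : Option (ZMod ℓ), f ∣[k] matM (repM N ℓ i)) ∣[k] (mapGL ℝ γ) = _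
  rw [SlashAction.sum_slash, heckeFun_eq]
  rw [← Function.Bijective.sum_comp hbij (fun i => (f ∣[k] γ) ∣[k] matM (repM N ℓ i))]
  apply Finset.sum_congr rfl
  intro i _
  rw [SL_slash]
  change _ = (f ∣[k] mapGL ℝ γ) ∣[k] _
  rw [← SlashAction.slash_mul, ← SlashAction.slash_mul, ← matM_sl, matM_mul (by rw [repM_det]; exact hℓ0)
    (by rw [γ.det_coe]; exact one_ne_zero), matM_mul (by rw [γ.det_coe]; exact one_ne_zero)
    (by rw [repM_det]; exact hℓ0)]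
  rw [Gamma0_mem] at hγ
  have hu : IsUnit ((γ 0 0 : ℤ) : ZMod N) := by
    have := congrArg (fun x : ℤ => (x : ZMod N)) (det_eq γ)
    push_cast at this
    rw [hγ] at this
    exact IsUnit.of_mul_eq_one _ (by simpa using this)
  have e1 : (((repM N ℓ i * (γ : Matrix (Fin 2) (Fin 2) ℤ)) 0 0 : ℤ) : ZMod N) = γ 0 0 := by
    simp only [Matrix.mul_apply, Fin.sum_univ_two]
    push_cast
    rw [hγ, repM_N0 h]; simp
  apply slash_eq_of_Kr hf (hdet i) (hdet' _) ?_ ?_ ?_ ?_ (hc i) (Kr_mul_left _ _ (repM_Kr _))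
  · rw [e1]; exact hu
  · simp only [Matrix.mul_apply, Fin.sum_univ_two]
    push_cast
    rw [hγ, repM_N1 h]; simp
  · rw [e1]
    simp only [Matrix.mul_apply, Fin.sum_univ_two]
    push_cast
    rw [repM_N1 h, repM_N0 h]; simp
  · simp only [Matrix.mul_apply, Fin.sum_univ_two]
    push_cast
    rw [hγ, repM_N1 h]; simp

lemma IsMF.hecke_inv [hℓ : Fact ℓ.Prime] (h : Nat.Coprime ℓ N)
    (hf : ∀ γ ∈ Gamma1 N, f ∣[k] γ = f) :
    ∀ γ ∈ Gamma1 N, (heckeFun N k ℓ f) ∣[k] γ = heckeFun N k ℓ f := by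
  intro γ hγ
  rw [IsMF.hecke_slash h hf (Gamma1_in_Gamma0 N hγ), hf γ hγ]

lemma IsMF.hecke [NeZero N] [hℓ : Fact ℓ.Prime] (h : Nat.Coprime ℓ N) (hf : IsMF N k f) :
    IsMF N k (heckeFun N k ℓ f) where
  inv := IsMF.hecke_inv h hf.inv
  holo := by
    rw [heckeFun_eq]
    exact MDifferentiable.sum fun i _ => hf.holo.slash k _
  bdd γ := by
    rw [heckeFun_eq, SL_slash]
    change IsBoundedAtImInfty ((∑ i : Option (ZMod ℓ), f ∣[k] matM (repM N ℓ i)) ∣[k] (mapGL ℝ γ))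
    rw [SlashAction.sum_slash]
    rw [IsBoundedAtImInfty, Filter.BoundedAtFilter, Finset.sum_fn]
    refine .fun_sum fun i _ => ?_
    exact hf.bdd_mat _ _ _ _ γ

lemma heckeFun_add [Fact ℓ.Prime] (f g : ℍ → ℂ) :
    heckeFun N k ℓ (f + g) = heckeFun N k ℓ f + heckeFun N k ℓ g := by
  rw [heckeFun_eq, heckeFun_eq, heckeFun_eq, ← Finset.sum_add_distrib]
  refine Finset.sum_congr rfl ?_
  intro i _
  rw [SlashAction.add_slash]

lemma heckeFun_smul [Fact ℓ.Prime] (c : ℂ) (f : ℍ → ℂ) :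
    heckeFun N k ℓ (c • f) = c • heckeFun N k ℓ f := by
  rw [heckeFun_eq, heckeFun_eq, Finset.smul_sum]
  refine Finset.sum_congr rfl ?_
  intro i _
  have hσ : σ (matM (repM N ℓ i)) c = c := by
    have hpos : 0 < (matM (repM N ℓ i)).det.val := by
      have hd := repM_det (N := N) (ℓ := ℓ) i
      rw [Matrix.det_fin_two] at hd
      have hℓ0 : (ℓ : ℤ) ≠ 0 := by exact_mod_cast (Fact.out : ℓ.Prime).ne_zero
      have hv := mat_val (a := repM N ℓ i 0 0) (b := repM N ℓ i 0 1) (c := repM N ℓ i 1 0)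
        (d := repM N ℓ i 1 1) (by rw [hd]; exact hℓ0)
      rw [Matrix.GeneralLinearGroup.val_det_apply, matM, hv, Matrix.det_fin_two_of]
      have : ((repM N ℓ i 0 0 : ℝ) * repM N ℓ i 1 1 - repM N ℓ i 0 1 * repM N ℓ i 1 0) = ℓ := by
        exact_mod_cast hd
      rw [this]
      exact_mod_cast (Fact.out : ℓ.Prime).pos
    rw [σ, if_pos hpos]; rfl
  rw [smul_slash, hσ]

lemma heckeFun_isMF [NeZero N] (h : ℓ.Prime ∧ ¬ ℓ ∣ 2 * N) (f : ℍ → ℂ) (hf : IsMF N k f) :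
    IsMF N k (heckeFun N k ℓ f) := by
  haveI : Fact ℓ.Prime := ⟨h.1⟩
  exact hf.hecke ((Nat.Prime.coprime_iff_not_dvd h.1).2 fun h' => h.2 (h'.mul_left 2))

lemma heckeFun_add' (h : ℓ.Prime ∧ ¬ ℓ ∣ 2 * N) (f g : ℍ → ℂ) :
    heckeFun N k ℓ (f + g) = heckeFun N k ℓ f + heckeFun N k ℓ g := by
  haveI : Fact ℓ.Prime := ⟨h.1⟩
  exact heckeFun_add f g

lemma heckeFun_smul' (h : ℓ.Prime ∧ ¬ ℓ ∣ 2 * N) (c : ℂ) (f : ℍ → ℂ) :
    heckeFun N k ℓ (c • f) = c • heckeFun N k ℓ f := by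
  haveI : Fact ℓ.Prime := ⟨h.1⟩
  exact heckeFun_smul c f

lemma lSFun_isMF [NeZero N] (f : ℍ → ℂ) (hf : IsMF N k f) : IsMF N k (lSFun N k ℓ f) := by
  have h := hf.dia ℓ
  refine ⟨fun γ hγ => ?_, ?_, fun γ => ?_⟩
  · rw [lSFun, SL_smul_slash, h.inv γ hγ]
  · exact (MDifferentiable.const_smul _ h.holo)
  · rw [lSFun, SL_smul_slash]
    exact (h.bdd γ).const_smul_left _

lemma lSFun_add (f g : ℍ → ℂ) : lSFun N k ℓ (f + g) = lSFun N k ℓ f + lSFun N k ℓ g := by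
  rw [lSFun, SlashAction.add_slash, smul_add]
  rfl

lemma lSFun_smul (c : ℂ) (f : ℍ → ℂ) : lSFun N k ℓ (c • f) = c • lSFun N k ℓ f := by
  rw [lSFun, SL_smul_slash, smul_comm]
  rfl

end

end Vale.Agent.P022.H390
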