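import Vale.Agent.P022.H390.Def

/-!
# P022: imaginary quadratic fields: norm and trace through the complex embedding
-/

namespace Vale.Agent.P022.H390

open NumberField Module

noncomputable section

variable (K : Type*) [Field K] [NumberField K]

/-- the complex embedding -/
theorem exists_sig (h2 : finrank ℚ K = 2) (hd : discr K < 0) : ∃ σ : K →+* ℂ,
    (∀ x : K, ((Algebra.norm ℚ x : ℚ) : ℂ) = σ x * starRingEnd ℂ (σ x)) ∧
    (∀ x : K, ((Algebra.trace ℚ K x : ℚ) : ℂ) = σ x + starRingEnd ℂ (σ x)) := by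
  classical
  have hs := NumberField.sign_discr K
  rw [Int.sign_eq_neg_one_of_neg hd] at hs
  have hodd : Odd (InfinitePlace.nrComplexPlaces K) := by
    by_contra h
    rw [Nat.not_odd_iff_even] at h
    rw [h.neg_one_pow] at hs
    norm_num at hs
  have hpos : 0 < InfinitePlace.nrComplexPlaces K := hodd.pos
  rw [InfinitePlace.nrComplexPlaces, Fintype.card_pos_iff] at hpos
  obtain ⟨w, hw⟩ := hpos
  rw [InfinitePlace.isComplex_iff] at hw
  set σ : K →+* ℂ := w.embedding with hσ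
  have hne : ComplexEmbedding.conjugate σ ≠ σ := fun h =>
    hw (ComplexEmbedding.isReal_iff.2 h)
  set e := RingHom.equivRatAlgHom K ℂ with he
  have hcard : Fintype.card (K →ₐ[ℚ] ℂ) = 2 := by rw [AlgHom.card]; exact h2
  have hne' : e σ ≠ e (ComplexEmbedding.conjugate σ) := fun h => hne (e.injective h).symm
  have huniv : (Finset.univ : Finset (K →ₐ[ℚ] ℂ)) = {e σ, e (ComplexEmbedding.conjugate σ)} := by
    symm
    apply Finset.eq_univ_of_card
    rw [Finset.card_pair hne', hcard]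
  have e1 : ∀ x : K, e σ x = σ x := fun x => rfl
  have e2 : ∀ x : K, e (ComplexEmbedding.conjugate σ) x = starRingEnd ℂ (σ x) := fun x => rfl
  refine ⟨σ, fun x => ?_, fun x => ?_⟩
  · have h1 := Algebra.norm_eq_prod_embeddings ℚ ℂ x
    rw [huniv, Finset.prod_pair hne', e1, e2] at h1
    simpa using h1
  · have h1 := trace_eq_sum_embeddings ℂ (K := ℚ) (x := x)
    rw [huniv, Finset.sum_pair hne', e1, e2] at h1
    simpa using h1

variable {K}

/-- the data of an imaginary quadratic field: the complex embedding of the ring of integers -/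
structure Sig (K : Type*) [Field K] [NumberField K] where
  /-- the complex embedding -/
  s : 𝓞 K →+* ℂ
  inj : Function.Injective s
  /-- norms -/
  norm : ∀ x : 𝓞 K, ((Algebra.norm ℤ x : ℤ) : ℂ) = s x * starRingEnd ℂ (s x)
  /-- traces -/
  trace : ∀ x : 𝓞 K, ((Algebra.trace ℤ (𝓞 K) x : ℤ) : ℂ) = s x + starRingEnd ℂ (s x)

lemma exists_Sig (h2 : finrank ℚ K = 2) (hd : discr K < 0) : Nonempty (Sig K) := by
  obtain ⟨σ, h1, h3⟩ := exists_sig K h2 hd
  refine ⟨⟨σ.comp (algebraMap (𝓞 K) K), σ.injective.comp RingOfIntegers.coe_injective,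
    fun x => ?_, fun x => ?_⟩⟩
  · rw [RingHom.comp_apply, ← h1, ← Algebra.coe_norm_int]; simp
  · rw [RingHom.comp_apply, ← h3, ← Algebra.coe_trace_int]; simp

namespace Sig

variable (S : Sig K)

lemma norm_nonneg (S : Sig K) (x : 𝓞 K) : 0 ≤ Algebra.norm ℤ x := by
  have h := S.norm x
  rw [Complex.mul_conj] at h
  have h1 : ((Algebra.norm ℤ x : ℤ) : ℝ) = Complex.normSq (S.s x) := by exact_mod_cast h
  have h2 : (0 : ℝ) ≤ (Algebra.norm ℤ x : ℤ) := by rw [h1]; exact Complex.normSq_nonneg _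
  exact_mod_cast h2

lemma absNorm_int (S : Sig K) (x : 𝓞 K) :
    ((Ideal.absNorm (Ideal.span {x}) : ℕ) : ℤ) = Algebra.norm ℤ x := by
  rw [Ideal.absNorm_span_singleton]
  exact Int.natAbs_of_nonneg (S.norm_nonneg x)

lemma absNorm (x : 𝓞 K) : ((Ideal.absNorm (Ideal.span {x}) : ℕ) : ℂ) =
    S.s x * starRingEnd ℂ (S.s x) := by
  rw [← S.norm, ← S.absNorm_int, Int.cast_natCast]

/-- Cayley-Hamilton -/
lemma sq_eq (S : Sig K) (x : 𝓞 K) :
    x * x = (Algebra.trace ℤ (𝓞 K) x : 𝓞 K) * x - (Algebra.norm ℤ x : 𝓞 K) := by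
  apply S.inj
  rw [map_mul, map_sub, map_mul, map_intCast, map_intCast, S.norm, S.trace]
  ring

/-- conjugate -/
def bar (x : 𝓞 K) : 𝓞 K := (Algebra.trace ℤ (𝓞 K) x : 𝓞 K) - x

lemma mul_bar (S : Sig K) (x : 𝓞 K) : x * bar x = (Algebra.norm ℤ x : 𝓞 K) := by
  rw [bar, mul_sub, S.sq_eq]; ring

lemma s_bar (x : 𝓞 K) : S.s (bar x) = starRingEnd ℂ (S.s x) := by
  rw [bar, map_sub, map_intCast, S.trace]; ring

lemma trace_bar (S : Sig K) (x : 𝓞 K) :
    Algebra.trace ℤ (𝓞 K) (bar x) = Algebra.trace ℤ (𝓞 K) x := by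
  have h := S.trace (bar x)
  rw [s_bar, Complex.conj_conj, add_comm, ← S.trace] at h
  exact_mod_cast h

/-- the determinant of two elements -/
def dt (x y : 𝓞 K) : ℂ := S.s x * starRingEnd ℂ (S.s y) - starRingEnd ℂ (S.s x) * S.s y

lemma dt_basis (b : Basis (Fin 2) ℤ (𝓞 K)) : S.dt (b 0) (b 1) ^ 2 = discr K := by
  have h1 := NumberField.discr_eq_discr K b
  rw [Algebra.discr_def, Matrix.det_fin_two] at h1
  simp only [Algebra.traceMatrix_apply, Algebra.traceForm_apply] at h1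
  rw [← h1]
  push_cast
  rw [S.trace, S.trace, S.trace, S.trace, dt]
  simp only [map_mul]
  ring

lemma dt_ideal (b : Basis (Fin 2) ℤ (𝓞 K)) (I : Ideal (𝓞 K)) (c : Basis (Fin 2) ℤ I) :
    S.dt (c 0 : 𝓞 K) (c 1 : 𝓞 K) ^ 2 = (Ideal.absNorm I : ℂ) ^ 2 * discr K := by
  have h1 := Ideal.natAbs_det_basis_change b I c
  rw [Basis.det_apply, Matrix.det_fin_two] at h1
  simp only [Basis.toMatrix_apply, Function.comp_apply] at h1
  have e : ∀ i, (c i : 𝓞 K) = ((b.repr (c i : 𝓞 K) 0 : ℤ) : 𝓞 K) * b 0 +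
      ((b.repr (c i : 𝓞 K) 1 : ℤ) : 𝓞 K) * b 1 := by
    intro i
    have := b.sum_repr (c i : 𝓞 K)
    rw [Fin.sum_univ_two, zsmul_eq_mul, zsmul_eq_mul] at this
    exact this.symm
  have e0 := congrArg S.s (e 0)
  have e1 := congrArg S.s (e 1)
  rw [map_add, map_mul, map_mul, map_intCast, map_intCast] at e0 e1
  generalize b.repr (c 0 : 𝓞 K) 0 = p00 at h1 e0
  generalize b.repr (c 0 : 𝓞 K) 1 = p10 at h1 e0
  generalize b.repr (c 1 : 𝓞 K) 0 = p01 at h1 e1
  generalize b.repr (c 1 : 𝓞 K) 1 = p11 at h1 e1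
  have h2 : ((Ideal.absNorm I : ℕ) : ℤ) ^ 2 = (p00 * p11 - p01 * p10) ^ 2 := by
    rw [← h1, Int.natCast_natAbs, sq_abs]
  have h3 : (Ideal.absNorm I : ℂ) ^ 2 = ((p00 : ℂ) * p11 - p01 * p10) ^ 2 := by exact_mod_cast h2
  rw [h3, ← S.dt_basis b, dt, dt, e0, e1]
  simp only [map_add, map_mul, map_intCast]
  ring

end Sig

end

end Vale.Agent.P022.H390
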