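import Vale.Agent.P022.H390.NF1
import Vale.Agent.P022.H390.Cont

/-!
# P022: the quadratic form attached to an ideal of an imaginary quadratic field
-/

namespace Vale.Agent.P022.H390

open NumberField Module

noncomputable section

variable {K : Type*} [Field K] [NumberField K]

lemma exists_basis_O (h2 : finrank ℚ K = 2) : Nonempty (Basis (Fin 2) ℤ (𝓞 K)) :=
  ⟨Module.finBasisOfFinrankEq ℤ (𝓞 K) (by rw [RingOfIntegers.rank]; exact h2)⟩

lemma exists_basis_I (h2 : finrank ℚ K = 2) {I : Ideal (𝓞 K)} (hI : I ≠ ⊥) :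
    Nonempty (Basis (Fin 2) ℤ I) := by
  obtain ⟨b⟩ := exists_basis_O h2
  have h3 : Module.finrank ℤ I = 2 := by
    have := Ideal.finrank_eq_finrank b I hI
    rw [RingOfIntegers.rank, h2] at this
    exact this
  exact ⟨Module.finBasisOfFinrankEq ℤ I h3⟩

/-- an imaginary quadratic field together with an ideal and bases -/
structure ID (K : Type*) [Field K] [NumberField K] extends Sig K where
  hd : discr K < 0
  /-- basis of the ring of integers -/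
  b : Basis (Fin 2) ℤ (𝓞 K)
  /-- the ideal -/
  J : Ideal (𝓞 K)
  hJ : J ≠ ⊥
  /-- basis of the ideal -/
  c : Basis (Fin 2) ℤ J

namespace ID

variable (T : ID K)

/-- norm of the ideal -/
def n : ℕ := Ideal.absNorm T.J

lemma n_ne : T.n ≠ 0 := by rw [n, ne_eq, Ideal.absNorm_eq_zero_iff]; exact T.hJ

/-- first basis element -/
def c0 : 𝓞 K := T.c 0
/-- second basis element -/
def c1 : 𝓞 K := T.c 1

lemma c0_mem : T.c0 ∈ T.J := (T.c 0).2
lemma c1_mem : T.c1 ∈ T.J := (T.c 1).2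

/-- normalized norm -/
def fn (x : 𝓞 K) : ℕ := Ideal.absNorm (Ideal.span {x}) / T.n

lemma fn_eq {x : 𝓞 K} (hx : x ∈ T.J) : T.n * T.fn x = Ideal.absNorm (Ideal.span {x}) :=
  Nat.mul_div_cancel' (Ideal.absNorm_dvd_absNorm_of_le
    ((Ideal.span_singleton_le_iff_mem _).2 hx))

lemma fn_eqC {x : 𝓞 K} (hx : x ∈ T.J) : (T.n : ℂ) * T.fn x = T.s x * starRingEnd ℂ (T.s x) := by
  rw [← T.absNorm, ← T.fn_eq hx]; push_cast; ring

/-- the integer `B` -/
def Bz : ℤ := T.fn (T.c0 + T.c1) - T.fn T.c0 - T.fn T.c1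

lemma Bz_eq : (T.n : ℂ) * T.Bz = T.s T.c0 * starRingEnd ℂ (T.s T.c1) +
    starRingEnd ℂ (T.s T.c0) * T.s T.c1 := by
  have h1 := T.fn_eqC T.c0_mem
  have h2 := T.fn_eqC T.c1_mem
  have h3 := T.fn_eqC (add_mem T.c0_mem T.c1_mem)
  rw [map_add, map_add] at h3
  rw [Bz]; push_cast
  linear_combination h3 - h1 - h2

lemma disc_eq : 4 * (T.fn T.c0 : ℤ) * (T.fn T.c1 : ℤ) - T.Bz ^ 2 = -discr K := by
  have h1 := T.fn_eqC T.c0_mem
  have h2 := T.fn_eqC T.c1_mem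
  have h3 := T.Bz_eq
  have h4 : T.dt T.c0 T.c1 ^ 2 = (T.n : ℂ) ^ 2 * discr K := T.dt_ideal T.b T.J T.c
  have hn : (T.n : ℂ) ≠ 0 := by exact_mod_cast T.n_ne
  have h5 : (T.n : ℂ) ^ 2 * (4 * (T.fn T.c0 : ℂ) * (T.fn T.c1 : ℂ) - T.Bz ^ 2) =
      (T.n : ℂ) ^ 2 * (-discr K) := by
    rw [mul_neg, ← h4, Sig.dt]
    have e : (T.n : ℂ) ^ 2 * (4 * (T.fn T.c0 : ℂ) * (T.fn T.c1 : ℂ) - T.Bz ^ 2) =
        4 * (T.n * T.fn T.c0) * (T.n * T.fn T.c1) - (T.n * T.Bz) ^ 2 := by ring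
    rw [e, h1, h2, h3]; ring
  have h6 := mul_left_cancel₀ (pow_ne_zero 2 hn) h5
  exact_mod_cast h6

lemma c0_ne : T.c0 ≠ 0 := by
  intro h
  have := T.c.ne_zero 0
  apply this
  exact Subtype.ext h

/-- minus the discriminant -/
def Dc (_ : ID K) : ℂ := -(discr K : ℂ)

lemma Dc_ne : T.Dc ≠ 0 := by
  rw [Dc, ne_eq, neg_eq_zero]; exact_mod_cast T.hd.ne

lemma Dc_eq : T.Dc = 4 * (T.fn T.c0 : ℂ) * (T.fn T.c1 : ℂ) - T.Bz ^ 2 := by
  rw [Dc]; exact_mod_cast congrArg (fun x : ℤ => (x : ℂ)) T.disc_eq.symm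

/-- the form -/
def qd : QD where
  A := T.fn T.c0
  B := T.Bz
  C := T.fn T.c1
  m1 := (2 * T.fn T.c1 * T.s T.c0 - T.Bz * T.s T.c1) / T.Dc
  m2 := (2 * T.fn T.c0 * T.s T.c1 - T.Bz * T.s T.c0) / T.Dc
  hA := by
    have h1 : T.fn T.c0 ≠ 0 := by
      intro h0
      have h2 := T.fn_eqC T.c0_mem
      rw [h0, Nat.cast_zero, mul_zero, Complex.mul_conj] at h2
      have h3 : Complex.normSq (T.s T.c0) = 0 := by exact_mod_cast h2.symm
      rw [Complex.normSq_eq_zero] at h3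
      exact T.c0_ne ((map_eq_zero_iff _ T.inj).1 h3)
    exact_mod_cast Nat.pos_of_ne_zero h1
  hD := by
    have := T.disc_eq
    have h2 := T.hd
    push_cast at this ⊢
    rw [this]; linarith
  hm := by
    have h1 := T.fn_eqC T.c0_mem
    have h2 := T.fn_eqC T.c1_mem
    have h3 := T.Bz_eq
    have h4 := T.Dc_eq
    have hD := T.Dc_ne
    have hn : (T.n : ℂ) ≠ 0 := by exact_mod_cast T.n_ne
    have key : (T.fn T.c1 : ℂ) * T.s T.c0 ^ 2 - T.Bz * T.s T.c0 * T.s T.c1 +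
        T.fn T.c0 * T.s T.c1 ^ 2 = 0 := by
      apply mul_left_cancel₀ hn
      linear_combination (T.s T.c0 ^ 2) * h2 - (T.s T.c0 * T.s T.c1) * h3 + (T.s T.c1 ^ 2) * h1
    rw [Qc]
    push_cast
    field_simp
    rw [h4]
    linear_combination (4 * (T.fn T.c0 : ℂ) * (T.fn T.c1 : ℂ) - T.Bz ^ 2) * key

lemma qd_D : (T.qd.D : ℤ) = -discr K := by
  rw [T.qd.D_eq]; exact T.disc_eq

lemma qd_D' : T.qd.D = (discr K).natAbs := by
  have := T.qd_D
  have := T.hd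
  omega

/-- the element with coordinates `v` -/
def X (v : ℤ × ℤ) : 𝓞 K := (v.1 : 𝓞 K) * T.c0 + (v.2 : 𝓞 K) * T.c1

lemma X_mem (v : ℤ × ℤ) : T.X v ∈ T.J :=
  add_mem (T.J.mul_mem_left _ T.c0_mem) (T.J.mul_mem_left _ T.c1_mem)

lemma lam_eq (v : ℤ × ℤ) : T.qd.lam v = T.s (T.X v) := by
  have hD := T.Dc_ne
  have h4 := T.Dc_eq
  rw [X, map_add, map_mul, map_mul, map_intCast, map_intCast]
  simp only [QD.lam, qd]
  push_cast
  field_simp
  rw [h4]
  ring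

lemma Q_eq (v : ℤ × ℤ) : (T.n : ℂ) * T.qd.Q v = T.s (T.X v) * starRingEnd ℂ (T.s (T.X v)) := by
  have h1 := T.fn_eqC T.c0_mem
  have h2 := T.fn_eqC T.c1_mem
  have h3 := T.Bz_eq
  rw [X, map_add, map_mul, map_mul, map_intCast, map_intCast, map_add, map_mul, map_mul,
    map_intCast, map_intCast]
  simp only [QD.Q, qd]
  push_cast
  linear_combination (v.1 : ℂ) ^ 2 * h1 + (v.2 : ℂ) ^ 2 * h2 + (v.1 : ℂ) * v.2 * h3

lemma Qn_eq (v : ℤ × ℤ) : T.n * T.qd.Qn v = Ideal.absNorm (Ideal.span {T.X v}) := by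
  have h1 := T.Q_eq v
  rw [← T.absNorm, ← T.qd.Qn_eq] at h1
  exact_mod_cast h1

/-- the relation `λ \bar λ = N(J) Q` -/
def lc : QD.LC T.qd where
  n := T.n
  hn := by exact_mod_cast T.n_ne
  rel v := by rw [T.lam_eq, T.Q_eq]

lemma X_bij : Function.Bijective (fun v : ℤ × ℤ => (⟨T.X v, T.X_mem v⟩ : T.J)) := by
  constructor
  · intro v w h
    have h1 : T.X v = T.X w := congrArg Subtype.val h
    have h2 : T.qd.lam v = T.qd.lam w := by rw [T.lam_eq, T.lam_eq, h1]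
    have h3 : v.1 • T.c 0 + v.2 • T.c 1 = w.1 • T.c 0 + w.2 • T.c 1 := by
      apply Subtype.ext
      simpa [X, c0, c1] using h1
    have h4 := congrArg T.c.repr h3
    have e0 := congrArg (fun f => f 0) h4
    have e1 := congrArg (fun f => f 1) h4
    simp at e0 e1
    exact Prod.ext e0 e1
  · intro x
    refine ⟨(T.c.repr x 0, T.c.repr x 1), ?_⟩
    apply Subtype.ext
    have h1 := T.c.sum_repr x
    rw [Fin.sum_univ_two] at h1
    have h2 := congrArg Subtype.val h1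
    simpa [X, c0, c1] using h2

lemma X_add (v w : ℤ × ℤ) (k : ℤ) :
    T.X (v.1 + k * w.1, v.2 + k * w.2) = T.X v + k * T.X w := by
  simp only [X]; push_cast; ring

lemma X_smul (k : ℤ) (v : ℤ × ℤ) : T.X (k * v.1, k * v.2) = k * T.X v := by
  simp only [X]; push_cast; ring

end ID

lemma exists_ID (h2 : finrank ℚ K = 2) (hd : discr K < 0) {I : Ideal (𝓞 K)} (hI : I ≠ ⊥) :
    ∃ T : ID K, T.J = I := by
  obtain ⟨S⟩ := exists_Sig h2 hd
  obtain ⟨b⟩ := exists_basis_O h2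
  obtain ⟨c⟩ := exists_basis_I h2 hI
  exact ⟨{ S with hd := hd, b := b, J := I, hJ := hI, c := c }, rfl⟩

end

end Vale.Agent.P022.H390
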