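import Vale.Agent.P022.H390.NF2

/-!
# P022: 2-adic characters of ideals; the theta families attached to ideals
-/

namespace Vale.Agent.P022.H390

open NumberField Module
open scoped NumberTheorySymbols nonZeroDivisors

noncomputable section

variable {K : Type*} [Field K] [NumberField K] {𝔣 : Ideal (𝓞 K)}

/-- A character of ideals with values in `L`. -/
structure LChar (K : Type*) [Field K] [NumberField K] (𝔣 : Ideal (𝓞 K)) where
  /-- the function -/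
  p : Ideal (𝓞 K) → L
  one : p 1 = 1
  mul : ∀ 𝔞 𝔟, p (𝔞 * 𝔟) = p 𝔞 * p 𝔟
  norm : ∀ 𝔞, IsCoprime 𝔞 (Ideal.span {2} * 𝔣) → ‖p 𝔞‖ = 1
  zero : ∀ 𝔞, ¬ IsCoprime 𝔞 (Ideal.span {2} * 𝔣) → p 𝔞 = 0
  cont : ∀ m : ℕ, ∃ s : ℕ, ∀ x : 𝓞 K, x - 1 ∈ Ideal.span {2} ^ s * 𝔣 →
    ‖p (Ideal.span {x}) - 1‖ ≤ (1 / 2) ^ m

namespace LChar

variable (ψ : LChar K 𝔣)

lemma norm_le (𝔞 : Ideal (𝓞 K)) : ‖ψ.p 𝔞‖ ≤ 1 := by
  by_cases h : IsCoprime 𝔞 (Ideal.span {2} * 𝔣)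
  · exact (ψ.norm 𝔞 h).le
  · rw [ψ.zero 𝔞 h, norm_zero]; exact zero_le_one

lemma ne_zero {𝔞 : Ideal (𝓞 K)} (h : IsCoprime 𝔞 (Ideal.span {2} * 𝔣)) : ψ.p 𝔞 ≠ 0 := by
  intro h0
  have := ψ.norm 𝔞 h
  rw [h0, norm_zero] at this
  exact zero_ne_one this

lemma two_not_top : ¬ IsCoprime (⊥ : Ideal (𝓞 K)) (Ideal.span {2} * 𝔣) := by
  intro h
  rw [Ideal.isCoprime_iff_sup_eq, bot_sup_eq] at h
  have h1 : Ideal.absNorm (Ideal.span {(2 : 𝓞 K)}) * Ideal.absNorm 𝔣 = 1 := by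
    rw [← map_mul, h, Ideal.absNorm_top]
  have h2 := Nat.eq_one_of_mul_eq_one_right h1
  rw [Ideal.absNorm_span_singleton] at h2
  have h3 : (Algebra.norm ℤ (2 : 𝓞 K)) = 2 ^ finrank ℤ (𝓞 K) := by
    have := Algebra.norm_algebraMap (R := ℤ) (S := 𝓞 K) (2 : ℤ)
    simpa using this
  rw [h3, Int.natAbs_pow] at h2
  have h5 : 0 < finrank ℤ (𝓞 K) := by rw [RingOfIntegers.rank]; exact finrank_pos
  have h6 : 1 < (Int.natAbs 2) ^ finrank ℤ (𝓞 K) := Nat.one_lt_pow h5.ne' (by decide)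
  omega

lemma p_bot : ψ.p ⊥ = 0 := ψ.zero _ two_not_top

end LChar

/-- coprimality of principal ideals -/
lemma coprime_span_iff {x : 𝓞 K} {I : Ideal (𝓞 K)} :
    IsCoprime (Ideal.span {x}) I ↔ ∃ y, x * y - 1 ∈ I := by
  rw [Ideal.isCoprime_iff_exists]
  constructor
  · rintro ⟨a, ha, b, hb, hab⟩
    obtain ⟨y, rfl⟩ := Ideal.mem_span_singleton'.1 ha
    refine ⟨y, ?_⟩
    have : x * y - 1 = -b := by rw [← hab]; ring
    rw [this]; exact I.neg_mem hb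
  · rintro ⟨y, hy⟩
    refine ⟨x * y, Ideal.mem_span_singleton'.2 ⟨y, mul_comm _ _⟩, -(x * y - 1), I.neg_mem hy, by ring⟩

lemma coprime_pow {𝔞 : Ideal (𝓞 K)} (h : IsCoprime 𝔞 (Ideal.span {2} * 𝔣)) (s : ℕ) :
    IsCoprime 𝔞 (Ideal.span {2} ^ s * 𝔣) :=
  (h.of_mul_right_left.pow_right).mul_right h.of_mul_right_right

lemma pow_le_two {s : ℕ} (hs : 1 ≤ s) : Ideal.span {(2 : 𝓞 K)} ^ s * 𝔣 ≤ Ideal.span {2} * 𝔣 := by
  apply Ideal.mul_mono_left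
  calc Ideal.span {(2 : 𝓞 K)} ^ s ≤ Ideal.span {(2 : 𝓞 K)} ^ 1 := Ideal.pow_le_pow_right hs
    _ = _ := pow_one _

namespace ID

variable (T : ID K) (ψ : LChar K 𝔣)

/-- the function on `ℤ²` -/
def g (v : ℤ × ℤ) : L := (ψ.p T.J)⁻¹ * ψ.p (Ideal.span {T.X v})

lemma g_cont (hJ : IsCoprime T.J (Ideal.span {2} * 𝔣)) (m : ℕ) : ∃ s : ℕ, ∀ v w : ℤ × ℤ,
      ‖T.g ψ (v.1 + ((2 ^ s * Ideal.absNorm 𝔣 : ℕ) : ℤ) * w.1,
        v.2 + ((2 ^ s * Ideal.absNorm 𝔣 : ℕ) : ℤ) * w.2) - T.g ψ v‖ ≤ (1 / 2) ^ m := by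
  obtain ⟨s0, hs0⟩ := ψ.cont (m + 1)
  set s := s0 + 1 with hs
  have hcont : ∀ x : 𝓞 K, x - 1 ∈ Ideal.span {2} ^ s * 𝔣 →
      ‖ψ.p (Ideal.span {x}) - 1‖ ≤ (1 / 2) ^ (m + 1) := by
    intro x hx
    apply hs0
    exact Ideal.mul_mono_left (Ideal.pow_le_pow_right (by omega)) hx
  refine ⟨s, fun v w => ?_⟩
  rw [g, g, ← mul_sub, norm_mul, norm_inv, ψ.norm _ hJ, inv_one, one_mul, X_add]
  set x := T.X v with hx
  set x' := x + (((2 ^ s * Ideal.absNorm 𝔣 : ℕ) : ℤ) : 𝓞 K) * T.X w with hx'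
  have hmem : x' - x ∈ Ideal.span {(2 : 𝓞 K)} ^ s * 𝔣 := by
    have : x' - x = (2 ^ s * (Ideal.absNorm 𝔣 : 𝓞 K)) * T.X w := by
      rw [hx']; push_cast; ring
    rw [this]
    apply Ideal.mul_mem_right
    apply Ideal.mul_mem_mul
    · exact Ideal.pow_mem_pow (Ideal.mem_span_singleton_self _) s
    · exact Ideal.absNorm_mem 𝔣
  have hmem2 : x' - x ∈ Ideal.span {(2 : 𝓞 K)} * 𝔣 := pow_le_two (by omega) hmem
  by_cases hc : IsCoprime (Ideal.span {x}) (Ideal.span {2} * 𝔣)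
  · obtain ⟨y, hy⟩ := coprime_span_iff.1 (coprime_pow hc s)
    have hy' : x' * y - 1 ∈ Ideal.span {2} ^ s * 𝔣 := by
      have : x' * y - 1 = (x * y - 1) + (x' - x) * y := by ring
      rw [this]
      exact add_mem hy (Ideal.mul_mem_right _ _ hmem)
    have h1 := hcont _ hy
    have h2 := hcont _ hy'
    rw [← Ideal.span_singleton_mul_span_singleton, ψ.mul] at h1 h2
    have h3 : ψ.p (Ideal.span {y}) ≠ 0 := by
      intro h0
      rw [h0, mul_zero, zero_sub, norm_neg, norm_one, pow_succ] at h1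
      have : (1 / 2 : ℝ) ^ m ≤ 1 := pow_le_one₀ (by norm_num) (by norm_num)
      linarith
    have h4 : ‖ψ.p (Ideal.span {y})‖ = 1 := by
      apply ψ.norm
      by_contra h5
      exact h3 (ψ.zero _ h5)
    have h5 : (ψ.p (Ideal.span {x'}) - ψ.p (Ideal.span {x})) * ψ.p (Ideal.span {y}) =
        (ψ.p (Ideal.span {x'}) * ψ.p (Ideal.span {y}) - 1) -
        (ψ.p (Ideal.span {x}) * ψ.p (Ideal.span {y}) - 1) := by ring
    have h6 : ‖ψ.p (Ideal.span {x'}) - ψ.p (Ideal.span {x})‖ =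
        ‖(ψ.p (Ideal.span {x'}) - ψ.p (Ideal.span {x})) * ψ.p (Ideal.span {y})‖ := by
      rw [norm_mul, h4, mul_one]
    rw [h6, h5]
    refine (norm_sub_le_max _ _).trans (max_le ?_ ?_)
    · exact h2.trans (pow_le_pow_of_le_one (by norm_num) (by norm_num) (by omega))
    · exact h1.trans (pow_le_pow_of_le_one (by norm_num) (by norm_num) (by omega))
  · have hc' : ¬ IsCoprime (Ideal.span {x'}) (Ideal.span {2} * 𝔣) := by
      intro h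
      apply hc
      obtain ⟨y, hy⟩ := coprime_span_iff.1 h
      refine coprime_span_iff.2 ⟨y, ?_⟩
      have : x * y - 1 = (x' * y - 1) - (x' - x) * y := by ring
      rw [this]
      exact sub_mem hy (Ideal.mul_mem_right _ _ hmem2)
    rw [ψ.zero _ hc, ψ.zero _ hc', sub_zero, norm_zero]
    positivity

/-- **the family attached to an ideal is a 2-adic modular form** -/
theorem WF_mem (hf : 𝔣 ≠ ⊥) (hf2 : Nat.Coprime (Ideal.absNorm 𝔣) 2) (hodd : Odd (discr K))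
    (hJ : IsCoprime T.J (Ideal.span {2} * 𝔣)) {N : ℕ} [NeZero N]
    (hN : ((discr K).natAbs * Ideal.absNorm 𝔣) ^ 2 ∣ N) : T.qd.WF (T.g ψ) ∈ V N := by
  haveI : NeZero (Ideal.absNorm 𝔣) := ⟨by rw [ne_eq, Ideal.absNorm_eq_zero_iff]; exact hf⟩
  refine QD.cont_mem T.lc hf2 ?_ ?_ (fun m => g_cont T ψ hJ m)
  · rw [T.qd_D']
    exact Int.natAbs_odd.2 hodd
  · rw [T.qd_D']; exact hN

end ID

end

end Vale.Agent.P022.H390
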