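import Vale.Agent.P022.H390.NF3

/-!
# P022: the theta family of a 2-adic character of ideals
-/

namespace Vale.Agent.P022.H390

open NumberField Module
open scoped NumberTheorySymbols nonZeroDivisors

noncomputable section

variable {K : Type*} [Field K] [NumberField K] {𝔣 : Ideal (𝓞 K)}

variable (K) in
/-- the ideals of norm `n` -/
def In (n : ℕ) : Finset (Ideal (𝓞 K)) := (Ideal.finite_setOfPred_absNorm_eq n).toFinset

lemma mem_In {n : ℕ} {𝔞 : Ideal (𝓞 K)} : 𝔞 ∈ In K n ↔ Ideal.absNorm 𝔞 = n := by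
  rw [In, Set.Finite.mem_toFinset]; rfl

/-- the coefficient `a_n = ∑_{N𝔞 = n} ψ(𝔞)` -/
def LChar.a (ψ : LChar K 𝔣) (n : ℕ) : L := ∑ 𝔞 ∈ In K n, ψ.p 𝔞

/-- the family `Φ(d)(n) = d χ(d) ψ((d)) a_n` -/
def LChar.Φ (ψ : LChar K 𝔣) : Fm := fun d n =>
  (d : L) * (J(d | (discr K).natAbs) : L) * ψ.p (Ideal.span {(d : 𝓞 K)}) * ψ.a n

/-- class of an ideal -/
def cl (𝔞 : Ideal (𝓞 K)) : ClassGroup (𝓞 K) :=
  if h : 𝔞 = ⊥ then 1 else ClassGroup.mk0 ⟨𝔞, mem_nonZeroDivisors_of_ne_zero h⟩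

lemma cl_mul {𝔞 𝔟 : Ideal (𝓞 K)} (ha : 𝔞 ≠ ⊥) (hb : 𝔟 ≠ ⊥) : cl (𝔞 * 𝔟) = cl 𝔞 * cl 𝔟 := by
  have hab : 𝔞 * 𝔟 ≠ ⊥ := mul_ne_zero ha hb
  rw [cl, cl, cl, dif_neg ha, dif_neg hb, dif_neg hab, ← map_mul]
  rfl

lemma cl_eq_one_iff {𝔞 : Ideal (𝓞 K)} (ha : 𝔞 ≠ ⊥) : cl 𝔞 = 1 ↔ ∃ x, 𝔞 = Ideal.span {x} := by
  rw [cl, dif_neg ha, ClassGroup.mk0_eq_one_iff]
  constructor
  · rintro ⟨x, hx⟩; exact ⟨x, hx⟩
  · rintro ⟨x, hx⟩; exact ⟨x, hx⟩

lemma cl_pow {𝔞 : Ideal (𝓞 K)} (ha : 𝔞 ≠ ⊥) (n : ℕ) : cl (𝔞 ^ n) = cl 𝔞 ^ n := by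
  induction n with
  | zero =>
    rw [pow_zero, pow_zero, cl_eq_one_iff (by rw [Ideal.one_eq_top]; exact top_ne_bot)]
    exact ⟨1, by rw [Ideal.span_singleton_one, Ideal.one_eq_top]⟩
  | succ n ih => rw [pow_succ, pow_succ, cl_mul (pow_ne_zero n ha) ha, ih]

namespace ID

variable (T : ID K) (ψ : LChar K 𝔣)

lemma Qn_eq_iff (v : ℤ × ℤ) (n : ℕ) : T.qd.Qn v = n ↔
    Ideal.absNorm (Ideal.span {T.X v}) = T.n * n := by
  rw [← T.Qn_eq]
  constructor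
  · rintro rfl; rfl
  · intro h; exact Nat.eq_of_mul_eq_mul_left (Nat.pos_of_ne_zero T.n_ne) h

/-- the integral ideal `(x_v) J⁻¹` -/
def quo (v : ℤ × ℤ) : Ideal (𝓞 K) :=
  Classical.choose (Ideal.dvd_iff_le.2 ((Ideal.span_singleton_le_iff_mem _).2 (T.X_mem v)))

lemma quo_spec (v : ℤ × ℤ) : Ideal.span {T.X v} = T.J * T.quo v :=
  Classical.choose_spec (Ideal.dvd_iff_le.2 ((Ideal.span_singleton_le_iff_mem _).2 (T.X_mem v)))

lemma quo_eq_iff (v : ℤ × ℤ) (𝔞 : Ideal (𝓞 K)) : T.quo v = 𝔞 ↔ Ideal.span {T.X v} = T.J * 𝔞 := by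
  rw [quo_spec]
  constructor
  · rintro rfl; rfl
  · intro h; exact mul_left_cancel₀ T.hJ h

lemma quo_mem {v : ℤ × ℤ} {n : ℕ} (hv : v ∈ T.qd.fib n) : T.quo v ∈ In K n := by
  rw [QD.mem_fib, Qn_eq_iff, quo_spec, map_mul] at hv
  rw [mem_In]
  exact Nat.eq_of_mul_eq_mul_left (Nat.pos_of_ne_zero T.n_ne) hv

/-- units act simply transitively on generators -/
lemma card_gen {x0 : 𝓞 K} (hx0 : x0 ≠ 0) (h0 : x0 ∈ T.J) :
    Nat.card {v : ℤ × ℤ // Ideal.span {T.X v} = Ideal.span {x0}} = Nat.card (𝓞 K)ˣ := by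
  symm
  apply Nat.card_congr
  choose e he using fun x : T.J => T.X_bij.2 x
  have he' : ∀ x : T.J, T.X (e x) = x := fun x => congrArg Subtype.val (he x)
  refine Equiv.ofBijective (fun u : (𝓞 K)ˣ =>
    ⟨e ⟨(u : 𝓞 K) * x0, T.J.mul_mem_left _ h0⟩, ?_⟩) ⟨?_, ?_⟩
  · rw [he']
    exact Ideal.span_singleton_mul_left_unit u.isUnit x0
  · intro u u' h
    have h1 := congrArg (fun w => T.X w.1) h
    simp only [he'] at h1
    exact Units.ext (mul_right_cancel₀ hx0 h1)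
  · rintro ⟨v, hv⟩
    rw [Ideal.span_singleton_eq_span_singleton] at hv
    obtain ⟨u, hu⟩ := hv.symm
    refine ⟨u, ?_⟩
    apply Subtype.ext
    apply (fun v w h => T.X_bij.1 (Subtype.ext h) : ∀ v w : ℤ × ℤ, T.X v = T.X w → v = w)
    dsimp only
    rw [he', ← hu]
    exact mul_comm _ _

lemma units_card_ne (T : ID K) : (Nat.card (𝓞 K)ˣ) ≠ 0 := by
  have h0 := T.c0_ne
  rw [← T.card_gen h0 T.c0_mem]
  haveI : Finite {v : ℤ × ℤ // Ideal.span {T.X v} = Ideal.span {T.c0}} := by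
    apply Set.Finite.subset (T.qd.fib_finite (T.fn T.c0))
    intro v hv
    change T.qd.Qn v = _
    rw [Qn_eq_iff, T.fn_eq T.c0_mem]
    exact congrArg Ideal.absNorm hv
  haveI : Nonempty {v : ℤ × ℤ // Ideal.span {T.X v} = Ideal.span {T.c0}} := by
    obtain ⟨v, hv⟩ := T.X_bij.2 ⟨T.c0, T.c0_mem⟩
    refine ⟨v, ?_⟩
    have : T.X v = T.c0 := congrArg Subtype.val hv
    rw [this]
  exact Nat.card_pos.ne'

open scoped Classical in
/-- the fibres of `v ↦ (x_v) J⁻¹` -/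
lemma card_fibre {n : ℕ} (hn : n ≠ 0) {𝔞 : Ideal (𝓞 K)} (h𝔞 : 𝔞 ∈ In K n) :
    ((T.qd.fib n).filter (fun v => T.quo v = 𝔞)).card =
      if cl 𝔞 = (cl T.J)⁻¹ then Nat.card (𝓞 K)ˣ else 0 := by
  rw [mem_In] at h𝔞
  have h𝔞0 : 𝔞 ≠ ⊥ := by
    rintro rfl
    rw [Ideal.absNorm_bot] at h𝔞
    exact hn h𝔞.symm
  have hmem : ∀ v, (v ∈ (T.qd.fib n).filter (fun v => T.quo v = 𝔞)) ↔
      Ideal.span {T.X v} = T.J * 𝔞 := by
    intro v
    rw [Finset.mem_filter, QD.mem_fib, Qn_eq_iff, quo_eq_iff]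
    constructor
    · exact fun h => h.2
    · intro h
      refine ⟨?_, h⟩
      rw [h, map_mul, h𝔞]; rfl
  split_ifs with hc
  · have h1 : cl (T.J * 𝔞) = 1 := by rw [cl_mul T.hJ h𝔞0, hc, mul_inv_cancel]
    obtain ⟨x0, hx0⟩ := (cl_eq_one_iff (mul_ne_zero T.hJ h𝔞0)).1 h1
    have hJa : T.J * 𝔞 ≠ ⊥ := mul_ne_zero T.hJ h𝔞0
    have hx0' : x0 ≠ 0 := by
      intro h0
      apply hJa
      rw [hx0, h0, Ideal.span_singleton_zero]
    have hx0J : x0 ∈ T.J := by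
      have h2 : x0 ∈ Ideal.span {x0} := Ideal.mem_span_singleton_self x0
      rw [← hx0] at h2
      exact (Ideal.mul_le_left : T.J * 𝔞 ≤ T.J) h2
    rw [← T.card_gen hx0' hx0J]
    symm
    apply Nat.subtype_card
    intro v
    rw [hmem, hx0]
  · rw [Finset.card_eq_zero, Finset.eq_empty_iff_forall_notMem]
    intro v hv
    rw [hmem] at hv
    apply hc
    have h1 : cl (T.J * 𝔞) = 1 := (cl_eq_one_iff (mul_ne_zero T.hJ h𝔞0)).2 ⟨_, hv.symm⟩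
    rw [cl_mul T.hJ h𝔞0] at h1
    exact eq_inv_of_mul_eq_one_right h1

lemma g_smul (hJ : IsCoprime T.J (Ideal.span {2} * 𝔣)) (d : ℕ) (v : ℤ × ℤ) :
    T.g ψ ((d : ℤ) * v.1, (d : ℤ) * v.2) = ψ.p (Ideal.span {(d : 𝓞 K)}) * ψ.p (T.quo v) := by
  have hne := ψ.ne_zero hJ
  rw [g, X_smul, Int.cast_natCast, ← Ideal.span_singleton_mul_span_singleton, ψ.mul, quo_spec,
    ψ.mul]
  field_simp

open scoped Classical in
lemma WF_eq (hJ : IsCoprime T.J (Ideal.span {2} * 𝔣)) (d n : ℕ) :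
    T.qd.WF (T.g ψ) d n = (d : L) * (J(d | (discr K).natAbs) : L) *
      ψ.p (Ideal.span {(d : 𝓞 K)}) * ((Nat.card (𝓞 K)ˣ : L) *
        ∑ 𝔞 ∈ In K n, if cl 𝔞 = (cl T.J)⁻¹ then ψ.p 𝔞 else 0) := by
  rw [QD.WF, T.qd_D']
  rw [Finset.sum_congr rfl fun v _ => T.g_smul ψ hJ d v, ← Finset.mul_sum]
  have key : ∑ v ∈ T.qd.fib n, ψ.p (T.quo v) = (Nat.card (𝓞 K)ˣ : L) *
        ∑ 𝔞 ∈ In K n, if cl 𝔞 = (cl T.J)⁻¹ then ψ.p 𝔞 else 0 := by
    by_cases hn : n = 0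
    · subst hn
      have h1 : ∀ v ∈ T.qd.fib 0, ψ.p (T.quo v) = 0 := by
        intro v hv
        have := T.quo_mem hv
        rw [mem_In, Ideal.absNorm_eq_zero_iff] at this
        rw [this, ψ.p_bot]
      have h2 : ∀ 𝔞 ∈ In K 0, (if cl 𝔞 = (cl T.J)⁻¹ then ψ.p 𝔞 else 0) = 0 := by
        intro 𝔞 h𝔞
        rw [mem_In, Ideal.absNorm_eq_zero_iff] at h𝔞
        rw [h𝔞, ψ.p_bot]; simp
      rw [Finset.sum_congr rfl h1, Finset.sum_congr rfl h2]; simp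
    · rw [← Finset.sum_fiberwise_of_maps_to (g := T.quo) (t := In K n) (fun v hv => T.quo_mem hv),
        Finset.mul_sum]
      refine Finset.sum_congr rfl fun 𝔞 h𝔞 => ?_
      have h3 : ∀ v ∈ (T.qd.fib n).filter (fun v => T.quo v = 𝔞), ψ.p (T.quo v) = ψ.p 𝔞 := by
        intro v hv
        rw [(Finset.mem_filter.1 hv).2]
      rw [Finset.sum_congr rfl h3, Finset.sum_const, T.card_fibre hn h𝔞, nsmul_eq_mul]
      split_ifs <;> simp
  rw [key]; ring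

end ID

/-- **the family of a 2-adic character is a 2-adic modular form** -/
theorem LChar.Φ_mem (ψ : LChar K 𝔣) (h2 : finrank ℚ K = 2) (hd : discr K < 0)
    (hodd : Odd (discr K)) (hf : 𝔣 ≠ ⊥) (hf2 : Nat.Coprime (Ideal.absNorm 𝔣) 2) {N : ℕ}
    [NeZero N] (hN : ((discr K).natAbs * Ideal.absNorm 𝔣) ^ 2 ∣ N) : ψ.Φ ∈ V N := by
  classical
  obtain ⟨T0, _⟩ := exists_ID h2 hd (I := (⊤ : Ideal (𝓞 K))) top_ne_bot
  set w : L := (Nat.card (𝓞 K)ˣ : L) with hw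
  have hw0 : w ≠ 0 := by
    rw [hw]; exact_mod_cast T0.units_card_ne
  set F : ClassGroup (𝓞 K) → Fm := fun C =>
    if h : ∃ T : ID K, IsCoprime T.J (Ideal.span {2} * 𝔣) ∧ cl T.J = C⁻¹ then
      w⁻¹ • ((Classical.choose h).qd.WF ((Classical.choose h).g ψ)) else 0 with hF
  have hFV : ∀ C, F C ∈ V N := by
    intro C
    rw [hF]; dsimp only
    split_ifs with h
    · exact Submodule.smul_mem _ _ (ID.WF_mem _ ψ hf hf2 hodd (Classical.choose_spec h).1 hN)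
    · exact zero_mem _
  have hFe : ∀ (C : ClassGroup (𝓞 K)) (d n : ℕ), F C d n =
      (d : L) * (J(d | (discr K).natAbs) : L) * ψ.p (Ideal.span {(d : 𝓞 K)}) *
        ∑ 𝔞 ∈ In K n, if cl 𝔞 = C then ψ.p 𝔞 else 0 := by
    intro C d n
    rw [hF]; dsimp only
    split_ifs with h
    · have h1 := Classical.choose_spec h
      rw [Pi.smul_apply, Pi.smul_apply, ID.WF_eq _ ψ h1.1, h1.2, inv_inv, smul_eq_mul, ← hw]
      field_simp
    · rw [Pi.zero_apply, Pi.zero_apply]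
      have h3 : ∀ 𝔞 ∈ In K n, (if cl 𝔞 = C then ψ.p 𝔞 else 0) = 0 := by
        intro 𝔞 _
        split_ifs with hc
        · by_contra hne
          apply h
          have hcop : IsCoprime 𝔞 (Ideal.span {2} * 𝔣) := by
            by_contra h4
            exact hne (ψ.zero _ h4)
          have h𝔞 : 𝔞 ≠ ⊥ := by
            rintro rfl
            exact hne ψ.p_bot
          obtain ⟨T, hT⟩ := exists_ID h2 hd
            (I := 𝔞 ^ (Fintype.card (ClassGroup (𝓞 K)) - 1)) (pow_ne_zero _ h𝔞)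
          refine ⟨T, ?_, ?_⟩
          · rw [hT]; exact hcop.pow_left
          · rw [hT, cl_pow h𝔞, hc]
            apply eq_inv_of_mul_eq_one_left
            rw [← pow_succ, Nat.sub_add_cancel Fintype.card_pos, pow_card_eq_one]
        · rfl
      rw [Finset.sum_congr rfl h3]; simp
  have hsum : ψ.Φ = ∑ C, F C := by
    funext d n
    rw [Finset.sum_apply, Finset.sum_apply]
    rw [Finset.sum_congr rfl fun C _ => hFe C d n, ← Finset.mul_sum, Finset.sum_comm, LChar.Φ,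
      LChar.a]
    congr 1
    refine Finset.sum_congr rfl fun 𝔞 _ => ?_
    rw [Finset.sum_ite_eq Finset.univ (cl 𝔞), if_pos (Finset.mem_univ _)]
  rw [hsum]
  exact sum_mem fun C _ => hFV C

end

end Vale.Agent.P022.H390
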