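import Vale.Agent.P022.H390.NF4

/-!
# P022: the Hecke relations
-/

namespace Vale.Agent.P022.H390

open NumberField Module
open scoped NumberTheorySymbols nonZeroDivisors

noncomputable section

variable {K : Type*} [Field K] [NumberField K] {𝔣 : Ideal (𝓞 K)}

namespace ID

variable (T : ID K)

lemma n_top (hT : T.J = ⊤) : T.n = 1 := by rw [n, hT, Ideal.absNorm_top]

lemma exists_X (hT : T.J = ⊤) (x : 𝓞 K) : ∃ v, T.X v = x := by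
  obtain ⟨v, hv⟩ := T.X_bij.2 ⟨x, by rw [hT]; trivial⟩
  exact ⟨v, congrArg Subtype.val hv⟩

lemma X_inj {v w : ℤ × ℤ} (h : T.X v = T.X w) : v = w := T.X_bij.1 (Subtype.ext h)

lemma mem_span_iff (hT : T.J = ⊤) (ℓ : ℤ) (v : ℤ × ℤ) :
    T.X v ∈ Ideal.span {(ℓ : 𝓞 K)} ↔ ℓ ∣ v.1 ∧ ℓ ∣ v.2 := by
  constructor
  · intro h
    obtain ⟨y, hy⟩ := Ideal.mem_span_singleton'.1 h
    obtain ⟨w, rfl⟩ := T.exists_X hT y
    have h1 : T.X (ℓ * w.1, ℓ * w.2) = T.X v := by rw [X_smul, ← hy, mul_comm]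
    have h2 := T.X_inj h1
    exact ⟨⟨w.1, (congrArg Prod.fst h2).symm⟩, ⟨w.2, (congrArg Prod.snd h2).symm⟩⟩
  · rintro ⟨⟨a, ha⟩, ⟨b, hb⟩⟩
    have : T.X v = ℓ * T.X (a, b) := by
      rw [← X_smul]
      exact congrArg T.X (Prod.ext ha hb)
    rw [this]
    exact Ideal.mul_mem_right _ _ (Ideal.mem_span_singleton_self _)

lemma norm_X (hT : T.J = ⊤) (v : ℤ × ℤ) : Algebra.norm ℤ (T.X v) = T.qd.Q v := by
  rw [← T.absNorm_int, ← T.qd.Qn_eq, ← T.Qn_eq, T.n_top hT, one_mul]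

lemma trace_X (hT : T.J = ⊤) (v w : ℤ × ℤ) :
    Algebra.trace ℤ (𝓞 K) (T.X v * Sig.bar (T.X w)) = T.qd.bb v w := by
  have h1 := T.trace (T.X v * Sig.bar (T.X w))
  rw [map_mul T.s, T.s_bar, map_mul (starRingEnd ℂ), Complex.conj_conj] at h1
  have hQ : ∀ u, (T.qd.Q u : ℂ) = T.s (T.X u) * starRingEnd ℂ (T.s (T.X u)) := by
    intro u
    rw [← T.Q_eq, T.n_top hT, Nat.cast_one, one_mul]
  have h2 : (T.qd.bb v w : ℂ) = T.qd.Q (v.1 + w.1, v.2 + w.2) - T.qd.Q v - T.qd.Q w := by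
    have : T.qd.bb v w = T.qd.Q (v.1 + w.1, v.2 + w.2) - T.qd.Q v - T.qd.Q w := by
      simp only [QD.bb, QD.Q]; ring
    rw [this]; push_cast; ring
  have h3 : T.X (v.1 + w.1, v.2 + w.2) = T.X v + T.X w := by
    simp only [X]; push_cast; ring
  rw [hQ, hQ, hQ, h3, map_add, map_add] at h2
  have h4 : ((Algebra.trace ℤ (𝓞 K) (T.X v * Sig.bar (T.X w)) : ℤ) : ℂ) = T.qd.bb v w := by
    rw [h1, h2]; ring
  exact_mod_cast h4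

end ID

lemma absNorm_span_nat (h2 : finrank ℚ K = 2) (m : ℕ) :
    Ideal.absNorm (Ideal.span {(m : 𝓞 K)}) = m ^ 2 := by
  rw [Ideal.absNorm_span_singleton]
  have h3 : (Algebra.norm ℤ (m : 𝓞 K)) = m ^ finrank ℤ (𝓞 K) := by
    have := Algebra.norm_algebraMap (R := ℤ) (S := 𝓞 K) (m : ℤ)
    simpa using this
  rw [h3, RingOfIntegers.rank, h2, Int.natAbs_pow, Int.natAbs_natCast]

variable {ℓ : ℕ}

/-- ideals of norm `ℓ` contain `ℓ` -/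
lemma mem_of_norm {𝔭 : Ideal (𝓞 K)} (h : Ideal.absNorm 𝔭 = ℓ) : (ℓ : 𝓞 K) ∈ 𝔭 := by
  have := Ideal.absNorm_mem 𝔭
  rwa [h] at this

lemma dvd_of_norm {𝔭 : Ideal (𝓞 K)} (h : Ideal.absNorm 𝔭 = ℓ) : 𝔭 ∣ Ideal.span {(ℓ : 𝓞 K)} :=
  Ideal.dvd_iff_le.2 ((Ideal.span_singleton_le_iff_mem _).2 (mem_of_norm h))

lemma eq_of_dvd_norm {𝔭 𝔮 : Ideal (𝓞 K)} (h : 𝔭 ∣ 𝔮) (hq : 𝔮 ≠ ⊥)
    (hn : Ideal.absNorm 𝔭 = Ideal.absNorm 𝔮) : 𝔭 = 𝔮 := by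
  obtain ⟨𝔯, rfl⟩ := h
  rw [map_mul] at hn
  have hp0 : Ideal.absNorm 𝔭 ≠ 0 := by
    rw [ne_eq, Ideal.absNorm_eq_zero_iff]
    rintro rfl
    exact hq (by rw [← Ideal.zero_eq_bot, zero_mul])
  have h1 : Ideal.absNorm 𝔯 = 1 := by
    have : Ideal.absNorm 𝔭 * 1 = Ideal.absNorm 𝔭 * Ideal.absNorm 𝔯 := by rw [mul_one]; exact hn
    exact (Nat.eq_of_mul_eq_mul_left (Nat.pos_of_ne_zero hp0) this).symm
  rw [Ideal.absNorm_eq_one_iff] at h1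
  rw [h1, ← Ideal.one_eq_top, mul_one]

lemma span_ne (hℓ : ℓ.Prime) : Ideal.span {(ℓ : 𝓞 K)} ≠ ⊥ := by
  rw [ne_eq, Ideal.span_singleton_eq_bot]
  exact_mod_cast hℓ.ne_zero

lemma not_span_le (h2 : finrank ℚ K = 2) (hℓ : ℓ.Prime) {𝔭 : Ideal (𝓞 K)}
    (h : Ideal.absNorm 𝔭 = ℓ) : ∃ x ∈ 𝔭, x ∉ Ideal.span {(ℓ : 𝓞 K)} := by
  by_contra hcon
  push Not at hcon
  have h1 : 𝔭 = Ideal.span {(ℓ : 𝓞 K)} :=
    le_antisymm hcon ((Ideal.span_singleton_le_iff_mem _).2 (mem_of_norm h))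
  rw [h1, absNorm_span_nat h2] at h
  have : ℓ ^ 2 = ℓ ^ 1 := by rw [h, pow_one]
  have := Nat.pow_right_injective hℓ.two_le this
  omega

lemma dvd_Q {T : ID K} (hT : T.J = ⊤) {𝔭 : Ideal (𝓞 K)} (h : Ideal.absNorm 𝔭 = ℓ) {v : ℤ × ℤ}
    (hv : T.X v ∈ 𝔭) : (ℓ : ℤ) ∣ T.qd.Q v := by
  have h1 : Ideal.absNorm 𝔭 ∣ Ideal.absNorm (Ideal.span {T.X v}) :=
    Ideal.absNorm_dvd_absNorm_of_le ((Ideal.span_singleton_le_iff_mem _).2 hv)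
  rw [h, ← T.Qn_eq, T.n_top hT, one_mul] at h1
  rw [← T.qd.Qn_eq]
  exact_mod_cast h1

/-- splitting gives a square root of `-D` -/
lemma legendre_of_exists (h2 : finrank ℚ K = 2) (T : ID K) (hT : T.J = ⊤) [hℓ : Fact ℓ.Prime]
    (hD : ¬ (ℓ : ℤ) ∣ T.qd.D) {𝔭 : Ideal (𝓞 K)} (h : Ideal.absNorm 𝔭 = ℓ) :
    legendreSym ℓ (-(T.qd.D : ℤ)) = 1 := by
  obtain ⟨x, hx, hx'⟩ := not_span_le h2 hℓ.out h
  obtain ⟨v, rfl⟩ := T.exists_X hT x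
  have hQ := dvd_Q hT h hx
  have hx'' : ¬ ((ℓ : ℤ) ∣ v.1 ∧ (ℓ : ℤ) ∣ v.2) := by
    rw [← T.mem_span_iff hT]; exact_mod_cast hx'
  have hD0 : ((-(T.qd.D : ℤ) : ℤ) : ZMod ℓ) ≠ 0 := by
    rw [ne_eq, ZMod.intCast_zmod_eq_zero_iff_dvd, dvd_neg]; exact hD
  rw [legendreSym.eq_one_iff ℓ hD0]
  have hDe := T.qd.D_eq
  have hQ0 : ((T.qd.Q v : ℤ) : ZMod ℓ) = 0 := (ZMod.intCast_zmod_eq_zero_iff_dvd _ _).2 hQ
  rcases not_and_or.1 hx'' with h1 | h1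
  · have h3 : (v.1 : ZMod ℓ) ≠ 0 := by rwa [ne_eq, ZMod.intCast_zmod_eq_zero_iff_dvd]
    refine ⟨(2 * T.qd.C * v.2 + T.qd.B * v.1) / v.1, ?_⟩
    have e : (-(T.qd.D : ℤ)) * v.1 ^ 2 =
        (2 * T.qd.C * v.2 + T.qd.B * v.1) ^ 2 - 4 * T.qd.C * T.qd.Q v := by
      rw [hDe]; simp only [QD.Q]; ring
    have e' := congrArg (fun x : ℤ => (x : ZMod ℓ)) e
    push_cast at e'
    rw [hQ0] at e'
    push_cast
    field_simp
    linear_combination e'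
  · have h3 : (v.2 : ZMod ℓ) ≠ 0 := by rwa [ne_eq, ZMod.intCast_zmod_eq_zero_iff_dvd]
    refine ⟨(2 * T.qd.A * v.1 + T.qd.B * v.2) / v.2, ?_⟩
    have e : (-(T.qd.D : ℤ)) * v.2 ^ 2 =
        (2 * T.qd.A * v.1 + T.qd.B * v.2) ^ 2 - 4 * T.qd.A * T.qd.Q v := by
      rw [hDe]; simp only [QD.Q]; ring
    have e' := congrArg (fun x : ℤ => (x : ZMod ℓ)) e
    push_cast at e'
    rw [hQ0] at e'
    push_cast
    field_simp
    linear_combination e'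

/-- a square root of `-D` gives splitting -/
lemma exists_of_legendre (h2 : finrank ℚ K = 2) (T : ID K) (hT : T.J = ⊤) [hℓ : Fact ℓ.Prime]
    (hℓ2 : ℓ ≠ 2) (h : legendreSym ℓ (-(T.qd.D : ℤ)) = 1) :
    ∃ 𝔭 : Ideal (𝓞 K), Ideal.absNorm 𝔭 = ℓ := by
  have hD0 : ((-(T.qd.D : ℤ) : ℤ) : ZMod ℓ) ≠ 0 := by
    intro h0
    rw [(legendreSym.eq_zero_iff ℓ _).2 h0] at h
    exact zero_ne_one h
  rw [legendreSym.eq_one_iff ℓ hD0] at h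
  obtain ⟨r, hr⟩ := h
  have hDe := T.qd.D_eq
  have h20 : (2 : ZMod ℓ) ≠ 0 := by
    intro h0
    have : ((2 : ℕ) : ZMod ℓ) = 0 := by exact_mod_cast h0
    rw [ZMod.natCast_eq_zero_iff] at this
    exact hℓ2 ((Nat.prime_dvd_prime_iff_eq hℓ.out Nat.prime_two).1 this)
  -- an isotropic vector modulo `ℓ`
  obtain ⟨v, hv, hQ⟩ : ∃ v : ℤ × ℤ, ¬ ((ℓ : ℤ) ∣ v.1 ∧ (ℓ : ℤ) ∣ v.2) ∧ (ℓ : ℤ) ∣ T.qd.Q v := by
    have h1not : ¬ (ℓ : ℤ) ∣ 1 := by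
      intro h
      have := Int.eq_one_of_dvd_one (by positivity) h
      exact hℓ.out.one_lt.ne' (by exact_mod_cast this)
    by_cases hA : (ℓ : ℤ) ∣ T.qd.A
    · refine ⟨(1, 0), fun h => h1not h.1, ?_⟩
      simp only [QD.Q]
      simpa using hA
    · have hA0 : (T.qd.A : ZMod ℓ) ≠ 0 := by rwa [ne_eq, ZMod.intCast_zmod_eq_zero_iff_dvd]
      refine ⟨(((r - T.qd.B) / (2 * T.qd.A) : ZMod ℓ).val, 1), fun h => h1not h.2, ?_⟩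
      rw [← ZMod.intCast_zmod_eq_zero_iff_dvd]
      simp only [QD.Q]
      push_cast
      rw [ZMod.natCast_zmod_val]
      have hr' : (-(T.qd.D : ℤ) : ZMod ℓ) = r * r := by exact_mod_cast hr
      have hDe' := congrArg (fun x : ℤ => (x : ZMod ℓ)) hDe
      push_cast at hDe' hr'
      rw [hDe'] at hr'
      field_simp
      linear_combination (-(1 : ZMod ℓ)) * hr'
  -- the ideal `(x, ℓ)`
  set x := T.X v with hx
  have hx' : x ∉ Ideal.span {(ℓ : 𝓞 K)} := by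
    have := (T.mem_span_iff hT (ℓ : ℤ) v).not.2 hv
    exact_mod_cast this
  set 𝔤 : Ideal (𝓞 K) := Ideal.span {x} ⊔ Ideal.span {(ℓ : 𝓞 K)} with h𝔤
  have hxg : x ∈ 𝔤 := Ideal.mem_sup_left (Ideal.mem_span_singleton_self x)
  have hℓg : Ideal.span {(ℓ : 𝓞 K)} ≤ 𝔤 := le_sup_right
  refine ⟨𝔤, ?_⟩
  have hd : Ideal.absNorm 𝔤 ∣ ℓ ^ 2 := by
    rw [← absNorm_span_nat (K := K) h2]
    exact Ideal.absNorm_dvd_absNorm_of_le hℓg
  rw [Nat.dvd_prime_pow hℓ.out] at hd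
  obtain ⟨k, hk, hk2⟩ := hd
  have hk0 : k ≠ 0 := by
    rintro rfl
    rw [pow_zero, Ideal.absNorm_eq_one_iff] at hk2
    have h1 : (1 : 𝓞 K) ∈ 𝔤 := by rw [hk2]; trivial
    rw [h𝔤, Ideal.mem_span_singleton_sup] at h1
    obtain ⟨y, z, hz, hyz⟩ := h1
    obtain ⟨u, rfl⟩ := Ideal.mem_span_singleton'.1 hz
    -- `bar x ∈ ℓ 𝓞`
    obtain ⟨m, hm⟩ := hQ
    have hN : x * Sig.bar x = (ℓ : 𝓞 K) * m := by
      rw [T.mul_bar, hx, T.norm_X hT, hm]; push_cast; ring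
    have hbar : Sig.bar x = (ℓ : 𝓞 K) * (m * y + u * Sig.bar x) := by
      calc Sig.bar x = (y * x + u * ℓ) * Sig.bar x := by rw [hyz, one_mul]
        _ = y * (x * Sig.bar x) + ℓ * (u * Sig.bar x) := by ring
        _ = _ := by rw [hN]; ring
    set t := m * y + u * Sig.bar x with ht
    have htr : Algebra.trace ℤ (𝓞 K) x = ℓ * Algebra.trace ℤ (𝓞 K) t := by
      rw [← T.trace_bar, hbar]
      have : (ℓ : 𝓞 K) * t = (ℓ : ℤ) • t := by rw [zsmul_eq_mul]; push_cast; rfl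
      rw [this, map_smul, smul_eq_mul]
    apply hx'
    have hxe : x = (ℓ : 𝓞 K) * ((Algebra.trace ℤ (𝓞 K) t : 𝓞 K) - t) := by
      have h3 : Sig.bar x = (Algebra.trace ℤ (𝓞 K) x : 𝓞 K) - x := rfl
      rw [htr, hbar] at h3
      push_cast at h3
      linear_combination h3
    rw [hxe]
    exact Ideal.mul_mem_right _ _ (Ideal.mem_span_singleton_self _)
  have hk2' : k ≠ 2 := by
    rintro rfl
    have h3 : 𝔤 = Ideal.span {(ℓ : 𝓞 K)} := by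
      apply eq_of_dvd_norm (Ideal.dvd_iff_le.2 hℓg) (span_ne hℓ.out)
      rw [hk2, absNorm_span_nat h2]
    exact hx' (h3 ▸ hxg)
  have : k = 1 := by omega
  rw [hk2, this, pow_one]

/-- unramified -/
lemma sq_ne (h2 : finrank ℚ K = 2) (T : ID K) (hT : T.J = ⊤) (hℓ : ℓ.Prime)
    (hD : ¬ (ℓ : ℤ) ∣ T.qd.D) {𝔭 : Ideal (𝓞 K)} (h : Ideal.absNorm 𝔭 = ℓ) :
    𝔭 * 𝔭 ≠ Ideal.span {(ℓ : 𝓞 K)} := by
  intro hsq
  have hprime : Prime (ℓ : ℤ) := Nat.prime_iff_prime_int.1 hℓ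
  obtain ⟨x, hx, hx'⟩ := not_span_le h2 hℓ h
  obtain ⟨v, rfl⟩ := T.exists_X hT x
  have key : ∀ z ∈ 𝔭, (ℓ : ℤ) ∣ Algebra.trace ℤ (𝓞 K) z := by
    intro z hz
    have h1 : z * z ∈ Ideal.span {(ℓ : 𝓞 K)} := by rw [← hsq]; exact Ideal.mul_mem_mul hz hz
    have hN : (ℓ : ℤ) ∣ Algebra.norm ℤ z := by
      obtain ⟨w, rfl⟩ := T.exists_X hT z
      rw [T.norm_X hT]; exact dvd_Q hT h hz
    have h3 : (Algebra.trace ℤ (𝓞 K) z : 𝓞 K) * z ∈ Ideal.span {(ℓ : 𝓞 K)} := by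
      have h4 : (Algebra.trace ℤ (𝓞 K) z : 𝓞 K) * z = z * z + (Algebra.norm ℤ z : 𝓞 K) := by
        rw [T.sq_eq]; ring
      rw [h4]
      refine add_mem h1 ?_
      obtain ⟨m, hm⟩ := hN
      rw [hm]; push_cast
      exact Ideal.mul_mem_right _ _ (Ideal.mem_span_singleton_self _)
    by_contra hnd
    have hcop : IsCoprime (Algebra.trace ℤ (𝓞 K) z) (ℓ : ℤ) :=
      (hprime.coprime_iff_not_dvd.2 hnd).symm
    obtain ⟨a, b, hab⟩ := hcop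
    have h5 : z ∈ Ideal.span {(ℓ : 𝓞 K)} := by
      have : z = (a : 𝓞 K) * ((Algebra.trace ℤ (𝓞 K) z : 𝓞 K) * z) + (ℓ : 𝓞 K) * (b * z) := by
        have hab' := congrArg (fun x : ℤ => (x : 𝓞 K)) hab
        push_cast at hab'
        linear_combination (-z) * hab'
      rw [this]
      exact add_mem (Ideal.mul_mem_left _ _ h3)
        (Ideal.mul_mem_right _ _ (Ideal.mem_span_singleton_self _))
    apply hnd
    obtain ⟨y, rfl⟩ := Ideal.mem_span_singleton'.1 h5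
    have : y * (ℓ : 𝓞 K) = (ℓ : ℤ) • y := by rw [zsmul_eq_mul]; push_cast; ring
    rw [this, map_smul, smul_eq_mul]
    exact dvd_mul_right _ _
  have hb : ∀ w, (ℓ : ℤ) ∣ T.qd.bb v w := by
    intro w
    rw [← T.trace_X hT]
    exact key _ (Ideal.mul_mem_right _ _ hx)
  have e1 := hb (2 * T.qd.C, -T.qd.B)
  have e2 := hb (-T.qd.B, 2 * T.qd.A)
  have f1 : T.qd.bb v (2 * T.qd.C, -T.qd.B) = T.qd.D * v.1 := by
    rw [T.qd.D_eq]; simp only [QD.bb]; ring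
  have f2 : T.qd.bb v (-T.qd.B, 2 * T.qd.A) = T.qd.D * v.2 := by
    rw [T.qd.D_eq]; simp only [QD.bb]; ring
  rw [f1] at e1
  rw [f2] at e2
  have g1 := (hprime.dvd_or_dvd e1).resolve_left hD
  have g2 := (hprime.dvd_or_dvd e2).resolve_left hD
  apply hx'
  have := (T.mem_span_iff hT (ℓ : ℤ) v).2 ⟨g1, g2⟩
  exact_mod_cast this

end

end Vale.Agent.P022.H390
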