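import Vale.Agent.P022.H390.NF5
import Vale.Agent.P022.H390.Glue

/-!
# P022: the Hecke relations for `a_n`
-/

namespace Vale.Agent.P022.H390

open NumberField Module
open scoped NumberTheorySymbols nonZeroDivisors

noncomputable section

variable {K : Type*} [Field K] [NumberField K] {𝔣 : Ideal (𝓞 K)} {ℓ : ℕ}

lemma prime_of_norm (hℓ : ℓ.Prime) {𝔭 : Ideal (𝓞 K)} (h : Ideal.absNorm 𝔭 = ℓ) : Prime 𝔭 := by
  have h0 : 𝔭 ≠ ⊥ := by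
    rintro rfl
    rw [Ideal.absNorm_bot] at h
    exact hℓ.ne_zero h.symm
  have h1 : 𝔭.IsPrime := Ideal.isPrime_of_irreducible_absNorm (by
    rw [h]; exact hℓ)
  exact Ideal.prime_of_isPrime h0 h1

/-- a maximal ideal above `ℓ` dividing `𝔞` -/
lemma exists_above (hℓ : ℓ.Prime) {𝔞 : Ideal (𝓞 K)} (h : ℓ ∣ Ideal.absNorm 𝔞) :
    ∃ P : Ideal (𝓞 K), P.IsMaximal ∧ P ∣ 𝔞 ∧ P ∣ Ideal.span {(ℓ : 𝓞 K)} := by
  obtain ⟨P, hP, hP2, hP3⟩ := Ideal.exists_isMaximal_dvd_of_dvd_absNorm' hℓ 𝔞 h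
  refine ⟨P, hP, hP3, ?_⟩
  rw [Ideal.dvd_iff_le, Ideal.span_singleton_le_iff_mem]
  have : (ℓ : ℤ) ∈ P.under ℤ := by rw [hP2]; exact Ideal.mem_span_singleton_self _
  rw [Ideal.under_def, Ideal.mem_comap] at this
  simpa using this

lemma eq_or_eq_of_dvd (hℓ : ℓ.Prime) {𝔭 𝔮 P : Ideal (𝓞 K)} (hp : Ideal.absNorm 𝔭 = ℓ)
    (hq : Ideal.absNorm 𝔮 = ℓ) (hP : Prime P) (h : P ∣ 𝔭 * 𝔮) : P = 𝔭 ∨ P = 𝔮 := by
  have key : ∀ 𝔯 : Ideal (𝓞 K), Ideal.absNorm 𝔯 = ℓ → P ∣ 𝔯 → P = 𝔯 := by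
    intro 𝔯 hr hd
    have h1 := (prime_of_norm hℓ hr)
    have h2 : Associated P 𝔯 := (hP.dvd_prime_iff_associated h1).1 hd
    exact associated_iff_eq.1 h2
  rcases hP.dvd_or_dvd h with h1 | h1
  · exact Or.inl (key _ hp h1)
  · exact Or.inr (key _ hq h1)

/-- the split case -/
lemma LChar.hecke_split (ψ : LChar K 𝔣) (h2 : finrank ℚ K = 2) (hℓ : ℓ.Prime)
    {𝔭 𝔮 : Ideal (𝓞 K)} (hp : Ideal.absNorm 𝔭 = ℓ) (hq : Ideal.absNorm 𝔮 = ℓ) (hne : 𝔭 ≠ 𝔮)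
    (hpq : 𝔭 * 𝔮 = Ideal.span {(ℓ : 𝓞 K)}) (n : ℕ) :
    ψ.a (n * ℓ) + ψ.p (Ideal.span {(ℓ : 𝓞 K)}) * (if ℓ ∣ n then ψ.a (n / ℓ) else 0) =
      ψ.a ℓ * ψ.a n := by
  classical
  have hPp := prime_of_norm hℓ hp
  have hPq := prime_of_norm hℓ hq
  have hp0 : 𝔭 ≠ 0 := hPp.ne_zero
  have hq0 : 𝔮 ≠ 0 := hPq.ne_zero
  -- `a ℓ`
  have haℓ : ψ.a ℓ = ψ.p 𝔭 + ψ.p 𝔮 := by
    have h1 : In K ℓ = {𝔭, 𝔮} := by
      ext 𝔯
      rw [mem_In, Finset.mem_insert, Finset.mem_singleton]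
      constructor
      · intro h
        exact eq_or_eq_of_dvd hℓ hp hq (prime_of_norm hℓ h) (hpq ▸ dvd_of_norm h)
      · rintro (rfl | rfl) <;> assumption
    rw [LChar.a, h1, Finset.sum_pair hne]
  set A := (In K n).image (fun 𝔞 => 𝔭 * 𝔞) with hA
  set B := (In K n).image (fun 𝔞 => 𝔮 * 𝔞) with hB
  have hunion : In K (n * ℓ) = A ∪ B := by
    ext 𝔞
    rw [mem_In, Finset.mem_union, hA, hB, Finset.mem_image, Finset.mem_image]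
    constructor
    · intro h
      obtain ⟨P, hP, hP1, hP2⟩ := exists_above hℓ (𝔞 := 𝔞) (by rw [h]; exact dvd_mul_left _ _)
      have hPP : Prime P := by
        refine Ideal.prime_of_isPrime ?_ hP.isPrime
        rintro rfl
        rw [← Ideal.zero_eq_bot, zero_dvd_iff] at hP2
        exact span_ne hℓ hP2
      obtain ⟨𝔟, rfl⟩ := hP1
      rw [← hpq] at hP2
      rcases eq_or_eq_of_dvd hℓ hp hq hPP hP2 with rfl | rfl
      · left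
        refine ⟨𝔟, ?_, rfl⟩
        rw [mem_In]
        rw [map_mul, hp, mul_comm] at h
        exact Nat.eq_of_mul_eq_mul_right hℓ.pos h
      · right
        refine ⟨𝔟, ?_, rfl⟩
        rw [mem_In]
        rw [map_mul, hq, mul_comm] at h
        exact Nat.eq_of_mul_eq_mul_right hℓ.pos h
    · rintro (⟨𝔟, hb, rfl⟩ | ⟨𝔟, hb, rfl⟩)
      · rw [mem_In] at hb; rw [map_mul, hp, hb, mul_comm]
      · rw [mem_In] at hb; rw [map_mul, hq, hb, mul_comm]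
  have hsumA : ∑ 𝔞 ∈ A, ψ.p 𝔞 = ψ.p 𝔭 * ψ.a n := by
    rw [hA, Finset.sum_image (fun x _ y _ h => mul_left_cancel₀ hp0 h), LChar.a, Finset.mul_sum]
    exact Finset.sum_congr rfl fun 𝔞 _ => ψ.mul _ _
  have hsumB : ∑ 𝔞 ∈ B, ψ.p 𝔞 = ψ.p 𝔮 * ψ.a n := by
    rw [hB, Finset.sum_image (fun x _ y _ h => mul_left_cancel₀ hq0 h), LChar.a, Finset.mul_sum]
    exact Finset.sum_congr rfl fun 𝔞 _ => ψ.mul _ _
  have hinter : ∑ 𝔞 ∈ A ∩ B, ψ.p 𝔞 =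
      ψ.p (Ideal.span {(ℓ : 𝓞 K)}) * (if ℓ ∣ n then ψ.a (n / ℓ) else 0) := by
    have hdiv : ∀ 𝔞 ∈ A ∩ B, ℓ ∣ n ∧ ∃ 𝔡 ∈ In K (n / ℓ), Ideal.span {(ℓ : 𝓞 K)} * 𝔡 = 𝔞 := by
      intro 𝔞 h𝔞
      rw [Finset.mem_inter, hA, hB, Finset.mem_image, Finset.mem_image] at h𝔞
      obtain ⟨⟨𝔟, hb, rfl⟩, ⟨𝔠, hc, hbc⟩⟩ := h𝔞
      have h1 : 𝔮 ∣ 𝔭 * 𝔟 := ⟨𝔠, hbc.symm⟩
      have h3 : 𝔮 ∣ 𝔟 := by
        rcases hPq.dvd_or_dvd h1 with h4 | h4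
        · exfalso
          exact hne (associated_iff_eq.1 ((hPq.dvd_prime_iff_associated hPp).1 h4)).symm
        · exact h4
      obtain ⟨𝔡, rfl⟩ := h3
      rw [mem_In, map_mul, hq] at hb
      refine ⟨⟨_, hb.symm⟩, 𝔡, ?_, ?_⟩
      · rw [mem_In, ← hb, Nat.mul_div_cancel_left _ hℓ.pos]
      · rw [← hpq, mul_assoc]
    by_cases hn : ℓ ∣ n
    · rw [if_pos hn]
      have himg : A ∩ B = (In K (n / ℓ)).image (fun 𝔡 => Ideal.span {(ℓ : 𝓞 K)} * 𝔡) := by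
        ext 𝔞
        constructor
        · intro h
          obtain ⟨_, 𝔡, h1, h3⟩ := hdiv 𝔞 h
          exact Finset.mem_image.2 ⟨𝔡, h1, h3⟩
        · intro h
          obtain ⟨𝔡, h1, rfl⟩ := Finset.mem_image.1 h
          rw [mem_In] at h1
          have h5 : ℓ * (n / ℓ) = n := Nat.mul_div_cancel' hn
          rw [Finset.mem_inter, hA, hB, Finset.mem_image, Finset.mem_image]
          refine ⟨⟨𝔮 * 𝔡, ?_, ?_⟩, ⟨𝔭 * 𝔡, ?_, ?_⟩⟩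
          · rw [mem_In, map_mul, hq, h1, h5]
          · rw [← hpq, mul_assoc]
          · rw [mem_In, map_mul, hp, h1, h5]
          · rw [← hpq, mul_comm 𝔭 𝔮, mul_assoc]
      rw [himg, Finset.sum_image (fun x _ y _ h => mul_left_cancel₀ (span_ne hℓ) h), LChar.a,
        Finset.mul_sum]
      exact Finset.sum_congr rfl fun 𝔞 _ => ψ.mul _ _
    · rw [if_neg hn, mul_zero]
      have : A ∩ B = ∅ := by
        rw [Finset.eq_empty_iff_forall_notMem]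
        intro 𝔞 h
        exact hn (hdiv 𝔞 h).1
      rw [this, Finset.sum_empty]
  rw [← hinter, LChar.a, hunion, Finset.sum_union_inter, hsumA, hsumB, haℓ]
  ring

/-- the inert case -/
lemma LChar.hecke_inert (ψ : LChar K 𝔣) (h2 : finrank ℚ K = 2) (hℓ : ℓ.Prime)
    (hno : ¬ ∃ 𝔭 : Ideal (𝓞 K), Ideal.absNorm 𝔭 = ℓ) (n : ℕ) :
    ψ.a (n * ℓ) = ψ.p (Ideal.span {(ℓ : 𝓞 K)}) * (if ℓ ∣ n then ψ.a (n / ℓ) else 0) := by
  classical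
  have hdiv : ∀ 𝔞 ∈ In K (n * ℓ), ℓ ∣ n ∧ ∃ 𝔡 ∈ In K (n / ℓ), Ideal.span {(ℓ : 𝓞 K)} * 𝔡 = 𝔞 := by
    intro 𝔞 h𝔞
    rw [mem_In] at h𝔞
    obtain ⟨P, hP, hP1, hP2⟩ := exists_above hℓ (𝔞 := 𝔞) (by rw [h𝔞]; exact dvd_mul_left _ _)
    have hPn : Ideal.absNorm P ∣ ℓ ^ 2 := by
      rw [← absNorm_span_nat (K := K) h2]
      exact map_dvd Ideal.absNorm hP2
    rw [Nat.dvd_prime_pow hℓ] at hPn
    obtain ⟨k, hk, hk2⟩ := hPn
    have hk0 : k ≠ 0 := by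
      rintro rfl
      rw [pow_zero, Ideal.absNorm_eq_one_iff] at hk2
      exact hP.ne_top hk2
    have hk1 : k ≠ 1 := by
      rintro rfl
      rw [pow_one] at hk2
      exact hno ⟨P, hk2⟩
    have hk3 : k = 2 := by omega
    rw [hk3] at hk2
    have hPe : P = Ideal.span {(ℓ : 𝓞 K)} :=
      eq_of_dvd_norm hP2 (span_ne hℓ) (by rw [hk2, absNorm_span_nat h2])
    obtain ⟨𝔡, rfl⟩ := hP1
    rw [map_mul, hk2] at h𝔞
    have h5 : ℓ * Ideal.absNorm 𝔡 = n := by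
      apply Nat.eq_of_mul_eq_mul_right hℓ.pos
      rw [← h𝔞]; ring
    refine ⟨⟨_, h5.symm⟩, 𝔡, ?_, by rw [hPe]⟩
    rw [mem_In, ← h5, Nat.mul_div_cancel_left _ hℓ.pos]
  by_cases hn : ℓ ∣ n
  · rw [if_pos hn]
    have himg : In K (n * ℓ) = (In K (n / ℓ)).image (fun 𝔡 => Ideal.span {(ℓ : 𝓞 K)} * 𝔡) := by
      ext 𝔞
      constructor
      · intro h
        obtain ⟨_, 𝔡, h1, h3⟩ := hdiv 𝔞 h
        exact Finset.mem_image.2 ⟨𝔡, h1, h3⟩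
      · intro h
        obtain ⟨𝔡, h1, rfl⟩ := Finset.mem_image.1 h
        rw [mem_In] at h1
        have h5 : ℓ * (n / ℓ) = n := Nat.mul_div_cancel' hn
        rw [mem_In, map_mul, absNorm_span_nat h2, h1]
        calc ℓ ^ 2 * (n / ℓ) = ℓ * (n / ℓ) * ℓ := by ring
          _ = n * ℓ := by rw [h5]
    rw [LChar.a, himg, Finset.sum_image (fun x _ y _ h => mul_left_cancel₀ (span_ne hℓ) h),
      LChar.a, Finset.mul_sum]
    exact Finset.sum_congr rfl fun 𝔞 _ => ψ.mul _ _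
  · rw [if_neg hn, mul_zero, LChar.a]
    have : In K (n * ℓ) = ∅ := by
      rw [Finset.eq_empty_iff_forall_notMem]
      intro 𝔞 h
      exact hn (hdiv 𝔞 h).1
    rw [this, Finset.sum_empty]

/-- the quadratic character -/
lemma jacobi_split (h2 : finrank ℚ K = 2) (hd : discr K < 0) (hodd : Odd (discr K))
    (hℓ : ℓ.Prime) (hℓ2 : ℓ ≠ 2) (hℓD : ¬ (ℓ : ℤ) ∣ discr K) :
    ((∃ 𝔭 : Ideal (𝓞 K), Ideal.absNorm 𝔭 = ℓ) → J(ℓ | (discr K).natAbs) = 1) ∧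
    ((¬ ∃ 𝔭 : Ideal (𝓞 K), Ideal.absNorm 𝔭 = ℓ) → J(ℓ | (discr K).natAbs) = -1) := by
  haveI : Fact ℓ.Prime := ⟨hℓ⟩
  obtain ⟨T, hT⟩ := exists_ID h2 hd (I := (⊤ : Ideal (𝓞 K))) top_ne_bot
  have hDo : Odd T.qd.D := by rw [T.qd_D']; exact Int.natAbs_odd.2 hodd
  have hD4 := QD.D_mod_four hDo
  have hJ : legendreSym ℓ (-(T.qd.D : ℤ)) = J(ℓ | (discr K).natAbs) := by
    rw [jacobiSym.legendreSym.to_jacobiSym, jacobi_recip hD4 (hℓ.odd_of_ne_two hℓ2), T.qd_D']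
  have hℓD' : ¬ (ℓ : ℤ) ∣ T.qd.D := by rw [T.qd_D, dvd_neg]; exact hℓD
  constructor
  · rintro ⟨𝔭, hp⟩
    rw [← hJ]; exact legendre_of_exists h2 T hT hℓD' hp
  · intro hno
    rw [← hJ]
    have hD0 : ((-(T.qd.D : ℤ) : ℤ) : ZMod ℓ) ≠ 0 := by
      rw [ne_eq, ZMod.intCast_zmod_eq_zero_iff_dvd, dvd_neg]; exact hℓD'
    rcases legendreSym.eq_one_or_neg_one ℓ hD0 with h | h
    · exact absurd (exists_of_legendre h2 T hT hℓ2 h) hno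
    · exact h

/-- **the Hecke relation** -/
theorem LChar.hecke (ψ : LChar K 𝔣) (h2 : finrank ℚ K = 2) (hd : discr K < 0)
    (hodd : Odd (discr K)) (hℓ : ℓ.Prime) (hℓ2 : ℓ ≠ 2) (hℓD : ¬ (ℓ : ℤ) ∣ discr K) (n : ℕ) :
    ψ.a (n * ℓ) + (J(ℓ | (discr K).natAbs) : L) * ψ.p (Ideal.span {(ℓ : 𝓞 K)}) *
      (if ℓ ∣ n then ψ.a (n / ℓ) else 0) = ψ.a ℓ * ψ.a n := by
  obtain ⟨j1, j2⟩ := jacobi_split h2 hd hodd hℓ hℓ2 hℓD
  by_cases hex : ∃ 𝔭 : Ideal (𝓞 K), Ideal.absNorm 𝔭 = ℓ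
  · rw [j1 hex, Int.cast_one, one_mul]
    obtain ⟨𝔭, hp⟩ := hex
    obtain ⟨𝔮, hq⟩ := dvd_of_norm hp
    obtain ⟨T, hT⟩ := exists_ID h2 hd (I := (⊤ : Ideal (𝓞 K))) top_ne_bot
    have hℓD' : ¬ (ℓ : ℤ) ∣ T.qd.D := by rw [T.qd_D, dvd_neg]; exact hℓD
    have hqn : Ideal.absNorm 𝔮 = ℓ := by
      have h3 := congrArg Ideal.absNorm hq
      rw [map_mul, absNorm_span_nat h2, hp, pow_two] at h3
      exact (Nat.eq_of_mul_eq_mul_left hℓ.pos h3).symm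
    refine ψ.hecke_split h2 hℓ hp hqn ?_ hq.symm n
    rintro rfl
    exact sq_ne h2 T hT hℓ hℓD' hp hq.symm
  · rw [j2 hex, ψ.hecke_inert h2 hℓ hex]
    have haℓ : ψ.a ℓ = 0 := by
      rw [LChar.a]
      have : In K ℓ = ∅ := by
        rw [Finset.eq_empty_iff_forall_notMem]
        intro 𝔞 h
        rw [mem_In] at h
        exact hex ⟨𝔞, h⟩
      rw [this, Finset.sum_empty]
    rw [haℓ]; push_cast; ring

lemma LChar.a_one (ψ : LChar K 𝔣) : ψ.a 1 = 1 := by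
  have h1 : In K 1 = {1} := by
    ext 𝔞
    rw [mem_In, Finset.mem_singleton, Ideal.absNorm_eq_one_iff, Ideal.one_eq_top]
  rw [LChar.a, h1, Finset.sum_singleton, ψ.one]

lemma LChar.norm_a_le (ψ : LChar K 𝔣) (n : ℕ) : ‖ψ.a n‖ ≤ 1 :=
  norm_sum_le _ _ zero_le_one fun 𝔞 _ => ψ.norm_le 𝔞

/-- the eigenfamily -/
theorem LChar.eigen (ψ : LChar K 𝔣) (h2 : finrank ℚ K = 2) (hd : discr K < 0)
    (hodd : Odd (discr K)) {N : ℕ} [NeZero N]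
    (hN : ∀ ℓ : ℕ, ℓ.Prime → ¬ ℓ ∣ 2 * N → ¬ (ℓ : ℤ) ∣ discr K) :
    EigenFam N ψ.Φ ψ.a
      (fun ℓ => (J(ℓ | (discr K).natAbs) : L) * ψ.p (Ideal.span {(ℓ : 𝓞 K)})) where
  bdd := by
    intro d _ n
    rw [LChar.Φ, norm_mul, norm_mul, norm_mul]
    refine mul_le_one₀ (mul_le_one₀ (mul_le_one₀ (norm_nat_le_one d) (norm_nonneg _)
      (norm_int_le_one _)) (norm_nonneg _) (ψ.norm_le _)) (norm_nonneg _) (ψ.norm_a_le n)
  one := by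
    rw [LChar.Φ, ψ.a_one, Nat.cast_one, Nat.cast_one, Nat.cast_one, Ideal.span_singleton_one,
      ← Ideal.one_eq_top, ψ.one, jacobiSym.one_left]
    simp
  eigT := by
    intro ℓ hℓ d _ n
    have hℓ2 : ℓ ≠ 2 := by
      rintro rfl
      exact hℓ.2 (dvd_mul_right _ _)
    have hℓ0 : (ℓ : L) ≠ 0 := by exact_mod_cast hℓ.1.ne_zero
    have key := ψ.hecke h2 hd hodd hℓ.1 hℓ2 (hN ℓ hℓ.1 hℓ.2) n
    have hJ : J(((d * ℓ : ℕ) : ℤ) | (discr K).natAbs) =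
        J(d | (discr K).natAbs) * J(ℓ | (discr K).natAbs) := by
      push_cast; rw [jacobiSym.mul_left]
    have hs : ψ.p (Ideal.span {((d * ℓ : ℕ) : 𝓞 K)}) =
        ψ.p (Ideal.span {(d : 𝓞 K)}) * ψ.p (Ideal.span {(ℓ : 𝓞 K)}) := by
      push_cast
      rw [← Ideal.span_singleton_mul_span_singleton, ψ.mul]
    simp only [LChar.Φ]
    rw [hJ, hs]
    have e : (ℓ : L)⁻¹ * (if ℓ ∣ n then ((d * ℓ : ℕ) : L) *
        ((J(d | (discr K).natAbs) * J(ℓ | (discr K).natAbs) : ℤ) : L) *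
        (ψ.p (Ideal.span {(d : 𝓞 K)}) * ψ.p (Ideal.span {(ℓ : 𝓞 K)})) * ψ.a (n / ℓ) else 0) =
        (d : L) * (J(d | (discr K).natAbs) : L) * ψ.p (Ideal.span {(d : 𝓞 K)}) *
        ((J(ℓ | (discr K).natAbs) : L) * ψ.p (Ideal.span {(ℓ : 𝓞 K)}) *
          (if ℓ ∣ n then ψ.a (n / ℓ) else 0)) := by
      split_ifs
      · push_cast; field_simp
      · simp
    rw [e, ← mul_add, key]; ring
  eigS := by
    intro ℓ hℓ d _ n
    have hℓ0 : (ℓ : L) ≠ 0 := by exact_mod_cast hℓ.1.ne_zero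
    have hJ : J(((d * ℓ : ℕ) : ℤ) | (discr K).natAbs) =
        J(d | (discr K).natAbs) * J(ℓ | (discr K).natAbs) := by
      push_cast; rw [jacobiSym.mul_left]
    have hs : ψ.p (Ideal.span {((d * ℓ : ℕ) : 𝓞 K)}) =
        ψ.p (Ideal.span {(d : 𝓞 K)}) * ψ.p (Ideal.span {(ℓ : 𝓞 K)}) := by
      push_cast
      rw [← Ideal.span_singleton_mul_span_singleton, ψ.mul]
    simp only [LChar.Φ]
    rw [hJ, hs]
    push_cast
    field_simp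

end

end Vale.Agent.P022.H390
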