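import Vale.Agent.P022.H390.Fam

/-!
# P022: power series over `L` with bounded coefficients, `q`-expansions of period `h`
-/

namespace Vale.Agent.P022.H390

open UpperHalfPlane ModularForm CongruenceSubgroup Matrix.SpecialLinearGroup
open scoped MatrixGroups ModularForm Manifold Real

noncomputable section

/-- periodic of period `h`, holomorphic, and bounded at `i∞`. -/
structure Good (h : ℝ) (f : ℍ → ℂ) : Prop where
  per : Function.Periodic (f ∘ ofComplex) h
  holo : MDiff f
  bdd : IsBoundedAtImInfty f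

variable {h : ℝ} {f g : ℍ → ℂ}

lemma Good.analytic (hh : 0 < h) (hf : Good h f) : AnalyticAt ℂ (cuspFunction h f) 0 :=
  analyticAt_cuspFunction_zero hh hf.per hf.holo hf.bdd

lemma Good.hasSum (hh : 0 < h) (hf : Good h f) (z : ℍ) :
    HasSum (fun m : ℕ => (qExpansion h f).coeff m * Function.Periodic.qParam h z ^ m) (f z) :=
  UpperHalfPlane.hasSum_qExpansion hh hf.per hf.holo hf.bdd z

lemma Good.add (hf : Good h f) (hg : Good h g) : Good h (f + g) where
  per := fun z => by
    have h1 := hf.per z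
    have h2 := hg.per z
    simp only [Function.comp_apply, Pi.add_apply] at h1 h2 ⊢
    rw [h1, h2]
  holo := hf.holo.add hg.holo
  bdd := hf.bdd.add hg.bdd

lemma Good.mul (hf : Good h f) (hg : Good h g) : Good h (f * g) where
  per := fun z => by
    have h1 := hf.per z
    have h2 := hg.per z
    simp only [Function.comp_apply, Pi.mul_apply] at h1 h2 ⊢
    rw [h1, h2]
  holo := hf.holo.mul hg.holo
  bdd := hf.bdd.mul hg.bdd

lemma Good.smul (c : ℂ) (hf : Good h f) : Good h (c • f) where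
  per := fun z => by
    have h1 := hf.per z
    simp only [Function.comp_apply, Pi.smul_apply] at h1 ⊢
    rw [h1]
  holo := hf.holo.const_smul c
  bdd := by
    have := hf.bdd.const_smul_left (c := c)
    exact this

lemma Good.one : Good h (1 : ℍ → ℂ) where
  per := fun z => rfl
  holo := mdifferentiable_const
  bdd := Filter.const_boundedAtFilter _ _

lemma Good.pow (hf : Good h f) (m : ℕ) : Good h (f ^ m) := by
  induction m with
  | zero => rw [pow_zero]; exact Good.one
  | succ m ih => rw [pow_succ]; exact ih.mul hf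

lemma IsMF.good {N : ℕ} [NeZero N] {k : ℤ} (hf : IsMF N k f) : Good 1 f :=
  ⟨hf.periodic, hf.holo, hf.bddInf⟩

/-- the `q`-expansion of period `h`, transported to `L = \bar ℚ₂` -/
def qs (h : ℝ) (f : ℍ → ℂ) : PowerSeries L := (qExpansion h f).map (iota : ℂ →+* L)

lemma coeff_qs (n : ℕ) : (qs h f).coeff n = iota ((qExpansion h f).coeff n) := by
  rw [qs, PowerSeries.coeff_map]; rfl

lemma coeff_qs_one (n : ℕ) : (qs 1 f).coeff n = iota (qc f n) := coeff_qs n

lemma qs_add (hh : 0 < h) (hf : Good h f) (hg : Good h g) : qs h (f + g) = qs h f + qs h g := by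
  rw [qs, qExpansion_add (hf.analytic hh) (hg.analytic hh), map_add]; rfl

lemma qs_mul (hh : 0 < h) (hf : Good h f) (hg : Good h g) : qs h (f * g) = qs h f * qs h g := by
  rw [qs, qExpansion_mul (hf.analytic hh) (hg.analytic hh), map_mul]; rfl

lemma qs_smul (hh : 0 < h) (c : ℂ) (hf : Good h f) : qs h (c • f) = iota c • qs h f := by
  ext n
  rw [coeff_qs, qExpansion_smul (hf.analytic hh), PowerSeries.coeff_smul, PowerSeries.coeff_smul,
    smul_eq_mul, map_mul, coeff_qs]
  rfl

lemma qs_one : qs h (1 : ℍ → ℂ) = 1 := by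
  rw [qs, qExpansion_one, map_one]

lemma qs_pow (hh : 0 < h) (hf : Good h f) (m : ℕ) : qs h (f ^ m) = qs h f ^ m := by
  induction m with
  | zero => rw [pow_zero, pow_zero, qs_one]
  | succ m ih => rw [pow_succ, qs_mul hh (hf.pow m) hf, ih, pow_succ]

/-- all coefficients have norm `≤ C`. -/
def PB (P : PowerSeries L) (C : ℝ) : Prop := ∀ n, ‖P.coeff n‖ ≤ C

variable {P Q : PowerSeries L} {C C' : ℝ}

lemma PB.nonneg (h : PB P C) : 0 ≤ C := (norm_nonneg _).trans (h 0)

lemma PB.mono (h : PB P C) (hC : C ≤ C') : PB P C' := fun n => (h n).trans hC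

lemma PB.add (h : PB P C) (h' : PB Q C) : PB (P + Q) C := fun n => by
  rw [map_add]; exact (norm_add_le_max _ _).trans (max_le (h n) (h' n))

lemma PB.sub (h : PB P C) (h' : PB Q C) : PB (P - Q) C := fun n => by
  rw [map_sub]; exact (norm_sub_le_max _ _).trans (max_le (h n) (h' n))

lemma PB.mul (h : PB P C) (h' : PB Q C') : PB (P * Q) (C * C') := fun n => by
  rw [PowerSeries.coeff_mul]
  apply norm_sum_le _ _ (mul_nonneg h.nonneg h'.nonneg)
  intro p _
  rw [norm_mul]
  exact mul_le_mul (h _) (h' _) (norm_nonneg _) h.nonneg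

lemma PB.one : PB (1 : PowerSeries L) 1 := fun n => by
  rw [PowerSeries.coeff_one]; split_ifs <;> simp

lemma PB.pow (h : PB P C) (m : ℕ) : PB (P ^ m) (C ^ m) := by
  induction m with
  | zero => rw [pow_zero, pow_zero]; exact PB.one
  | succ m ih => rw [pow_succ, pow_succ]; exact ih.mul h

lemma PB.two : PB (2 : PowerSeries L) (1 / 2) := fun n => by
  have : (2 : PowerSeries L) = PowerSeries.C 2 := (map_ofNat (PowerSeries.C (R := L)) 2).symm
  rw [this, PowerSeries.coeff_C]
  split_ifs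
  · rw [norm_two]
  · simp

/-- `P ≡ 1 mod 2` implies `P^(2^j) ≡ 1 mod 2^(j+1)`. -/
lemma PB.pow_two_pow (h : PB (P - 1) (1 / 2)) (j : ℕ) : PB (P ^ (2 ^ j) - 1) ((1 / 2) ^ (j + 1)) := by
  induction j with
  | zero => simpa using h
  | succ j ih =>
    have : P ^ (2 ^ (j + 1)) - 1 = (P ^ (2 ^ j) - 1) * ((P ^ (2 ^ j) - 1) + 2) := by
      rw [pow_succ 2 j, pow_mul]; ring
    rw [this, pow_succ (1 / 2 : ℝ) (j + 1)]
    refine ih.mul (PB.add (ih.mono ?_) PB.two)
    calc (1 / 2 : ℝ) ^ (j + 1) ≤ (1 / 2) ^ 1 :=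
          pow_le_pow_of_le_one (by norm_num) (by norm_num) (by omega)
      _ = 1 / 2 := pow_one _

/-- odd integers: `d^(2^j) ≡ 1 mod 2^(j+1)`. -/
lemma norm_pow_two_pow {x : L} (h : ‖x - 1‖ ≤ 1 / 2) (j : ℕ) :
    ‖x ^ (2 ^ j) - 1‖ ≤ (1 / 2) ^ (j + 1) := by
  induction j with
  | zero => simpa using h
  | succ j ih =>
    have : x ^ (2 ^ (j + 1)) - 1 = (x ^ (2 ^ j) - 1) * ((x ^ (2 ^ j) - 1) + 2) := by
      rw [pow_succ 2 j, pow_mul]; ring
    rw [this, pow_succ (1 / 2 : ℝ) (j + 1), norm_mul]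
    refine mul_le_mul ih ?_ (norm_nonneg _) (by positivity)
    refine (norm_add_le_max _ _).trans (max_le (ih.trans ?_) (by rw [norm_two]))
    calc (1 / 2 : ℝ) ^ (j + 1) ≤ (1 / 2) ^ 1 :=
          pow_le_pow_of_le_one (by norm_num) (by norm_num) (by omega)
      _ = 1 / 2 := pow_one _

lemma norm_odd_sub_one {d : ℕ} (h : Nat.Coprime d 2) : ‖(d : L) - 1‖ ≤ 1 / 2 := by
  have h1 : d % 2 = 1 := by
    rcases Nat.mod_two_eq_zero_or_one d with h0 | h0
    · exfalso
      have : 2 ∣ Nat.gcd d 2 := Nat.dvd_gcd (Nat.dvd_of_mod_eq_zero h0) (dvd_refl 2)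
      rw [h] at this; omega
    · exact h0
  obtain ⟨c, hc⟩ : ∃ c, d = 2 * c + 1 := ⟨d / 2, by omega⟩
  have : (d : L) - 1 = 2 * (c : L) := by rw [hc]; push_cast; ring
  rw [this, norm_mul, norm_two]
  have := norm_nat_le_one c
  linarith

end

end Vale.Agent.P022.H390
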