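import Vale.Agent.P022.H390.Gauss

/-!
# P022: Poisson summation with a spherical polynomial
-/

namespace Vale.Agent.P022.H390

open scoped Real Nat
open Complex (I exp)

noncomputable section

lemma hasFPS {c : ℕ → ℂ} {f : ℂ → ℂ} (h : ∀ s : ℂ, HasSum (fun m => c m * s ^ m) (f s)) :
    HasFPowerSeriesOnBall f (.ofScalars ℂ c) 0 1 := by
  constructor
  · refine le_of_forall_lt_imp_le_of_dense fun r hr ↦ ?_
    lift r to NNReal using hr.ne_top
    apply FormalMultilinearSeries.le_radius_of_summable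
    simpa [smul_eq_mul, norm_mul, mul_comm, mul_left_comm, mul_assoc] using
        (h r).summable.norm
  · simp
  · intro y _
    simpa [mul_comm] using h y

lemma pow_unique {c c' : ℕ → ℂ} {f : ℂ → ℂ} (h : ∀ s : ℂ, HasSum (fun m => c m * s ^ m) (f s))
    (h' : ∀ s : ℂ, HasSum (fun m => c' m * s ^ m) (f s)) (m : ℕ) : c m = c' m := by
  have := (hasFPS h).hasFPowerSeriesAt.eq_formalMultilinearSeries (hasFPS h').hasFPowerSeriesAt
  simpa using congr_arg (FormalMultilinearSeries.coeff · m) this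

lemma hasSum_exp_series {ι : Type*} {A B : ι → ℂ}
    (hs : ∀ R : ℝ, Summable fun i => ‖A i‖ * Real.exp (R * ‖B i‖)) (s : ℂ) :
    HasSum (fun a : ℕ => ((∑' i, A i * B i ^ a) / a !) * s ^ a) (∑' i, A i * exp (s * B i)) := by
  have hexp : ∀ w : ℂ, HasSum (fun a : ℕ => w ^ a / a !) (exp w) := fun w => by
    rw [Complex.exp_eq_exp_ℂ]; exact NormedSpace.expSeries_div_hasSum_exp w
  have hexpR : ∀ w : ℝ, HasSum (fun a : ℕ => w ^ a / a !) (Real.exp w) := fun w => by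
    rw [Real.exp_eq_exp_ℝ]; exact NormedSpace.expSeries_div_hasSum_exp w
  set F : ι × ℕ → ℂ := fun p => A p.1 * ((s * B p.1) ^ p.2 / p.2 !) with hF
  have hn : ∀ p, ‖F p‖ = ‖A p.1‖ * ((‖s‖ * ‖B p.1‖) ^ p.2 / p.2 !) := by
    intro p
    rw [hF]; dsimp only
    rw [norm_mul, norm_div, norm_pow, norm_mul]
    congr 2
    simp
  have hFs : Summable F := by
    refine Summable.of_norm ?_
    rw [summable_prod_of_nonneg (fun _ => norm_nonneg _)]
    constructor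
    · intro i
      refine (((hexpR (‖s‖ * ‖B i‖)).mul_left ‖A i‖).summable).congr fun a => ?_
      rw [hn]
    · refine (hs ‖s‖).congr fun i => ?_
      rw [tsum_congr (fun a => hn (i, a))]
      exact ((hexpR (‖s‖ * ‖B i‖)).mul_left ‖A i‖).tsum_eq.symm
  have h1 : ∑' p, F p = ∑' i, A i * exp (s * B i) := by
    rw [hFs.tsum_prod]
    refine tsum_congr fun i => ?_
    exact ((hexp (s * B i)).mul_left (A i)).tsum_eq
  have h2 : HasSum (fun a : ℕ => ∑' i, F (i, a)) (∑' p, F p) := by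
    have h3 : HasSum (F ∘ Equiv.prodComm ℕ ι) (∑' p, F p) :=
      (Equiv.hasSum_iff (Equiv.prodComm ℕ ι)).2 hFs.hasSum
    exact h3.prod_fiberwise fun a => ((hFs.prod_symm).prod_factor a).hasSum
  rw [← h1]
  refine h2.congr_fun fun a => ?_
  rw [div_mul_eq_mul_div, ← tsum_mul_right, ← tsum_div_const]
  refine tsum_congr fun i => ?_
  rw [hF]; dsimp only
  rw [mul_pow]; ring

lemma coeff_cmp {ι κ : Type*} {A B : ι → ℂ} {A' B' : κ → ℂ}
    (hs : ∀ R : ℝ, Summable fun i => ‖A i‖ * Real.exp (R * ‖B i‖))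
    (hs' : ∀ R : ℝ, Summable fun i => ‖A' i‖ * Real.exp (R * ‖B' i‖))
    (h : ∀ s : ℂ, ∑' i, A i * exp (s * B i) = ∑' i, A' i * exp (s * B' i)) (a : ℕ) :
    ∑' i, A i * B i ^ a = ∑' i, A' i * B' i ^ a := by
  have h1 := hasSum_exp_series hs
  have h2 := hasSum_exp_series hs'
  have h3 := pow_unique (f := fun s => ∑' i, A i * exp (s * B i)) h1
    (fun s => by rw [h]; exact h2 s) a
  have h4 : ((a ! : ℕ) : ℂ) ≠ 0 := by exact_mod_cast a.factorial_ne_zero
  field_simp at h3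
  exact h3

variable {A B C : ℤ} {τ : ℂ}

lemma norm_lin_le (x y l1 l2 : ℂ) (u : ℤ × ℤ) :
    ‖l1 * (x + u.1) + l2 * (y + u.2)‖ ≤
      (‖l1 * x + l2 * y‖) + (‖l1‖ + ‖l2‖) * (|(u.1 : ℝ)| + |(u.2 : ℝ)|) := by
  have h1 : l1 * (x + u.1) + l2 * (y + u.2) = (l1 * x + l2 * y) + (l1 * u.1 + l2 * u.2) := by ring
  rw [h1]
  refine (norm_add_le _ _).trans (add_le_add_right ?_ _)
  refine (norm_add_le _ _).trans ?_
  rw [norm_mul, norm_mul, Complex.norm_intCast, Complex.norm_intCast]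
  nlinarith [norm_nonneg l1, norm_nonneg l2, abs_nonneg (u.1 : ℝ), abs_nonneg (u.2 : ℝ)]

/-- exponential weights do not spoil summability -/
lemma summable_weight {F : ℤ × ℤ → ℂ} {G : ℤ × ℤ → ℂ} {c0 c1 : ℝ} (hc1 : 0 ≤ c1)
    (hF : ∀ R : ℝ, Summable fun u : ℤ × ℤ => ‖F u‖ * Real.exp (R * (|(u.1 : ℝ)| + |(u.2 : ℝ)|)))
    (hG : ∀ u, ‖G u‖ ≤ c0 + c1 * (|(u.1 : ℝ)| + |(u.2 : ℝ)|)) (R : ℝ) :
    Summable fun u => ‖F u‖ * Real.exp (R * ‖G u‖) := by
  refine Summable.of_nonneg_of_le (fun _ => by positivity) (fun u => ?_)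
    ((hF (|R| * c1)).mul_left (Real.exp (|R| * c0)))
  rw [mul_left_comm, ← Real.exp_add]
  refine mul_le_mul_of_nonneg_left (Real.exp_le_exp.2 ?_) (norm_nonneg _)
  calc R * ‖G u‖ ≤ |R| * ‖G u‖ := mul_le_mul_of_nonneg_right (le_abs_self R) (norm_nonneg _)
    _ ≤ |R| * (c0 + c1 * (|(u.1 : ℝ)| + |(u.2 : ℝ)|)) :=
        mul_le_mul_of_nonneg_left (hG u) (abs_nonneg R)
    _ = |R| * c0 + |R| * c1 * (|(u.1 : ℝ)| + |(u.2 : ℝ)|) := by ring

lemma Qc_shift {m1 m2 : ℂ} (hm : Qc A B C m1 m2 = 0) (x y s : ℂ) :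
    Qc A B C (x + s * m1) (y + s * m2) =
      Qc A B C x y + s * ((2 * A * m1 + B * m2) * x + (B * m1 + 2 * C * m2) * y) := by
  have h : s ^ 2 * Qc A B C m1 m2 = 0 := by rw [hm, mul_zero]
  simp only [Qc] at h ⊢
  linear_combination h

/-- **Poisson summation with a spherical polynomial** `λ^a`, `λ = b(μ, ·)`, `Q(μ) = 0`. -/
theorem poisson_spher (hA : 0 < A) (hD : 0 < 4 * A * C - B ^ 2) (hτ : 0 < τ.im)
    {m1 m2 : ℂ} (hm : Qc A B C m1 m2 = 0) (x y : ℂ) (a : ℕ) :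
    τ ^ a * ∑' u : ℤ × ℤ, ee (τ * Qc A B C (x + u.1) (y + u.2)) *
      ((2 * A * m1 + B * m2) * (x + u.1) + (B * m1 + 2 * C * m2) * (y + u.2)) ^ a =
      1 / (-I * τ * Real.sqrt (4 * A * C - B ^ 2)) * ∑' n : ℤ × ℤ,
        ee (n.1 * x + n.2 * y - Qc C (-B) A n.1 n.2 / ((4 * A * C - B ^ 2) * τ)) *
          (n.1 * m1 + n.2 * m2) ^ a := by
  set K : ℂ := 1 / (-I * τ * Real.sqrt (4 * A * C - B ^ 2)) with hK
  set l1 : ℂ := 2 * A * m1 + B * m2 with hl1
  set l2 : ℂ := B * m1 + 2 * C * m2 with hl2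
  set F : ℤ × ℤ → ℂ := fun u => ee (τ * Qc A B C (x + u.1) (y + u.2)) with hF
  set G : ℤ × ℤ → ℂ := fun u => (2 * π * I * τ) * (l1 * (x + u.1) + l2 * (y + u.2)) with hG
  set F' : ℤ × ℤ → ℂ := fun n => K *
    ee (n.1 * x + n.2 * y - Qc C (-B) A n.1 n.2 / ((4 * A * C - B ^ 2) * τ)) with hF'
  set G' : ℤ × ℤ → ℂ := fun n => (2 * π * I) * (n.1 * m1 + n.2 * m2) with hG'
  have key := coeff_cmp (A := F) (B := G) (A' := F') (B' := G') ?_ ?_ ?_ a
  · have h0 : (2 * π * I : ℂ) ^ a ≠ 0 := pow_ne_zero _ Complex.two_pi_I_ne_zero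
    have h1 : ∑' u, F u * G u ^ a = (2 * π * I : ℂ) ^ a *
        (τ ^ a * ∑' u : ℤ × ℤ, F u * (l1 * (x + u.1) + l2 * (y + u.2)) ^ a) := by
      rw [← mul_assoc, ← tsum_mul_left]
      refine tsum_congr fun u => ?_
      rw [hG]; dsimp only
      rw [mul_pow, mul_pow]; ring
    have h2 : ∑' n, F' n * G' n ^ a = (2 * π * I : ℂ) ^ a * (K * ∑' n : ℤ × ℤ,
        ee (n.1 * x + n.2 * y - Qc C (-B) A n.1 n.2 / ((4 * A * C - B ^ 2) * τ)) *
          (n.1 * m1 + n.2 * m2) ^ a) := by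
      rw [← mul_assoc, ← tsum_mul_left]
      refine tsum_congr fun u => ?_
      rw [hG', hF']; dsimp only
      rw [mul_pow]; ring
    rw [h1, h2] at key
    exact mul_left_cancel₀ h0 key
  · refine summable_weight (c0 := ‖2 * π * I * τ‖ * ‖l1 * x + l2 * y‖)
      (c1 := ‖2 * π * I * τ‖ * (‖l1‖ + ‖l2‖)) (by positivity)
      (fun R => summable_Q hA hD hτ x y R) (fun u => ?_)
    rw [hG]; dsimp only
    rw [norm_mul, mul_assoc ‖2 * π * I * τ‖, ← mul_add]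
    exact mul_le_mul_of_nonneg_left (norm_lin_le x y l1 l2 u) (norm_nonneg _)
  · refine summable_weight (c0 := 0)
      (c1 := ‖(2 * π * I : ℂ)‖ * (‖m1‖ + ‖m2‖)) (by positivity)
      (fun R => ?_) (fun u => ?_)
    · refine ((summable_Qd hA hD hτ x y R).mul_left ‖K‖).congr fun n => ?_
      rw [hF']; dsimp only
      rw [norm_mul, mul_assoc ‖K‖]
    · have h1 := norm_lin_le 0 0 m1 m2 u
      rw [hG']; dsimp only
      rw [norm_mul, zero_add, mul_assoc ‖2 * π * I‖]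
      refine mul_le_mul_of_nonneg_left ?_ (norm_nonneg _)
      simpa [mul_comm] using h1
  · intro s
    have hp := poisson2 hA hD hτ (x + s * m1) (y + s * m2)
    have h1 : ∀ u : ℤ × ℤ, ee (τ * Qc A B C (x + s * m1 + u.1) (y + s * m2 + u.2)) =
        F u * exp (s * G u) := by
      intro u
      have e1 : x + s * m1 + u.1 = (x + u.1) + s * m1 := by ring
      have e2 : y + s * m2 + u.2 = (y + u.2) + s * m2 := by ring
      rw [e1, e2, Qc_shift hm, hF, hG]; dsimp only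
      rw [ee, ee, ← Complex.exp_add, ← hl1, ← hl2]
      congr 1; ring
    have h2 : ∀ n : ℤ × ℤ, F' n * exp (s * G' n) = K *
        ee (n.1 * (x + s * m1) + n.2 * (y + s * m2) -
          Qc C (-B) A n.1 n.2 / ((4 * A * C - B ^ 2) * τ)) := by
      intro n
      rw [hF', hG']; dsimp only
      rw [ee, ee, mul_assoc, ← Complex.exp_add]
      congr 2; ring
    rw [tsum_congr h1] at hp
    rw [hp, tsum_congr h2, tsum_mul_left]

/-- summability of the theta series -/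
lemma summable_theta (hA : 0 < A) (hD : 0 < 4 * A * C - B ^ 2) (hτ : 0 < τ.im) (x y l1 l2 : ℂ)
    (a : ℕ) : Summable fun u : ℤ × ℤ => ‖ee (τ * Qc A B C (x + u.1) (y + u.2)) *
      (l1 * (x + u.1) + l2 * (y + u.2)) ^ a‖ := by
  have h1 := summable_weight (F := fun u : ℤ × ℤ => ee (τ * Qc A B C (x + u.1) (y + u.2)))
    (G := fun u => l1 * (x + u.1) + l2 * (y + u.2)) (c0 := ‖l1 * x + l2 * y‖)
    (c1 := (‖l1‖ + ‖l2‖)) (by positivity)
      (fun R => summable_Q hA hD hτ x y R) (fun u => norm_lin_le x y l1 l2 u) 1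
  refine Summable.of_nonneg_of_le (fun _ => norm_nonneg _) (fun u => ?_)
    (h1.mul_left (a ! : ℝ))
  rw [norm_mul, norm_pow, mul_left_comm]
  refine mul_le_mul_of_nonneg_left ?_ (norm_nonneg _)
  rw [one_mul]
  have h2 := Real.pow_div_factorial_le_exp ‖l1 * (x + u.1) + l2 * (y + u.2)‖ (norm_nonneg _) a
  have h3 : (0 : ℝ) < a ! := by exact_mod_cast a.factorial_pos
  rwa [div_le_iff₀ h3, mul_comm (Real.exp _)] at h2

end

end Vale.Agent.P022.H390
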