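import Vale.Agent.P022.H390.PS
import Vale.Agent.P022.H390.Spher

/-!
# P022: functions given by convergent `q`-series; regrouping
-/

namespace Vale.Agent.P022.H390

open UpperHalfPlane ModularForm CongruenceSubgroup Matrix.SpecialLinearGroup
open scoped MatrixGroups ModularForm Manifold Real

noncomputable section

lemma exists_qq {q : ℂ} (h0 : q ≠ 0) (h1 : ‖q‖ < 1) : ∃ z : ℍ, qq z = q :=
  ⟨⟨Function.Periodic.invQParam 1 q,
    Function.Periodic.im_invQParam_pos_of_norm_lt_one one_pos h1 h0⟩,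
    Function.Periodic.qParam_right_inv one_ne_zero h0⟩

variable {c : ℕ → ℂ} {f : ℍ → ℂ}

lemma hasSum_disc (hf : ∀ z : ℍ, HasSum (fun m : ℕ => c m * qq z ^ m) (f z)) {q : ℂ}
    (h1 : ‖q‖ < 1) : HasSum (fun m : ℕ => c m * q ^ m) (∑' m : ℕ, c m * q ^ m) := by
  by_cases h0 : q = 0
  · subst h0
    refine (hasSum_single 0 fun m hm => ?_).summable.hasSum
    rw [zero_pow hm, mul_zero]
  · obtain ⟨z, rfl⟩ := exists_qq h0 h1
    exact (hf z).summable.hasSum

lemma hasFPS_disc (hf : ∀ z : ℍ, HasSum (fun m : ℕ => c m * qq z ^ m) (f z)) :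
    HasFPowerSeriesOnBall (fun q => ∑' m : ℕ, c m * q ^ m) (.ofScalars ℂ c) 0 1 := by
  constructor
  · refine le_of_forall_lt_imp_le_of_dense fun r hr ↦ ?_
    lift r to NNReal using hr.ne_top
    apply FormalMultilinearSeries.le_radius_of_summable
    have hr1 : ‖((r : ℝ) : ℂ)‖ < 1 := by simpa using hr
    simpa [smul_eq_mul, norm_mul, mul_comm, mul_left_comm, mul_assoc] using
        (hasSum_disc hf hr1).summable.norm
  · simp
  · intro y hy
    rw [← ENNReal.coe_one, Metric.eball_coe, NNReal.coe_one, mem_ball_zero_iff] at hy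
    simpa [mul_comm] using hasSum_disc hf hy

lemma mdiff_of_hasSum (hf : ∀ z : ℍ, HasSum (fun m : ℕ => c m * qq z ^ m) (f z)) : MDiff f := by
  rw [UpperHalfPlane.mdifferentiable_iff]
  have h1 : DifferentiableOn ℂ (fun q => ∑' m : ℕ, c m * q ^ m) (Metric.ball 0 1) := by
    have := (hasFPS_disc hf).differentiableOn
    rwa [← ENNReal.coe_one, Metric.eball_coe, NNReal.coe_one] at this
  have h2 : DifferentiableOn ℂ (fun w : ℂ => ∑' m : ℕ, c m * (qq w) ^ m) upperHalfPlaneSet := by
    refine h1.comp (f := fun w : ℂ => qq w)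
      (Function.Periodic.differentiable_qParam (h := 1)).differentiableOn ?_
    intro w hw
    rw [mem_ball_zero_iff]
    exact Function.Periodic.norm_qParam_lt_one one_pos hw
  refine h2.congr fun w hw => ?_
  rw [Function.comp_apply, ofComplex_apply_of_im_pos hw]
  exact (hf ⟨w, hw⟩).tsum_eq.symm

lemma good_of_hasSum (hf : ∀ z : ℍ, HasSum (fun m : ℕ => c m * qq z ^ m) (f z)) : Good 1 f where
  per := by
    apply periodic_of_T
    intro z
    have h1 : qq (((1 : ℝ) +ᵥ z : ℍ) : ℂ) = qq z := by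
      rw [UpperHalfPlane.coe_vadd, qq_eq, qq_eq]
      have : 2 * π * Complex.I * (((1 : ℝ) : ℂ) + z) =
        2 * π * Complex.I * z + 2 * π * Complex.I := by push_cast; ring
      rw [this, Complex.exp_add, Complex.exp_two_pi_mul_I, mul_one]
    have h2 := hf ((1 : ℝ) +ᵥ z)
    rw [h1] at h2
    exact h2.unique (hf z)
  holo := mdiff_of_hasSum hf
  bdd := isBoundedAtImInfty_of_hasSum_qExpansion one_pos hf

lemma hasSum_regroup {ι : Type*} {P : ι → ℕ} {c : ι → ℂ} {q s : ℂ} (hq : q ≠ 0)
    (hf : HasSum (fun v => c v * q ^ (P v)) s) :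
    HasSum (fun m : ℕ => (∑' v : {v // P v = m}, c v) * q ^ m) s := by
  have h1 : HasSum ((fun v => c v * q ^ (P v)) ∘ Equiv.sigmaFiberEquiv P) s :=
    (Equiv.hasSum_iff _).2 hf
  refine h1.sigma fun m => ?_
  have h2 : Summable fun v : {v // P v = m} => c v * q ^ m := by
    refine (hf.summable.comp_injective (i := fun v : {v // P v = m} => (v : ι))
      Subtype.val_injective).congr fun v => ?_
    rw [Function.comp_apply, v.2]
  have h3 : Summable fun v : {v // P v = m} => c v := by
    refine (h2.mul_right (q ^ m)⁻¹).congr fun v => ?_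
    rw [mul_assoc, mul_inv_cancel₀ (pow_ne_zero _ hq), mul_one]
  refine (h3.hasSum.mul_right (q ^ m)).congr_fun fun v => ?_
  change c v * q ^ (P v) = c v * q ^ m
  rw [v.2]

end

end Vale.Agent.P022.H390
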