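import Vale.Agent.P022.H390.Spher

/-!
# P022: sums over residue classes and the general inversion formula
-/

namespace Vale.Agent.P022.H390

open scoped Real Nat
open Complex (I exp)

noncomputable section

/-- `g` is periodic modulo `P`. -/
def Per (P : ℕ) (g : ℤ × ℤ → ℂ) : Prop := ∀ v w : ℤ × ℤ, g (v.1 + P * w.1, v.2 + P * w.2) = g v

/-- representatives modulo `P` -/
def rp {P : ℕ} (w : ZMod P × ZMod P) : ℤ × ℤ := ((w.1.val : ℤ), (w.2.val : ℤ))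

/-- sum over a complete residue system modulo `P` -/
def SP (P : ℕ) [NeZero P] (g : ℤ × ℤ → ℂ) : ℂ := ∑ w : ZMod P × ZMod P, g (rp w)

variable {P : ℕ} [NeZero P] {g : ℤ × ℤ → ℂ}

lemma exists_rp (v : ℤ × ℤ) : ∃ u : ℤ × ℤ,
    v = ((rp ((v.1 : ZMod P), (v.2 : ZMod P))).1 + P * u.1,
      (rp ((v.1 : ZMod P), (v.2 : ZMod P))).2 + P * u.2) := by
  refine ⟨(v.1 / P, v.2 / P), ?_⟩
  simp only [rp, ZMod.val_intCast]
  rw [Int.emod_add_mul_ediv, Int.emod_add_mul_ediv]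

lemma Per.eq_rp (hg : Per P g) (v : ℤ × ℤ) : g (rp ((v.1 : ZMod P), (v.2 : ZMod P))) = g v := by
  obtain ⟨u, hu⟩ := exists_rp (P := P) v
  conv_rhs => rw [hu]
  exact (hg _ _).symm

omit [NeZero P] in
lemma Per.of_dvd {Q : ℕ} (hg : Per P g) (h : P ∣ Q) : Per Q g := by
  obtain ⟨k, rfl⟩ := h
  intro v w
  have := hg v (k * w.1, k * w.2)
  rw [← this]
  congr 2 <;> (push_cast; ring)

/-- shift invariance -/
lemma SP_shift (hg : Per P g) (w0 : ℤ × ℤ) : SP P (fun v => g (v.1 + w0.1, v.2 + w0.2)) = SP P g := by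
  rw [SP, SP, ← Equiv.sum_comp (Equiv.addRight (((w0.1 : ZMod P), (w0.2 : ZMod P)) :
    ZMod P × ZMod P)) (fun w => g (rp w))]
  refine Finset.sum_congr rfl fun w _ => ?_
  rw [← hg.eq_rp]
  congr 2
  simp [rp]
  rfl

lemma SP_congr {g g' : ℤ × ℤ → ℂ} (h : ∀ v, g v = g' v) : SP P g = SP P g' := by
  rw [SP, SP]; exact Finset.sum_congr rfl fun w _ => h _

lemma SP_mul_left (c : ℂ) : SP P (fun v => c * g v) = c * SP P g := by
  rw [SP, SP, Finset.mul_sum]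

/-- the bijection `(residue, quotient)` -/
def eqRes (P : ℕ) [NeZero P] : (ZMod P × ZMod P) × (ℤ × ℤ) ≃ ℤ × ℤ where
  toFun p := ((rp p.1).1 + P * p.2.1, (rp p.1).2 + P * p.2.2)
  invFun v := (((v.1 : ZMod P), (v.2 : ZMod P)), (v.1 / P, v.2 / P))
  left_inv := by
    rintro ⟨⟨w1, w2⟩, ⟨u1, u2⟩⟩
    have hP : (0 : ℤ) < P := by exact_mod_cast (NeZero.pos P)
    have h1 : ∀ w : ZMod P, (w.val : ℤ) / P = 0 := fun w =>
      Int.ediv_eq_zero_of_lt (by positivity) (by exact_mod_cast ZMod.val_lt w)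
    simp only [rp, Prod.mk.injEq]
    refine ⟨⟨by simp, by simp⟩, ?_, ?_⟩
    · rw [Int.add_mul_ediv_left _ _ hP.ne', h1, zero_add]
    · rw [Int.add_mul_ediv_left _ _ hP.ne', h1, zero_add]
  right_inv := by
    intro v
    simp only [rp, ZMod.val_intCast]
    rw [Int.emod_add_mul_ediv, Int.emod_add_mul_ediv]

lemma tsum_res {f : ℤ × ℤ → ℂ} (hf : Summable f) :
    ∑' v, f v = ∑ w : ZMod P × ZMod P, ∑' u : ℤ × ℤ, f ((rp w).1 + P * u.1, (rp w).2 + P * u.2) := by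
  have h1 : Summable (f ∘ eqRes P) := (Equiv.summable_iff _).2 hf
  rw [← (eqRes P).tsum_eq f]
  change ∑' p, (f ∘ eqRes P) p = _
  rw [h1.tsum_prod, tsum_fintype]
  rfl

/-- bounded -/
lemma Per.bdd (hg : Per P g) : ∃ K : ℝ, ∀ v, ‖g v‖ ≤ K := by
  refine ⟨∑ w : ZMod P × ZMod P, ‖g (rp w)‖, fun v => ?_⟩
  rw [← hg.eq_rp]
  exact Finset.single_le_sum (f := fun w : ZMod P × ZMod P => ‖g (rp w)‖)
    (fun _ _ => norm_nonneg _) (Finset.mem_univ _)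

variable {A B C : ℤ} {τ : ℂ}

/-- the theta series -/
def Th (A B C : ℤ) (l1 l2 : ℂ) (a : ℕ) (h : ℤ × ℤ → ℂ) (τ : ℂ) : ℂ :=
  ∑' v : ℤ × ℤ, h v * (l1 * v.1 + l2 * v.2) ^ a * ee (τ * Qc A B C v.1 v.2)

lemma summable_Th (hA : 0 < A) (hD : 0 < 4 * A * C - B ^ 2) (hτ : 0 < τ.im) (l1 l2 : ℂ) (a : ℕ)
    {h : ℤ × ℤ → ℂ} (hh : Per P h) : Summable fun v : ℤ × ℤ =>
      h v * (l1 * v.1 + l2 * v.2) ^ a * ee (τ * Qc A B C v.1 v.2) := by
  obtain ⟨K, hK⟩ := hh.bdd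
  refine Summable.of_norm_bounded ((summable_theta hA hD hτ 0 0 l1 l2 a).mul_left K) fun v => ?_
  rw [zero_add, zero_add, mul_assoc, norm_mul, mul_comm (ee _)]
  exact mul_le_mul_of_nonneg_right (hK v) (norm_nonneg _)

/-- finite Fourier transform -/
def FT (P : ℕ) [NeZero P] (h : ℤ × ℤ → ℂ) (n : ℤ × ℤ) : ℂ :=
  SP P (fun w => h w * ee ((n.1 * w.1 + n.2 * w.2) / P))

lemma summable_dual (hA : 0 < A) (hD : 0 < 4 * A * C - B ^ 2) (hτ : 0 < τ.im) (m1 m2 : ℂ) (a : ℕ)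
    (x y : ℂ) : Summable fun n : ℤ × ℤ =>
      ee (n.1 * x + n.2 * y - Qc C (-B) A n.1 n.2 / ((4 * A * C - B ^ 2) * τ)) *
          (n.1 * m1 + n.2 * m2) ^ a := by
  have h1 := summable_weight
    (F := fun n : ℤ × ℤ => ee (n.1 * x + n.2 * y - Qc C (-B) A n.1 n.2 /
      ((4 * A * C - B ^ 2) * τ)))
    (G := fun u => m1 * (0 + u.1) + m2 * (0 + u.2)) (c0 := ‖m1 * 0 + m2 * 0‖)
    (c1 := (‖m1‖ + ‖m2‖)) (by positivity)
      (fun R => summable_Qd hA hD hτ x y R) (fun u => norm_lin_le 0 0 m1 m2 u) 1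
  refine Summable.of_norm_bounded (h1.mul_left (a ! : ℝ)) (fun u => ?_)
  rw [norm_mul, norm_pow, mul_left_comm]
  refine mul_le_mul_of_nonneg_left ?_ (norm_nonneg _)
  rw [one_mul]
  have e : m1 * (0 + (u.1 : ℂ)) + m2 * (0 + u.2) = u.1 * m1 + u.2 * m2 := by ring
  rw [e]
  have h2 := Real.pow_div_factorial_le_exp ‖u.1 * m1 + u.2 * m2‖ (norm_nonneg _) a
  have h3 : (0 : ℝ) < a ! := by exact_mod_cast a.factorial_pos
  rwa [div_le_iff₀ h3, mul_comm (Real.exp _)] at h2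

/-- **general inversion formula** -/
theorem Th_inv (hA : 0 < A) (hD : 0 < 4 * A * C - B ^ 2) (hτ : 0 < τ.im)
    {m1 m2 : ℂ} (hm : Qc A B C m1 m2 = 0) (a : ℕ) {h : ℤ × ℤ → ℂ} (hh : Per P h) :
    τ ^ (a + 1) * Th A B C (2 * A * m1 + B * m2) (B * m1 + 2 * C * m2) a h τ =
      I / (Real.sqrt (4 * A * C - B ^ 2) * P ^ (a + 2)) * ∑' n : ℤ × ℤ,
        FT P h n * (n.1 * m1 + n.2 * m2) ^ a *
          ee (-(Qc C (-B) A n.1 n.2 / ((4 * A * C - B ^ 2) * (P ^ 2 * τ)))) := by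
  have hD' : (0 : ℝ) < 4 * A * C - B ^ 2 := by exact_mod_cast hD
  have hP : (P : ℂ) ≠ 0 := by exact_mod_cast (NeZero.ne P)
  have hτ0 : τ ≠ 0 := by rintro rfl; simp at hτ
  have hsq : ((Real.sqrt (4 * A * C - B ^ 2) : ℝ) : ℂ) ≠ 0 := by
    exact_mod_cast (Real.sqrt_pos.2 hD').ne'
  set l1 : ℂ := 2 * A * m1 + B * m2 with hl1
  set l2 : ℂ := B * m1 + 2 * C * m2 with hl2
  have hPτ : 0 < ((P : ℂ) ^ 2 * τ).im := by
    have e : ((P : ℂ) ^ 2 * τ) = (((P : ℝ) ^ 2 : ℝ) : ℂ) * τ := by push_cast; ring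
    rw [e, Complex.im_ofReal_mul]
    have : (0 : ℝ) < P := by exact_mod_cast (NeZero.pos P)
    positivity
  -- the inner sums
  have inner : ∀ w : ZMod P × ZMod P,
      ∑' u : ℤ × ℤ, h ((rp w).1 + P * u.1, (rp w).2 + P * u.2) *
        (l1 * (((rp w).1 + P * u.1 : ℤ) : ℂ) + l2 * (((rp w).2 + P * u.2 : ℤ) : ℂ)) ^ a *
        ee (τ * Qc A B C (((rp w).1 + P * u.1 : ℤ) : ℂ) (((rp w).2 + P * u.2 : ℤ) : ℂ)) =
      h (rp w) * (P : ℂ) ^ a * ∑' u : ℤ × ℤ,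
        ee ((P : ℂ) ^ 2 * τ * Qc A B C ((rp w).1 / P + u.1) ((rp w).2 / P + u.2)) *
        (l1 * ((rp w).1 / P + u.1) + l2 * ((rp w).2 / P + u.2)) ^ a := by
    intro w
    rw [← tsum_mul_left]
    refine tsum_congr fun u => ?_
    rw [hh]
    have e1 : (l1 * (((rp w).1 + P * u.1 : ℤ) : ℂ) + l2 * (((rp w).2 + P * u.2 : ℤ) : ℂ)) =
        P * (l1 * ((rp w).1 / P + u.1) + l2 * ((rp w).2 / P + u.2)) := by
      push_cast; field_simp
    have e2 : τ * Qc A B C (((rp w).1 + P * u.1 : ℤ) : ℂ) (((rp w).2 + P * u.2 : ℤ) : ℂ) =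
        (P : ℂ) ^ 2 * τ * Qc A B C ((rp w).1 / P + u.1) ((rp w).2 / P + u.2) := by
      rw [Qc, Qc]; push_cast; field_simp
    rw [e1, e2, mul_pow]
    ring
  have hsum : Th A B C l1 l2 a h τ = ∑ w : ZMod P × ZMod P, h (rp w) * (P : ℂ) ^ a *
      ∑' u : ℤ × ℤ, ee ((P : ℂ) ^ 2 * τ * Qc A B C ((rp w).1 / P + u.1) ((rp w).2 / P + u.2)) *
        (l1 * ((rp w).1 / P + u.1) + l2 * ((rp w).2 / P + u.2)) ^ a := by
    rw [Th, tsum_res (P := P) (summable_Th hA hD hτ l1 l2 a hh)]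
    exact Finset.sum_congr rfl fun w _ => inner w
  have hps : ∀ w : ZMod P × ZMod P, τ ^ (a + 1) * (h (rp w) * (P : ℂ) ^ a *
      ∑' u : ℤ × ℤ, ee ((P : ℂ) ^ 2 * τ * Qc A B C ((rp w).1 / P + u.1) ((rp w).2 / P + u.2)) *
        (l1 * ((rp w).1 / P + u.1) + l2 * ((rp w).2 / P + u.2)) ^ a) =
      I / (Real.sqrt (4 * A * C - B ^ 2) * P ^ (a + 2)) * (h (rp w) * ∑' n : ℤ × ℤ,
        ee (n.1 * ((rp w).1 / P) + n.2 * ((rp w).2 / P) -
          Qc C (-B) A n.1 n.2 / ((4 * A * C - B ^ 2) * ((P : ℂ) ^ 2 * τ))) *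
            (n.1 * m1 + n.2 * m2) ^ a) := by
    intro w
    have h1 := poisson_spher hA hD hPτ hm ((rp w).1 / P) ((rp w).2 / P) a
    rw [← hl1, ← hl2] at h1
    set X := ∑' u : ℤ × ℤ, ee ((P : ℂ) ^ 2 * τ * Qc A B C ((rp w).1 / P + u.1)
      ((rp w).2 / P + u.2)) * (l1 * ((rp w).1 / P + u.1) + l2 * ((rp w).2 / P + u.2)) ^ a
    set Y := ∑' n : ℤ × ℤ, ee (n.1 * ((rp w).1 / P) + n.2 * ((rp w).2 / P) -
          Qc C (-B) A n.1 n.2 / ((4 * A * C - B ^ 2) * ((P : ℂ) ^ 2 * τ))) *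
            (n.1 * m1 + n.2 * m2) ^ a
    have h2 : X = (1 / (((P : ℂ) ^ 2 * τ) ^ a)) *
        (1 / (-I * (↑P ^ 2 * τ) * Real.sqrt (4 * A * C - B ^ 2)) * Y) := by
      rw [← h1]; field_simp
    rw [h2]
    have hI : (1 : ℂ) / (-I * (↑P ^ 2 * τ) * Real.sqrt (4 * A * C - B ^ 2)) =
        I / ((↑P ^ 2 * τ) * Real.sqrt (4 * A * C - B ^ 2)) := by
      rw [div_eq_div_iff (by
        simp only [ne_eq, mul_eq_zero, neg_eq_zero, Complex.I_ne_zero, not_or]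
        exact ⟨⟨by simp, pow_ne_zero _ hP, hτ0⟩, hsq⟩)
        (mul_ne_zero (mul_ne_zero (pow_ne_zero _ hP) hτ0) hsq)]
      linear_combination ((P : ℂ) ^ 2 * τ * (Real.sqrt (4 * A * C - B ^ 2) : ℝ)) * Complex.I_mul_I
    rw [hI]
    rw [mul_pow, pow_succ τ a, pow_add (P : ℂ) a 2]
    field_simp
    rw [← pow_mul, ← pow_mul, mul_comm a 2]
  rw [hsum, Finset.mul_sum, Finset.sum_congr rfl fun w _ => hps w, ← Finset.mul_sum]
  congr 1
  simp_rw [← tsum_mul_left]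
  rw [← Summable.tsum_finsetSum]
  · refine tsum_congr fun n => ?_
    rw [FT, SP, Finset.sum_mul, Finset.sum_mul]
    refine Finset.sum_congr rfl fun w _ => ?_
    have e : n.1 * ((rp w).1 / P : ℂ) + n.2 * ((rp w).2 / P) -
          Qc C (-B) A n.1 n.2 / ((4 * A * C - B ^ 2) * ((P : ℂ) ^ 2 * τ)) =
        (n.1 * (rp w).1 + n.2 * (rp w).2) / P +
          -(Qc C (-B) A n.1 n.2 / ((4 * A * C - B ^ 2) * ((P : ℂ) ^ 2 * τ))) := by ring
    rw [e, ee_add]; ring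
  · intro w _
    exact (summable_dual hA hD hPτ m1 m2 a _ _).mul_left _

end

end Vale.Agent.P022.H390
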