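import Vale.Agent.P022.H390.ThTrans

/-!
# P022: evaluation of the quadratic Gauss sums
-/

namespace Vale.Agent.P022.H390

open UpperHalfPlane hiding I
open ModularForm CongruenceSubgroup Matrix.SpecialLinearGroup
open scoped MatrixGroups ModularForm Manifold Real Nat NumberTheorySymbols
open Complex (I exp)
open Polynomial (aeval)

noncomputable section

lemma exists_sum_pow_prime {R ι : Type*} [CommRing R] {p : ℕ} (hp : p.Prime) (s : Finset ι)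
    (x : ι → R) : ∃ r, (∑ i ∈ s, x i) ^ p = ∑ i ∈ s, x i ^ p + p * r := by
  classical
  induction s using Finset.induction_on with
  | empty => exact ⟨0, by simp [hp.ne_zero]⟩
  | insert i s hi ih =>
    obtain ⟨r, hr⟩ := ih
    obtain ⟨r', hr'⟩ := exists_add_pow_prime_eq hp (x i) (∑ i ∈ s, x i)
    refine ⟨r + x i * (∑ i ∈ s, x i) * r', ?_⟩
    rw [Finset.sum_insert hi, Finset.sum_insert hi, hr', hr]
    ring

lemma dvd_of_integral {n ℓ : ℤ} (hℓ : ℓ ≠ 0) {s : ℂ} (hs : IsIntegral ℤ s)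
    (h : (n : ℂ) = ℓ * s) : ℓ ∣ n := by
  have hℓ' : (ℓ : ℂ) ≠ 0 := by exact_mod_cast hℓ
  have h1 : s = algebraMap ℚ ℂ ((n : ℚ) / ℓ) := by
    rw [map_div₀, map_intCast, map_intCast, h]; field_simp
  rw [h1, isIntegral_algebraMap_iff (algebraMap ℚ ℂ).injective] at hs
  obtain ⟨y, hy⟩ := IsIntegrallyClosed.isIntegral_iff.1 hs
  refine ⟨y, ?_⟩
  have hℓq : (ℓ : ℚ) ≠ 0 := by exact_mod_cast hℓ
  rw [eq_div_iff hℓq] at hy
  have : (n : ℚ) = ((ℓ * y : ℤ) : ℚ) := by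
    push_cast
    rw [← hy, mul_comm]
    rfl
  exact_mod_cast this

/-- the reciprocity law in the form needed -/
lemma jacobi_recip {D ℓ : ℕ} (hD : D % 4 = 3) (hℓ : Odd ℓ) : J(-(D : ℤ) | ℓ) = J(ℓ | D) := by
  have hDo : Odd D := by rw [Nat.odd_iff]; omega
  rw [jacobiSym.neg _ hℓ]
  rcases Nat.odd_mod_four_iff.mp (Nat.odd_iff.mp hℓ) with h | h
  · rw [ZMod.χ₄_nat_one_mod_four h, one_mul, jacobiSym.quadratic_reciprocity_one_mod_four h hDo]
  · rw [ZMod.χ₄_nat_three_mod_four h, jacobiSym.quadratic_reciprocity_three_mod_four hD h]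
    ring

namespace QD

variable {q : QD} {M c : ℕ} [NeZero M] [NeZero c] {h g : ℤ × ℤ → ℂ} {α δ : ℤ}

/-- the weight-one theta series without characters -/
def t0 (q : QD) : ℍ → ℂ := q.tf 0 (fun _ => 1)

lemma per_one : Per 1 (fun _ : ℤ × ℤ => (1 : ℂ)) := fun _ _ => rfl

lemma t0_inv {c : ℕ} (hDc : q.D ∣ c) {τ τ' : ℂ} (hτ : 0 < τ.im) (hτ' : 0 < τ'.im)
    (h : -1 / τ' = -1 / τ - c) :
    τ' * Th q.A q.B q.C (2 * q.A * q.m1 + q.B * q.m2) (q.B * q.m1 + 2 * q.C * q.m2) 0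
        (fun _ => 1) τ' =
      τ * Th q.A q.B q.C (2 * q.A * q.m1 + q.B * q.m2) (q.B * q.m1 + 2 * q.C * q.m2) 0
        (fun _ => 1) τ := by
  obtain ⟨k, hk⟩ := hDc
  have hD : (q.D : ℂ) ≠ 0 := by exact_mod_cast (NeZero.ne q.D)
  have h1 := Th_inv q.hA q.hD hτ q.hm 0 per_one
  have h2 := Th_inv q.hA q.hD hτ' q.hm 0 per_one
  rw [zero_add, pow_one] at h1 h2
  rw [h1, h2]
  congr 1
  refine tsum_congr fun n => ?_
  congr 1
  have e : -(Qc q.C (-q.B) q.A n.1 n.2 / ((4 * q.A * q.C - q.B ^ 2) * (((1 : ℕ) : ℂ) ^ 2 * τ'))) =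
      -(Qc q.C (-q.B) q.A n.1 n.2 / ((4 * q.A * q.C - q.B ^ 2) * (((1 : ℕ) : ℂ) ^ 2 * τ))) +
        ((-(k * q.Qd n) : ℤ) : ℂ) := by
    have e1 : ∀ t : ℂ, -(Qc q.C (-q.B) q.A n.1 n.2 /
        ((4 * q.A * q.C - q.B ^ 2) * (((1 : ℕ) : ℂ) ^ 2 * t))) = q.Qd n / q.D * (-1 / t) := by
      intro t
      rw [q.Qcd_eq, ← q.D_eqC, Nat.cast_one, one_pow, one_mul, div_mul_div_comm]
      ring
    rw [e1, e1, h, hk]
    push_cast
    field_simp
    ring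
  rw [e, ee_add_int]

lemma t0_slash (hDc : q.D ∣ c) {γ : SL(2, ℤ)} (h00 : γ 0 0 = 1) (h01 : γ 0 1 = 0)
    (h10 : γ 1 0 = c) (h11 : γ 1 1 = 1) : q.t0 ∣[((0 + 1 : ℕ) : ℤ)] γ = q.t0 := by
  funext z
  have h1 := denom_ne γ z
  have hz : (z : ℂ) ≠ 0 := z.ne_zero
  rw [SL_slash_apply, ModularGroup.denom_apply, zpow_neg, zpow_natCast, zero_add, pow_one]
  have e1 : ((γ • z : ℍ) : ℂ) = z / (γ 1 0 * z + γ 1 1) := by
    rw [coe_smul_eq, h00, h01]; simp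
  have h2 := t0_inv (q := q) hDc (τ := z) (τ' := ((γ • z : ℍ) : ℂ)) z.im_pos (γ • z).im_pos (by
    rw [e1, h10, h11]
    rw [h10, h11] at h1
    push_cast at h1 ⊢
    field_simp
    ring)
  have e2 : q.t0 (γ • z) = (((γ • z : ℍ) : ℂ))⁻¹ * (z * q.t0 z) := by
    have hne : ((γ • z : ℍ) : ℂ) ≠ 0 := (γ • z).ne_zero
    have : ((γ • z : ℍ) : ℂ) * q.t0 (γ • z) = z * q.t0 z := h2
    rw [← this, ← mul_assoc, inv_mul_cancel₀ hne, one_mul]
  rw [e2, e1]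
  generalize (γ 1 0 : ℂ) * z + γ 1 1 = d at h1 ⊢
  generalize q.t0 z = t
  field_simp

lemma t0_ne : ∃ z : ℍ, q.t0 z ≠ 0 := by
  refine ⟨UpperHalfPlane.I, ?_⟩
  have h1 := hasSum_tf_ee (q := q) per_one 0 UpperHalfPlane.I
  have h2 : ∀ v : ℤ × ℤ, (1 : ℂ) * q.lam v ^ 0 * ee (UpperHalfPlane.I * q.Q v) =
      ((Real.exp (-(2 * π) * q.Q v) : ℝ) : ℂ) := by
    intro v
    rw [pow_zero, mul_one, one_mul, ee, Complex.ofReal_exp]
    congr 1
    push_cast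
    linear_combination (2 * π * q.Q v : ℂ) * Complex.I_mul_I
  simp_rw [h2] at h1
  have h3 := h1.tsum_eq
  have hsum : Summable fun v : ℤ × ℤ => Real.exp (-(2 * π) * q.Q v) := by
    have := h1.summable
    exact_mod_cast (Complex.summable_ofReal.1 this)
  change q.tf 0 (fun _ => 1) UpperHalfPlane.I ≠ 0
  rw [← h3, ← Complex.ofReal_tsum]
  have h4 : 0 < ∑' v : ℤ × ℤ, Real.exp (-(2 * π) * q.Q v) :=
    hsum.tsum_pos (fun _ => (Real.exp_pos _).le) 0 (Real.exp_pos _)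
  exact_mod_cast h4.ne'

lemma kap_one (hDc : q.D ^ 2 ∣ c) : q.kap 1 c = 1 := by
  set γ : SL(2, ℤ) := slMk 1 0 c 1 (by ring) with hγ
  have hdvd : (q.D * 1) ^ 2 ∣ c := by rwa [mul_one]
  have h1 := tf_slash (q := q) (M := 1) (c := c) per_one 0 γ rfl hdvd
  have h2 := t0_slash (q := q) (c := c) ((dvd_pow_self _ two_ne_zero).trans hDc)
    (γ := γ) rfl rfl rfl rfl
  obtain ⟨z, hz⟩ := t0_ne (q := q)
  have h3 : q.t0 = q.kap (γ 0 0) c • q.t0 := by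
    rw [← h2]
    conv_rhs => rw [h2]
    exact h1
  have h4 := congrFun h3 z
  rw [Pi.smul_apply, smul_eq_mul] at h4
  have h5 : (q.kap (γ 0 0) c - 1) * q.t0 z = 0 := by linear_combination -h4
  rcases mul_eq_zero.1 h5 with h6 | h6
  · have : γ 0 0 = 1 := rfl
    rw [this] at h6
    linear_combination h6
  · exact absurd h6 hz

lemma Gs_one (hDc : q.D ^ 2 ∣ c) : q.Gs 1 c = I * c * Real.sqrt q.D := by
  have h := kap_one (q := q) hDc
  have hc : (c : ℂ) ≠ 0 := by exact_mod_cast (NeZero.ne c)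
  have hsq : ((Real.sqrt q.D : ℝ) : ℂ) ≠ 0 := by
    exact_mod_cast (Real.sqrt_pos.2 (by exact_mod_cast q.D_pos)).ne'
  rw [kap, div_eq_iff (mul_ne_zero hc hsq)] at h
  linear_combination I * h + q.Gs 1 c * Complex.I_mul_I

lemma sqrt_sq : ((Real.sqrt q.D : ℝ) : ℂ) ^ 2 = q.D := by
  have : Real.sqrt q.D ^ 2 = (q.D : ℝ) := Real.sq_sqrt (Nat.cast_nonneg _)
  exact_mod_cast congrArg (fun x : ℝ => (x : ℂ)) this

/-- the primitive root -/
def zc (c : ℕ) : ℂ := ee (1 / c)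

lemma zc_prim : IsPrimitiveRoot (zc c) c := by
  have := Complex.isPrimitiveRoot_exp c (NeZero.ne c)
  rw [zc, ee]
  convert this using 2
  ring

lemma zc_pow (n : ℕ) : zc c ^ n = ee (n / c) := by
  rw [zc, ee, ee, ← Complex.exp_nat_mul]; congr 1; ring

lemma Gs_nat (m : ℕ) : q.Gs m c = ∑ w : ZMod c × ZMod c, (zc c ^ m) ^ (q.Qn (rp w)) := by
  rw [Gs, SP]
  refine Finset.sum_congr rfl fun w _ => ?_
  rw [tw, one_mul, ← pow_mul, zc_pow, ← q.Qn_eq]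
  congr 1
  push_cast; ring

/-- the polynomial -/
def Gp (q : QD) (c : ℕ) [NeZero c] : Polynomial ℤ :=
  ∑ w : ZMod c × ZMod c, Polynomial.X ^ (q.Qn (rp w))

lemma aeval_Gp (m : ℕ) : aeval (zc c ^ m) (q.Gp c) = q.Gs m c := by
  rw [Gp, map_sum, Gs_nat]
  exact Finset.sum_congr rfl fun w _ => by rw [map_pow, Polynomial.aeval_X]

lemma Gs_sq (hDc : q.D ^ 2 ∣ c) {m : ℕ} (hm : Nat.Coprime m c) :
    q.Gs m c ^ 2 = -(c ^ 2 * q.D : ℂ) := by
  have h1 : aeval (zc c) ((q.Gp c) ^ 2 + Polynomial.C ((c : ℤ) ^ 2 * q.D)) = 0 := by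
    have e := aeval_Gp (q := q) (c := c) 1
    rw [pow_one, Nat.cast_one] at e
    rw [map_add, map_pow, e, Gs_one hDc, Polynomial.aeval_C, mul_pow, mul_pow, sqrt_sq,
      Complex.I_sq]
    simp
  have hint : IsIntegral ℤ (zc c) := (zc_prim (c := c)).isIntegral (NeZero.pos c)
  have h2 := minpoly.isIntegrallyClosed_dvd hint h1
  have h3 := (zc_prim (c := c)).pow_isRoot_minpoly hm
  obtain ⟨r, hr⟩ := h2
  have h4 : aeval (zc c ^ m) ((q.Gp c) ^ 2 + Polynomial.C ((c : ℤ) ^ 2 * q.D)) = 0 := by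
    rw [hr, map_mul]
    have : aeval (zc c ^ m) (minpoly ℤ (zc c)) = 0 := by
      rw [Polynomial.IsRoot.def, Polynomial.eval_map] at h3
      exact h3
    rw [this, zero_mul]
  rw [map_add, map_pow, aeval_Gp, Polynomial.aeval_C] at h4
  have h5 : (algebraMap ℤ ℂ) ((c : ℤ) ^ 2 * q.D) = (c ^ 2 * q.D : ℂ) := by simp
  rw [h5] at h4
  linear_combination h4

/-- the value of the Gauss sum at an odd prime -/
lemma Gs_prime (hDc : q.D ^ 2 ∣ c) {ℓ : ℕ} [hℓ : Fact ℓ.Prime] (h2 : ℓ ≠ 2)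
    (hm : Nat.Coprime ℓ c) : q.Gs ℓ c = (legendreSym ℓ (-(q.D : ℤ)) : ℂ) * q.Gs 1 c := by
  set u : ℤ := -((c : ℤ) ^ 2 * q.D) with hu
  have huC : (u : ℂ) = -(c ^ 2 * q.D : ℂ) := by rw [hu]; push_cast; ring
  have hsq1 : q.Gs 1 c ^ 2 = u := by
    have := Gs_sq (q := q) hDc (Nat.coprime_one_left c)
    rw [huC]
    exact_mod_cast this
  have hsqℓ : q.Gs ℓ c ^ 2 = u := by rw [huC]; exact Gs_sq hDc hm
  -- `ℓ ∤ u`
  have hℓc : ¬ (ℓ : ℤ) ∣ c := by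
    intro hd
    have h3 : ℓ ∣ c := by exact_mod_cast hd
    have := Nat.eq_one_of_dvd_coprimes hm dvd_rfl h3
    exact hℓ.out.one_lt.ne' this
  have hℓD : ¬ (ℓ : ℤ) ∣ q.D := fun hd =>
    hℓc (hd.trans (by exact_mod_cast (dvd_pow_self _ two_ne_zero).trans hDc))
  have hprime : Prime (ℓ : ℤ) := Nat.prime_iff_prime_int.1 hℓ.out
  have hℓu : ¬ (ℓ : ℤ) ∣ u := by
    rw [hu, dvd_neg]
    intro hd
    rcases hprime.dvd_or_dvd hd with h | h
    · exact hℓc (hprime.dvd_of_dvd_pow h)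
    · exact hℓD h
  have hu0 : ((u : ℤ) : ZMod ℓ) ≠ 0 := by
    rwa [ne_eq, ZMod.intCast_zmod_eq_zero_iff_dvd]
  -- the sign
  obtain ⟨ε, hε, hεG⟩ : ∃ ε : ℤ, (ε = 1 ∨ ε = -1) ∧ q.Gs ℓ c = ε * q.Gs 1 c := by
    have : (q.Gs ℓ c - q.Gs 1 c) * (q.Gs ℓ c + q.Gs 1 c) = 0 := by
      linear_combination hsqℓ - hsq1
    rcases mul_eq_zero.1 this with h | h
    · exact ⟨1, Or.inl rfl, by push_cast; linear_combination h⟩
    · exact ⟨-1, Or.inr rfl, by push_cast; linear_combination h⟩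
  -- the Frobenius congruence
  have hint : IsIntegral ℤ (zc c) := (zc_prim (c := c)).isIntegral (NeZero.pos c)
  set x : ZMod c × ZMod c → integralClosure ℤ ℂ := fun w =>
    (⟨zc c, hint⟩ : integralClosure ℤ ℂ) ^ (q.Qn (rp w)) with hx
  obtain ⟨r, hr⟩ := exists_sum_pow_prime hℓ.out Finset.univ x
  have hr' : q.Gs 1 c ^ ℓ = q.Gs ℓ c + ℓ * (r : ℂ) := by
    have h4 := congrArg (fun y : integralClosure ℤ ℂ => (y : ℂ)) hr
    have h5 : q.Gs 1 c = ∑ w : ZMod c × ZMod c, zc c ^ (q.Qn (rp w)) := by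
      have := Gs_nat (q := q) (c := c) 1
      rw [Nat.cast_one, pow_one] at this
      exact this
    rw [h5, Gs_nat]
    have h6 : ∀ w : ZMod c × ZMod c, (zc c ^ ℓ) ^ (q.Qn (rp w)) = (zc c ^ (q.Qn (rp w))) ^ ℓ := by
      intro w; rw [← pow_mul, ← pow_mul, mul_comm]
    rw [Finset.sum_congr rfl fun w _ => h6 w]
    simp only [hx] at h4
    push_cast at h4
    exact h4
  have hodd : Odd ℓ := hℓ.out.odd_of_ne_two h2
  obtain ⟨k, hk⟩ := hodd
  have hint2 : IsIntegral ℤ (q.Gs 1 c) := by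
    have := Gs_nat (q := q) (c := c) 1
    rw [Nat.cast_one, pow_one] at this
    rw [this]
    exact IsIntegral.sum _ fun w _ => hint.pow _
  have key : ((u ^ (k + 1) - ε * u : ℤ) : ℂ) = (ℓ : ℤ) * (r * q.Gs 1 c) := by
    have e1 : q.Gs 1 c ^ ℓ * q.Gs 1 c = (u : ℂ) ^ (k + 1) := by
      rw [← pow_succ, hk, ← hsq1, ← pow_mul]; congr 1
    have e2 : q.Gs ℓ c * q.Gs 1 c = ε * u := by rw [hεG, ← hsq1]; ring
    push_cast
    rw [← e1, ← e2, hr']; ring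
  have hdiv := dvd_of_integral (by exact_mod_cast hℓ.out.ne_zero) (r.2.mul hint2) key
  have hz : ((u : ℤ) : ZMod ℓ) ^ k = ε := by
    have h7 : (((u ^ (k + 1) - ε * u : ℤ)) : ZMod ℓ) = 0 :=
      (ZMod.intCast_zmod_eq_zero_iff_dvd _ _).2 hdiv
    push_cast at h7
    have h8 : (u : ZMod ℓ) * ((u : ZMod ℓ) ^ k - ε) = 0 := by rw [← h7]; ring
    rcases mul_eq_zero.1 h8 with h9 | h9
    · exact absurd h9 hu0
    · linear_combination h9
  have hleg : legendreSym ℓ u = ε := by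
    have h10 := legendreSym.eq_pow ℓ u
    have h11 : ℓ / 2 = k := by omega
    rw [h11, hz] at h10
    have h12 : ((legendreSym ℓ u - ε : ℤ) : ZMod ℓ) = 0 := by push_cast; rw [h10, sub_self]
    rw [ZMod.intCast_zmod_eq_zero_iff_dvd] at h12
    have h13 : legendreSym ℓ u = 1 ∨ legendreSym ℓ u = -1 := legendreSym.eq_one_or_neg_one ℓ hu0
    have h14 : (3 : ℤ) ≤ ℓ := by
      have := hℓ.out.two_le
      have : 3 ≤ ℓ := by omega
      exact_mod_cast this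
    rcases hε with rfl | rfl <;> rcases h13 with h15 | h15 <;> rw [h15] at h12 ⊢
    · exfalso
      have := Int.le_of_dvd (by norm_num) ((dvd_neg).2 h12)
      norm_num at this
      linarith
    · exfalso
      have := Int.le_of_dvd (by norm_num) h12
      linarith
  have hleg2 : legendreSym ℓ u = legendreSym ℓ (-(q.D : ℤ)) := by
    have e : u = (c : ℤ) ^ 2 * (-(q.D : ℤ)) := by rw [hu]; ring
    rw [e, legendreSym.mul, legendreSym.sq_one', one_mul]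
    rwa [Int.cast_natCast, ne_eq, ZMod.natCast_eq_zero_iff, ← Int.natCast_dvd_natCast]
  rw [hεG, ← hleg, hleg2]

lemma Gs_congr {α β : ℤ} (h : (c : ℤ) ∣ α - β) : q.Gs α c = q.Gs β c := by
  obtain ⟨k, hk⟩ := h
  have hc : (c : ℂ) ≠ 0 := by exact_mod_cast (NeZero.ne c)
  refine SP_congr fun w => ?_
  rw [tw, tw]
  congr 1
  have e : (α : ℂ) * q.Q w / (c : ℤ) = β * q.Q w / (c : ℤ) + ((k * q.Q w : ℤ) : ℂ) := by
    have : (α : ℂ) - β = c * k := by exact_mod_cast hk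
    push_cast
    field_simp
    linear_combination (q.Q w : ℂ) * this
  rw [e, ee_add_int]

/-- **the multiplier is the Jacobi symbol** -/
theorem kap_eq (hDc : q.D ^ 2 ∣ c) (hodd : Odd q.D) (hα : IsCoprime α (c : ℤ)) :
    q.kap α c = (J(α | q.D) : ℂ) := by
  have hunit : IsUnit ((α : ZMod c)) := by
    have := (ZMod.coe_int_isUnit_iff_isCoprime α c).2 hα.symm
    exact this
  obtain ⟨ℓ, hℓ2, hℓ, hℓα⟩ := Nat.forall_exists_prime_gt_and_eq_mod hunit 2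
  haveI : Fact ℓ.Prime := ⟨hℓ⟩
  have hdiv : (c : ℤ) ∣ α - ℓ := by
    rw [← ZMod.intCast_zmod_eq_zero_iff_dvd]
    push_cast; rw [hℓα, sub_self]
  have hcop : Nat.Coprime ℓ c := by
    rw [← ZMod.isUnit_iff_coprime, hℓα]; exact hunit
  have hD4 : q.D % 4 = 3 := by
    have h1 := q.D_eq
    have hB : q.B % 2 = 1 := by
      by_contra hB
      have hB0 : q.B % 2 = 0 := by omega
      obtain ⟨b, hb⟩ := Int.dvd_of_emod_eq_zero hB0
      have h3 : (q.D : ℤ) = 2 * (2 * (q.A * q.C) - 2 * b ^ 2) := by rw [h1, hb]; ring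
      have h4 := Nat.odd_iff.1 hodd
      omega
    obtain ⟨b, hb⟩ : ∃ b, q.B = 2 * b + 1 := ⟨q.B / 2, by omega⟩
    have h3 : (q.D : ℤ) = 4 * (q.A * q.C - b ^ 2 - b) - 1 := by rw [h1, hb]; ring
    omega
  rw [kap, Gs_congr hdiv, Gs_prime hDc hℓ2.ne' hcop, Gs_one hDc, jacobiSym.legendreSym.to_jacobiSym,
    jacobi_recip hD4 (hℓ.odd_of_ne_two hℓ2.ne')]
  have hJ : J(ℓ | q.D) = J(α | q.D) := by
    apply jacobiSym.mod_left'
    have h5 : (q.D : ℤ) ∣ α - ℓ :=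
      (by exact_mod_cast (dvd_pow_self _ two_ne_zero).trans hDc : (q.D : ℤ) ∣ c).trans hdiv
    exact Int.modEq_iff_dvd.2 h5
  rw [hJ]
  have hc : (c : ℂ) ≠ 0 := by exact_mod_cast (NeZero.ne c)
  have hsq : ((Real.sqrt q.D : ℝ) : ℂ) ≠ 0 := by
    exact_mod_cast (Real.sqrt_pos.2 (by exact_mod_cast q.D_pos)).ne'
  rw [div_eq_iff (mul_ne_zero hc hsq)]
  linear_combination (-(J(α | q.D) : ℂ) * c * (Real.sqrt q.D : ℝ)) * Complex.I_mul_I

end QD

end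

end Vale.Agent.P022.H390
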