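import Vale.Agent.P022.H390.ThKappa

/-!
# P022: theta series are modular forms of level `Γ₁(N)`
-/

namespace Vale.Agent.P022.H390

open UpperHalfPlane hiding I
open ModularForm CongruenceSubgroup Matrix.SpecialLinearGroup
open scoped MatrixGroups ModularForm Manifold Real Nat NumberTheorySymbols
open Complex (I exp)

noncomputable section

namespace QD

variable {q : QD} {M N : ℕ} [NeZero M] [NeZero N] {h : ℤ × ℤ → ℂ}

lemma D_mod_four (hodd : Odd q.D) : q.D % 4 = 3 := by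
  have h1 := q.D_eq
  have hB : q.B % 2 = 1 := by
    by_contra hB
    have hB0 : q.B % 2 = 0 := by omega
    obtain ⟨b, hb⟩ := Int.dvd_of_emod_eq_zero hB0
    have h3 : (q.D : ℤ) = 2 * (2 * (q.A * q.C) - 2 * b ^ 2) := by rw [h1, hb]; ring
    have h4 := Nat.odd_iff.1 hodd
    omega
  obtain ⟨b, hb⟩ : ∃ b, q.B = 2 * b + 1 := ⟨q.B / 2, by omega⟩
  have h3 : (q.D : ℤ) = 4 * (q.A * q.C - b ^ 2 - b) - 1 := by rw [h1, hb]; ring
  omega

lemma jacobi_mul_one {a b : ℤ} {D : ℕ} (h : (D : ℤ) ∣ a * b - 1) : J(a | D) = J(b | D) := by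
  have h1 : J(a * b | D) = 1 := by
    rw [jacobiSym.mod_left' (a₂ := 1), jacobiSym.one_left]
    refine (Int.modEq_iff_dvd.2 ?_ : a * b ≡ 1 [ZMOD D])
    rw [← dvd_neg, neg_sub]; exact h
  rw [jacobiSym.mul_left] at h1
  rcases Int.eq_one_or_neg_one_of_mul_eq_one' h1 with h2 | h2 <;> rw [h2.1, h2.2]

lemma Per.smul_congr (hh : Per M h) {d e : ℤ} (hde : (M : ℤ) ∣ d - e) (v : ℤ × ℤ) :
    h (d * v.1, d * v.2) = h (e * v.1, e * v.2) := by
  obtain ⟨k, hk⟩ := hde
  have := hh (e * v.1, e * v.2) (k * v.1, k * v.2)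
  rw [← this]
  congr 2
  · linear_combination v.1 * hk
  · linear_combination v.2 * hk

lemma tf_inv_pos (hh : Per M h) (hodd : Odd q.D) (hN : (q.D * M) ^ 2 ∣ N) (a : ℕ)
    {γ : SL(2, ℤ)} (hγ : γ ∈ Gamma1 N) (hc : 0 < γ 1 0) :
    q.tf a h ∣[((a + 1 : ℕ) : ℤ)] γ = q.tf a h := by
  obtain ⟨c, hc'⟩ := Int.eq_ofNat_of_zero_le hc.le
  haveI : NeZero c := ⟨by rintro rfl; rw [hc'] at hc; exact lt_irrefl _ hc⟩
  rw [Gamma1_mem] at hγ
  obtain ⟨h00, h11, h10⟩ := hγ
  have hNc : N ∣ c := by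
    rw [hc'] at h10
    rw [← ZMod.natCast_eq_zero_iff]
    exact_mod_cast h10
  have hdet := det_eq γ
  rw [hc'] at hdet
  have hα : IsCoprime (γ 0 0) (c : ℤ) := ⟨γ 1 1, -γ 0 1, by linear_combination hdet⟩
  have hD2 : q.D ^ 2 ∣ c := by
    refine dvd_trans ?_ (hN.trans hNc)
    rw [mul_pow]; exact dvd_mul_right _ _
  have hDN : (q.D : ℤ) ∣ N := by
    exact_mod_cast ((dvd_mul_right _ _).trans (dvd_pow_self _ two_ne_zero)).trans hN
  have hMN : (M : ℤ) ∣ N := by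
    exact_mod_cast ((dvd_mul_left _ _).trans (dvd_pow_self (q.D * M) two_ne_zero)).trans hN
  have hd00 : (N : ℤ) ∣ γ 0 0 - 1 := by
    rw [← ZMod.intCast_zmod_eq_zero_iff_dvd]; push_cast; rw [h00]; ring
  have hd11 : (N : ℤ) ∣ γ 1 1 - 1 := by
    rw [← ZMod.intCast_zmod_eq_zero_iff_dvd]; push_cast; rw [h11]; ring
  rw [tf_slash hh a γ hc' (hN.trans hNc), kap_eq hD2 hodd hα]
  have e1 : J(γ 0 0 | q.D) = 1 := by
    rw [jacobiSym.mod_left' (a₂ := 1), jacobiSym.one_left]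
    refine (Int.modEq_iff_dvd.2 ?_ : γ 0 0 ≡ 1 [ZMOD q.D])
    rw [← dvd_neg, neg_sub]
    exact hDN.trans hd00
  have e2 : (fun v : ℤ × ℤ => h (γ 1 1 * v.1, γ 1 1 * v.2)) = h := by
    funext v
    rw [Per.smul_congr hh (e := 1) (hMN.trans hd11)]
    simp
  rw [e1, e2]; simp

theorem tf_isMF (hh : Per M h) (hodd : Odd q.D) (hN : (q.D * M) ^ 2 ∣ N) (a : ℕ) :
    IsMF N ((a + 1 : ℕ) : ℤ) (q.tf a h) where
  inv γ hγ := by
    rcases lt_trichotomy (γ 1 0) 0 with hc | hc | hc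
    · -- use the inverse
      have h1 : (γ⁻¹) 1 0 = -(γ 1 0) := by
        simp [Matrix.adjugate_fin_two]
      have h2 := tf_inv_pos (q := q) hh hodd hN a (inv_mem hγ) (by rw [h1]; linarith)
      calc q.tf a h ∣[((a + 1 : ℕ) : ℤ)] γ
          = (q.tf a h ∣[((a + 1 : ℕ) : ℤ)] γ⁻¹) ∣[((a + 1 : ℕ) : ℤ)] γ := by rw [h2]
        _ = q.tf a h := by rw [← SlashAction.slash_mul, inv_mul_cancel, SlashAction.slash_one]
    · rw [tf_slash_of_zero hh a γ hc]
      have h11 : γ 1 1 = 1 := by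
        rw [Gamma1_mem] at hγ
        have hdet := det_eq γ
        rw [hc, mul_zero, sub_zero] at hdet
        have hd11 : (N : ℤ) ∣ γ 1 1 - 1 := by
          rw [← ZMod.intCast_zmod_eq_zero_iff_dvd]; push_cast; rw [hγ.2.1]; ring
        rcases Int.eq_one_or_neg_one_of_mul_eq_one' hdet with h1 | h1
        · exact h1.2
        · exfalso
          rw [h1.2] at hd11
          have hD3 : 3 ≤ q.D := by have := D_mod_four hodd; omega
          have hDN : (q.D : ℤ) ∣ N := by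
            exact_mod_cast ((dvd_mul_right _ _).trans (dvd_pow_self _ two_ne_zero)).trans hN
          have h3 : (q.D : ℤ) ∣ 2 := by
            have := hDN.trans hd11
            rw [← dvd_neg] at this
            simpa using this
          have := Int.le_of_dvd (by norm_num) h3
          omega
      rw [h11]; simp
    · exact tf_inv_pos hh hodd hN a hγ hc
  holo := (tf_good hh a).holo
  bdd γ := tf_bdd hh a γ

/-- the diamond operators -/
theorem tf_dia (hh : Per M h) (hodd : Odd q.D) (hN : (q.D * M) ^ 2 ∣ N) (a : ℕ) {d : ℕ}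
    (hd : Nat.Coprime d N) :
    q.tf a h ∣[((a + 1 : ℕ) : ℤ)] (dia N d) =
      (J(d | q.D) : ℂ) • q.tf a (fun v => h (d * v.1, d * v.2)) := by
  have hdet := det_eq (dia N d)
  rw [dia_10 hd, dia_11 hd] at hdet
  have hα : IsCoprime ((dia N d) 0 0) (N : ℤ) := ⟨d, -(dia N d) 0 1, by linear_combination hdet⟩
  have hD2 : q.D ^ 2 ∣ N := by
    refine dvd_trans ?_ hN
    rw [mul_pow]; exact dvd_mul_right _ _
  have hDN : (q.D : ℤ) ∣ N := by
    exact_mod_cast ((dvd_mul_right _ _).trans (dvd_pow_self _ two_ne_zero)).trans hN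
  rw [tf_slash hh a (dia N d) (dia_10 hd) hN, kap_eq hD2 hodd hα, dia_11 hd]
  have e1 : J((dia N d) 0 0 | q.D) = J((d : ℤ) | q.D) := by
    apply jacobi_mul_one
    exact hDN.trans ⟨(dia N d) 0 1, by linear_combination hdet⟩
  rw [e1]

end QD

end

end Vale.Agent.P022.H390
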