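import Vale.Agent.P022.H390.PS

/-!
# P022: the trace from level `Γ₀(2)` to level one
-/

namespace Vale.Agent.P022.H390

open UpperHalfPlane ModularForm CongruenceSubgroup Matrix.SpecialLinearGroup
open scoped MatrixGroups ModularForm Manifold Real

noncomputable section

/-- the matrix `S` -/
abbrev mS : SL(2, ℤ) := ModularGroup.S
/-- the matrix `T` -/
abbrev mT : SL(2, ℤ) := ModularGroup.T

variable {k : ℤ} {f g : ℍ → ℂ}

lemma T_10 : mT 1 0 = 0 := rfl
lemma T_11 : mT 1 1 = 1 := rfl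
lemma T_00 : mT 0 0 = 1 := rfl
lemma T_01 : mT 0 1 = 1 := rfl
lemma S_10 : mS 1 0 = 1 := rfl
lemma S_11 : mS 1 1 = 0 := rfl
lemma S_00 : mS 0 0 = 0 := rfl
lemma S_01 : mS 0 1 = -1 := rfl

lemma slash_T (k : ℤ) (f : ℍ → ℂ) (z : ℍ) : (f ∣[k] mT) z = f ((1 : ℝ) +ᵥ z) := by
  rw [SL_slash_apply, modular_T_smul, ModularGroup.denom_apply, T_10, T_11]
  simp

lemma slash_neg_one (hk : Even k) (f : ℍ → ℂ) : f ∣[k] (-1 : SL(2, ℤ)) = f := by
  ext z
  rw [SL_slash_apply]
  have h1 : (-1 : SL(2, ℤ)) • z = z := by simp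
  have h2 : denom (-1 : SL(2, ℤ)) z = -1 := by simp [denom]
  rw [h1, h2]
  have h3 : (-1 : ℂ) ^ (-k) = 1 := hk.neg.neg_one_zpow
  rw [h3, mul_one]

lemma S_mul_S : mS * mS = -1 := by
  ext i j
  fin_cases i <;> fin_cases j <;> rfl

lemma STS : mS * mT * mS = mT⁻¹ * mS * mT⁻¹ := by
  have : mT * (mS * mT * mS) * mT = mS := by
    ext i j
    fin_cases i <;> fin_cases j <;> rfl
  calc mS * mT * mS = mT⁻¹ * (mT * (mS * mT * mS) * mT) * mT⁻¹ := by group
    _ = mT⁻¹ * mS * mT⁻¹ := by rw [this]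

/-- the functions that behave like modular forms of level `Γ₀(2)` and even weight `k`. -/
structure G02 (k : ℤ) (f : ℍ → ℂ) : Prop where
  even : Even k
  hT : f ∣[k] mT = f
  hST : ((f ∣[k] mS) ∣[k] mT) ∣[k] mT = f ∣[k] mS
  holo : MDiff f
  b0 : IsBoundedAtImInfty f
  b1 : IsBoundedAtImInfty (f ∣[k] mS)

/-- the trace to level one -/
def tr (k : ℤ) (f : ℍ → ℂ) : ℍ → ℂ := f + f ∣[k] mS + (f ∣[k] mS) ∣[k] mT

lemma good_of_T {f : ℍ → ℂ} (hT : f ∣[k] mT = f) (holo : MDiff f) (b : IsBoundedAtImInfty f) :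
    Good 1 f where
  per := periodic_of_T fun z => by rw [← slash_T k f z, hT]
  holo := holo
  bdd := b

lemma G02.good (hf : G02 k f) : Good 1 f := good_of_T hf.hT hf.holo hf.b0

lemma mdiff_slash (hf : MDiff f) (k : ℤ) (γ : SL(2, ℤ)) : MDiff (f ∣[k] γ) := by
  rw [SL_slash]; exact hf.slash k _

lemma periodic_two_of_T {f : ℍ → ℂ} (h : ∀ z : ℍ, f ((1 : ℝ) +ᵥ ((1 : ℝ) +ᵥ z)) = f z) :
    Function.Periodic (f ∘ ofComplex) (2 : ℝ) := by
  intro w
  by_cases hw : 0 < w.im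
  · have h2 : 0 < (w + ((2 : ℝ) : ℂ)).im := by simpa using hw
    simp only [Function.comp_apply, ofComplex_apply_of_im_pos h2, ofComplex_apply_of_im_pos hw]
    rw [← h ⟨w, hw⟩]
    congr 1
    ext
    simp only [coe_vadd]
    change w + ((2 : ℝ) : ℂ) = _
    push_cast; ring
  · have h2 : ¬ 0 < (w + ((2 : ℝ) : ℂ)).im := by simpa using hw
    simp only [Function.comp_apply]
    rw [ofComplex_apply_of_im_nonpos (not_lt.1 hw), ofComplex_apply_of_im_nonpos (not_lt.1 h2)]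

lemma G02.good2 (hf : G02 k f) : Good 2 (f ∣[k] mS) where
  per := periodic_two_of_T fun z => by
    have := congrFun hf.hST z
    rw [slash_T, slash_T] at this
    exact this
  holo := mdiff_slash hf.holo k _
  bdd := hf.b1

lemma isMF_one_of_ST {f : ℍ → ℂ} (hS : f ∣[k] mS = f) (hT : f ∣[k] mT = f) (holo : MDiff f)
    (b : IsBoundedAtImInfty f) : IsMF 1 k f := by
  have key : ∀ γ : SL(2, ℤ), f ∣[k] γ = f := by
    intro γ
    have hγ : γ ∈ Subgroup.closure {ModularGroup.S, ModularGroup.T} := by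
      rw [SpecialLinearGroup.SL2Z_generators]; trivial
    induction hγ using Subgroup.closure_induction with
    | mem x hx =>
      rcases hx with rfl | rfl
      · exact hS
      · exact hT
    | one => exact SlashAction.slash_one k f
    | mul x y _ _ hx hy => rw [SlashAction.slash_mul, hx, hy]
    | inv x _ hx =>
      nth_rewrite 1 [← hx]
      rw [← SlashAction.slash_mul, mul_inv_cancel, SlashAction.slash_one]
  exact ⟨fun γ _ => key γ, holo, fun γ => by rw [key]; exact b⟩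

lemma bdd_slash_T {f : ℍ → ℂ} (hf : IsBoundedAtImInfty f) (k : ℤ) :
    IsBoundedAtImInfty (f ∣[k] mT) := by
  rw [SL_slash]
  apply hf.slash
  change ((mT 1 0 : ℤ) : ℝ) = 0
  rw [T_10]; simp

theorem G02.isMF_tr (hf : G02 k f) : IsMF 1 k (tr k f) := by
  apply isMF_one_of_ST
  · rw [tr, SlashAction.add_slash, SlashAction.add_slash, ← SlashAction.slash_mul k mS mS f, S_mul_S,
      slash_neg_one hf.even]
    have h1 : ((f ∣[k] mS) ∣[k] mT) ∣[k] mS = (f ∣[k] mS) ∣[k] mT := by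
      rw [← SlashAction.slash_mul, ← SlashAction.slash_mul, ← mul_assoc, STS,
        SlashAction.slash_mul, SlashAction.slash_mul]
      have h2 : f ∣[k] mT⁻¹ = f := by
        nth_rewrite 1 [← hf.hT]
        rw [← SlashAction.slash_mul, mul_inv_cancel, SlashAction.slash_one]
      rw [h2]
      nth_rewrite 1 [← hf.hST]
      rw [← SlashAction.slash_mul k mT, mul_inv_cancel, SlashAction.slash_one]
    rw [h1]
    abel
  · rw [tr, SlashAction.add_slash, SlashAction.add_slash, hf.hT, hf.hST]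
    abel
  · exact (hf.holo.add (mdiff_slash hf.holo k _)).add
      (mdiff_slash (mdiff_slash hf.holo k _) k _)
  · exact (hf.b0.add hf.b1).add (bdd_slash_T hf.b1 k)

lemma qParam_two_vadd (z : ℍ) (n : ℕ) :
    Function.Periodic.qParam 2 (((1 : ℝ) +ᵥ z : ℍ) : ℂ) ^ n =
      (-1) ^ n * Function.Periodic.qParam 2 z ^ n := by
  rw [← mul_pow]
  congr 1
  rw [Function.Periodic.qParam, Function.Periodic.qParam, coe_vadd]
  have : 2 * π * Complex.I * (((1 : ℝ) : ℂ) + z) / ((2 : ℝ) : ℂ) =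
    π * Complex.I + 2 * π * Complex.I * z / ((2 : ℝ) : ℂ) := by
    push_cast; ring
  rw [this, Complex.exp_add, Complex.exp_pi_mul_I]

lemma qParam_two_pow (z : ℂ) (n : ℕ) :
    Function.Periodic.qParam 2 z ^ (n * 2) = qq z ^ n := by
  rw [mul_comm, pow_mul]
  congr 1
  rw [Function.Periodic.qParam, qq_eq, ← Complex.exp_nat_mul]
  congr 1; push_cast; ring

/-- the `q`-expansion of the trace -/
theorem G02.qc_tr (hf : G02 k f) (n : ℕ) :
    qc (tr k f) n = qc f n + 2 * (qExpansion 2 (f ∣[k] mS)).coeff (n * 2) := by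
  refine hf.isMF_tr.qc_eq (c := fun n => qc f n + 2 * (qExpansion 2 (f ∣[k] mS)).coeff (n * 2))
    (fun z => ?_) n
  have h1 := hf.good.hasSum one_pos z
  have h2 := hf.good2.hasSum two_pos z
  have h3 := hf.good2.hasSum two_pos ((1 : ℝ) +ᵥ z)
  have h4 := h2.add h3
  set b : ℕ → ℂ := fun n => (qExpansion 2 (f ∣[k] mS)).coeff n with hb
  have h5 : HasSum (fun n => (b n * (1 + (-1) ^ n)) * Function.Periodic.qParam 2 z ^ n)
      ((f ∣[k] mS) z + (f ∣[k] mS) ((1 : ℝ) +ᵥ z)) := by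
    refine h4.congr_fun fun n => ?_
    rw [qParam_two_vadd]; ring
  rw [← hasSum_mul_iff (ℓ := 2) two_ne_zero] at h5
  · have h6 : HasSum (fun n => 2 * b (n * 2) * qq z ^ n)
        ((f ∣[k] mS) z + (f ∣[k] mS) ((1 : ℝ) +ᵥ z)) := by
      refine h5.congr_fun fun n => ?_
      rw [qParam_two_pow]
      have : (-1 : ℂ) ^ (n * 2) = 1 := by rw [mul_comm, pow_mul]; simp
      rw [this]; ring
    have h7 := h1.add h6
    have h8 : tr k f z = f z + ((f ∣[k] mS) z + (f ∣[k] mS) ((1 : ℝ) +ᵥ z)) := by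
      rw [tr, Pi.add_apply, Pi.add_apply, slash_T]; ring
    rw [h8]
    exact h7.congr_fun fun n => by
      change (qc f n + 2 * b (n * 2)) * qq z ^ n = qc f n * _ + _
      ring
  · intro m hm
    have : Odd m := by
      rw [← Nat.not_even_iff_odd]; intro he; exact hm he.two_dvd
    rw [this.neg_one_pow]; ring

lemma G02.mul {k' : ℤ} (hf : G02 k f) (hg : G02 k' g) : G02 (k + k') (f * g) where
  even := hf.even.add hg.even
  hT := by rw [mul_slash_SL2, hf.hT, hg.hT]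
  hST := by rw [mul_slash_SL2, mul_slash_SL2, mul_slash_SL2, hf.hST, hg.hST]
  holo := hf.holo.mul hg.holo
  b0 := hf.b0.mul hg.b0
  b1 := by rw [mul_slash_SL2]; exact hf.b1.mul hg.b1

lemma G02.one : G02 0 (1 : ℍ → ℂ) := by
  have h : ∀ γ : SL(2, ℤ), (1 : ℍ → ℂ) ∣[(0 : ℤ)] γ = 1 := fun γ => is_invariant_one γ
  exact ⟨⟨0, rfl⟩, h _, by rw [h, h, h], mdifferentiable_const, Filter.const_boundedAtFilter _ _,
    by rw [h]; exact Filter.const_boundedAtFilter _ _⟩

lemma G02.mul_pow {k' : ℤ} (hf : G02 k f) (hg : G02 k' g) (m : ℕ) :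
    G02 (k + k' * m) (f * g ^ m) ∧
      (f * g ^ m) ∣[k + k' * m] mS = (f ∣[k] mS) * (g ∣[k'] mS) ^ m := by
  induction m with
  | zero => simpa using hf
  | succ m ih =>
    have h1 : f * g ^ (m + 1) = (f * g ^ m) * g := by rw [pow_succ]; ring
    have h2 : k + k' * ((m + 1 : ℕ) : ℤ) = (k + k' * m) + k' := by push_cast; ring
    rw [h1, h2]
    refine ⟨ih.1.mul hg, ?_⟩
    rw [mul_slash_SL2, ih.2, pow_succ]; ring

end

end Vale.Agent.P022.H390
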