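import Vale.Agent.P022.H390.QSer
import Vale.Agent.P022.H390.Resid
import Vale.Agent.P022.H390.Trace2

/-!
# P022: theta series: `q`-expansion, slash formula, boundedness at the cusps
-/

namespace Vale.Agent.P022.H390

open UpperHalfPlane hiding I
open ModularForm CongruenceSubgroup Matrix.SpecialLinearGroup
open scoped MatrixGroups ModularForm Manifold Real Nat
open Complex (I exp)

noncomputable section

/-- data of the theta series: an integral positive definite binary form `A x² + B x y + C y²`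
and an isotropic vector `(m1, m2)` -/
structure QD where
  /-- first coefficient -/
  A : ℤ
  /-- second coefficient -/
  B : ℤ
  /-- third coefficient -/
  C : ℤ
  /-- isotropic vector -/
  m1 : ℂ
  /-- isotropic vector -/
  m2 : ℂ
  hA : 0 < A
  hD : 0 < 4 * A * C - B ^ 2
  hm : Qc A B C m1 m2 = 0

namespace QD

variable (q : QD)

/-- the form -/
def Q (v : ℤ × ℤ) : ℤ := q.A * v.1 ^ 2 + q.B * v.1 * v.2 + q.C * v.2 ^ 2

/-- the dual form -/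
def Qd (v : ℤ × ℤ) : ℤ := q.C * v.1 ^ 2 - q.B * v.1 * v.2 + q.A * v.2 ^ 2

/-- minus the discriminant, as a natural number -/
def D : ℕ := (4 * q.A * q.C - q.B ^ 2).toNat

lemma D_eq : (q.D : ℤ) = 4 * q.A * q.C - q.B ^ 2 := Int.toNat_of_nonneg q.hD.le

lemma D_pos : 0 < q.D := by
  have := q.D_eq; have := q.hD; omega

lemma D_eqC : (q.D : ℂ) = 4 * q.A * q.C - q.B ^ 2 := by exact_mod_cast q.D_eq

lemma D_eqR : (q.D : ℝ) = 4 * q.A * q.C - q.B ^ 2 := by exact_mod_cast q.D_eq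

lemma hC : 0 < q.C := by
  by_contra h
  push Not at h
  nlinarith [q.hA, q.hD, mul_nonneg q.hA.le (neg_nonneg.2 h), sq_nonneg q.B]

lemma Q_nonneg (v : ℤ × ℤ) : 0 ≤ q.Q v := by
  have h1 : 4 * q.A * q.Q v = (2 * q.A * v.1 + q.B * v.2) ^ 2 +
      (4 * q.A * q.C - q.B ^ 2) * v.2 ^ 2 := by rw [Q]; ring
  have h2 : 0 ≤ 4 * q.A * q.Q v := by
    rw [h1]
    have := mul_nonneg q.hD.le (sq_nonneg v.2)
    positivity
  have h3 : 0 < 4 * q.A := by linarith [q.hA]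
  exact nonneg_of_mul_nonneg_right h2 h3

lemma Qd_nonneg (v : ℤ × ℤ) : 0 ≤ q.Qd v := by
  have h1 : 4 * q.C * q.Qd v = (2 * q.C * v.1 - q.B * v.2) ^ 2 +
      (4 * q.A * q.C - q.B ^ 2) * v.2 ^ 2 := by rw [Qd]; ring
  have h2 : 0 ≤ 4 * q.C * q.Qd v := by
    rw [h1]
    have := mul_nonneg q.hD.le (sq_nonneg v.2)
    positivity
  have h3 : 0 < 4 * q.C := by linarith [q.hC]
  exact nonneg_of_mul_nonneg_right h2 h3

/-- values of the form, as natural numbers -/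
def Qn (v : ℤ × ℤ) : ℕ := (q.Q v).toNat

lemma Qn_eq (v : ℤ × ℤ) : (q.Qn v : ℤ) = q.Q v := Int.toNat_of_nonneg (q.Q_nonneg v)

/-- values of the dual form, as natural numbers -/
def Qdn (v : ℤ × ℤ) : ℕ := (q.Qd v).toNat

lemma Qdn_eq (v : ℤ × ℤ) : (q.Qdn v : ℤ) = q.Qd v := Int.toNat_of_nonneg (q.Qd_nonneg v)

lemma Qc_eq (v : ℤ × ℤ) : Qc q.A q.B q.C v.1 v.2 = (q.Q v : ℂ) := by
  rw [Qc, Q]; push_cast; ring

lemma Qcd_eq (v : ℤ × ℤ) : Qc q.C (-q.B) q.A v.1 v.2 = (q.Qd v : ℂ) := by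
  rw [Qc, Qd]; push_cast; ring

/-- the linear form `λ` -/
def lam (v : ℤ × ℤ) : ℂ :=
  (2 * q.A * q.m1 + q.B * q.m2) * v.1 + (q.B * q.m1 + 2 * q.C * q.m2) * v.2

/-- the theta function as a function on `ℍ` -/
def tf (a : ℕ) (h : ℤ × ℤ → ℂ) : ℍ → ℂ := fun z =>
  Th q.A q.B q.C (2 * q.A * q.m1 + q.B * q.m2) (q.B * q.m1 + 2 * q.C * q.m2) a h z

variable {q} {P : ℕ} [NeZero P] {h : ℤ × ℤ → ℂ}

lemma hasSum_tf_ee (hh : Per P h) (a : ℕ) (z : ℍ) :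
    HasSum (fun v => h v * q.lam v ^ a * ee (z * q.Q v)) (q.tf a h z) := by
  have h1 := (summable_Th q.hA q.hD z.im_pos (2 * q.A * q.m1 + q.B * q.m2)
    (q.B * q.m1 + 2 * q.C * q.m2) a hh).hasSum
  refine h1.congr_fun fun v => ?_
  rw [← q.Qc_eq]; rfl

lemma hasSum_tf (hh : Per P h) (a : ℕ) (z : ℍ) :
    HasSum (fun v => (h v * q.lam v ^ a) * qq z ^ (q.Qn v)) (q.tf a h z) := by
  refine (hasSum_tf_ee hh a z).congr_fun fun v => ?_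
  rw [qq_pow, ee, ← q.Qn_eq]
  congr 2
  push_cast; ring

lemma hasSum_tf_q (hh : Per P h) (a : ℕ) (z : ℍ) :
    HasSum (fun m : ℕ => (∑' v : {v // q.Qn v = m}, h v * q.lam v ^ a) * qq z ^ m) (q.tf a h z) :=
  hasSum_regroup (P := q.Qn) (c := fun v => h v * q.lam v ^ a) (q := qq z)
    (Function.Periodic.qParam_ne_zero _) (hasSum_tf hh a z)

lemma tf_good (hh : Per P h) (a : ℕ) : Good 1 (q.tf a h) := good_of_hasSum (hasSum_tf_q hh a)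

lemma qc_tf (hh : Per P h) (a n : ℕ) :
    qc (q.tf a h) n = ∑' v : {v // q.Qn v = n}, h v * q.lam v ^ a :=
  qc_unique (c := fun m : ℕ => (∑' v : {v // q.Qn v = m}, h v * q.lam v ^ a))
    ((tf_good hh a).analytic one_pos) (hasSum_tf_q hh a) n

/-- the twisted weight `v ↦ h(v) e(α Q(v) / c)` -/
def tw (q : QD) (h : ℤ × ℤ → ℂ) (α c : ℤ) (v : ℤ × ℤ) : ℂ := h v * ee (α * q.Q v / c)

lemma tw_per {M : ℕ} (hh : Per M h) {α c : ℤ} (hc : c ≠ 0) (hM : M ∣ P) (hcP : c ∣ P) :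
    Per P (q.tw h α c) := by
  intro v w
  have hhP : Per P h := hh.of_dvd hM
  obtain ⟨k, hk⟩ := hcP
  have hc' : (c : ℂ) ≠ 0 := by exact_mod_cast hc
  rw [tw, tw, hhP]
  congr 1
  have e : (α : ℂ) * q.Q (v.1 + P * w.1, v.2 + P * w.2) / c = α * q.Q v / c +
      ((α * k * (2 * q.A * v.1 * w.1 + q.B * v.1 * w.2 + q.B * v.2 * w.1 + 2 * q.C * v.2 * w.2
        + P * q.Q w) : ℤ) : ℂ) := by
    have hk' : ((P : ℤ) : ℂ) = c * k := by exact_mod_cast hk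
    have hk2 : (P : ℂ) = c * k := by exact_mod_cast hk'
    simp only [Q]
    push_cast
    rw [hk2]
    field_simp
    ring
  rw [e, ee_add_int]

lemma det_eqC (γ : SL(2, ℤ)) : (γ 0 0 : ℂ) * γ 1 1 - γ 0 1 * γ 1 0 = 1 := by
  exact_mod_cast det_eq γ

lemma coe_smul_eq (γ : SL(2, ℤ)) (z : ℍ) :
    ((γ • z : ℍ) : ℂ) = (γ 0 0 * z + γ 0 1) / (γ 1 0 * z + γ 1 1) := by
  rw [coe_specialLinearGroup_apply]
  simp

lemma denom_ne (γ : SL(2, ℤ)) (z : ℍ) : (γ 1 0 : ℂ) * z + γ 1 1 ≠ 0 := by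
  have := denom_ne_zero γ z
  rwa [ModularGroup.denom_apply] at this

/-- the shifted point `γ z - α/c = -1/(c (c z + δ))` -/
lemma smul_sub (γ : SL(2, ℤ)) (z : ℍ) (hc : γ 1 0 ≠ 0) :
    ((γ • z : ℍ) : ℂ) - γ 0 0 / γ 1 0 = -1 / (γ 1 0 * (γ 1 0 * z + γ 1 1)) := by
  have h1 := denom_ne γ z
  have h2 : (γ 1 0 : ℂ) ≠ 0 := by exact_mod_cast hc
  rw [coe_smul_eq]
  have := det_eqC γ
  rw [div_sub_div _ _ h1 h2, div_eq_div_iff (mul_ne_zero h1 h2) (mul_ne_zero h2 h1)]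
  linear_combination (-(γ 1 0 : ℂ) * (γ 1 0 * z + γ 1 1)) * this

/-- **the slash formula** -/
theorem slash_tf {M : ℕ} [NeZero M] (hh : Per M h) (a : ℕ) (γ : SL(2, ℤ)) (hc : γ 1 0 ≠ 0)
    (hM : M ∣ P) (hcP : γ 1 0 ∣ P) (z : ℍ) :
    (q.tf a h ∣[((a + 1 : ℕ) : ℤ)] γ) z = (-(γ 1 0 : ℂ)) ^ (a + 1) *
      (I / (Real.sqrt q.D * P ^ (a + 2))) * ∑' n : ℤ × ℤ,
        FT P (q.tw h (γ 0 0) (γ 1 0)) n * (n.1 * q.m1 + n.2 * q.m2) ^ a *
          ee (γ 1 0 * (γ 1 0 * z + γ 1 1) * q.Qd n / (q.D * P ^ 2)) := by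
  have h1 := denom_ne γ z
  have h2 : (γ 1 0 : ℂ) ≠ 0 := by exact_mod_cast hc
  have hP : (P : ℂ) ≠ 0 := by exact_mod_cast (NeZero.ne P)
  have hDn : (q.D : ℂ) ≠ 0 := by exact_mod_cast q.D_pos.ne'
  have htw := tw_per (q := q) hh (α := γ 0 0) hc hM hcP
  set τ : ℂ := ((γ • z : ℍ) : ℂ) - γ 0 0 / γ 1 0 with hτd
  have hτe : τ = -1 / (γ 1 0 * (γ 1 0 * z + γ 1 1)) := smul_sub γ z hc
  have hτ : 0 < τ.im := by
    have e : ((γ 0 0 : ℂ) / γ 1 0) = ((γ 0 0 / γ 1 0 : ℝ) : ℂ) := by push_cast; rfl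
    rw [hτd, e, Complex.sub_im, Complex.ofReal_im, sub_zero]
    exact (γ • z).im_pos
  have hτ0 : τ ≠ 0 := by intro h0; rw [h0] at hτ; simp at hτ
  have e1 : q.tf a h (γ • z) = Th q.A q.B q.C (2 * q.A * q.m1 + q.B * q.m2)
      (q.B * q.m1 + 2 * q.C * q.m2) a (q.tw h (γ 0 0) (γ 1 0)) τ := by
    rw [tf, Th, Th]
    refine tsum_congr fun v => ?_
    rw [tw]
    have e2 : ((γ • z : ℍ) : ℂ) * Qc q.A q.B q.C v.1 v.2 =
        τ * Qc q.A q.B q.C v.1 v.2 + γ 0 0 * q.Q v / γ 1 0 := by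
      rw [hτd, q.Qc_eq]; ring
    rw [e2, ee_add]; ring
  have key := Th_inv q.hA q.hD hτ q.hm a htw
  rw [SL_slash_apply, e1, ModularGroup.denom_apply, zpow_neg, zpow_natCast]
  have e3 : (τ ^ (a + 1))⁻¹ = (-(γ 1 0 * (γ 1 0 * z + γ 1 1) : ℂ)) ^ (a + 1) := by
    rw [hτe, ← inv_pow]; congr 1; field_simp
  have hne : τ ^ (a + 1) ≠ 0 := pow_ne_zero _ hτ0
  have e4 : Th q.A q.B q.C (2 * q.A * q.m1 + q.B * q.m2)
      (q.B * q.m1 + 2 * q.C * q.m2) a (q.tw h (γ 0 0) (γ 1 0)) τ =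
      (τ ^ (a + 1))⁻¹ * (τ ^ (a + 1) * Th q.A q.B q.C (2 * q.A * q.m1 + q.B * q.m2)
      (q.B * q.m1 + 2 * q.C * q.m2) a (q.tw h (γ 0 0) (γ 1 0)) τ) := by
    rw [← mul_assoc, inv_mul_cancel₀ hne, one_mul]
  rw [e4, key, e3, ← q.D_eqR, ← q.D_eqC]
  have e5 : ∀ n : ℤ × ℤ, ee (-(Qc q.C (-q.B) q.A n.1 n.2 / ((q.D : ℂ) * ((P : ℂ) ^ 2 * τ)))) =
      ee (γ 1 0 * (γ 1 0 * z + γ 1 1) * q.Qd n / (q.D * P ^ 2)) := by
    intro n
    congr 1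
    rw [q.Qcd_eq, hτe]
    field_simp
  simp_rw [e5]
  generalize (∑' n : ℤ × ℤ, FT P (q.tw h (γ 0 0) (γ 1 0)) n * (n.1 * q.m1 + n.2 * q.m2) ^ a *
    ee (γ 1 0 * (γ 1 0 * z + γ 1 1) * q.Qd n / (q.D * P ^ 2))) = S
  rw [neg_pow, mul_pow, neg_pow (γ 1 0 : ℂ)]
  have h3 : ((γ 1 0 : ℂ) * z + γ 1 1) ^ (a + 1) ≠ 0 := pow_ne_zero _ h1
  field_simp

lemma slash_tf_summable {M : ℕ} [NeZero M] (hh : Per M h) (a : ℕ) (γ : SL(2, ℤ)) (hc : γ 1 0 ≠ 0)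
    (hM : M ∣ P) (hcP : γ 1 0 ∣ P) (z : ℍ) : Summable fun n : ℤ × ℤ =>
        FT P (q.tw h (γ 0 0) (γ 1 0)) n * (n.1 * q.m1 + n.2 * q.m2) ^ a *
          ee (γ 1 0 * (γ 1 0 * z + γ 1 1) * q.Qd n / (q.D * P ^ 2)) := by
  have h1 := denom_ne γ z
  have h2 : (γ 1 0 : ℂ) ≠ 0 := by exact_mod_cast hc
  have hP : (P : ℂ) ≠ 0 := by exact_mod_cast (NeZero.ne P)
  have hDn : (q.D : ℂ) ≠ 0 := by exact_mod_cast q.D_pos.ne'
  have htw := tw_per (q := q) hh (α := γ 0 0) hc hM hcP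
  set τ : ℂ := ((γ • z : ℍ) : ℂ) - γ 0 0 / γ 1 0 with hτd
  have hτe : τ = -1 / (γ 1 0 * (γ 1 0 * z + γ 1 1)) := smul_sub γ z hc
  have hτ : 0 < τ.im := by
    have e : ((γ 0 0 : ℂ) / γ 1 0) = ((γ 0 0 / γ 1 0 : ℝ) : ℂ) := by push_cast; rfl
    rw [hτd, e, Complex.sub_im, Complex.ofReal_im, sub_zero]
    exact (γ • z).im_pos
  have hPτ : 0 < ((P : ℂ) ^ 2 * τ).im := by
    have e : ((P : ℂ) ^ 2 * τ) = (((P : ℝ) ^ 2 : ℝ) : ℂ) * τ := by push_cast; ring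
    rw [e, Complex.im_ofReal_mul]
    have : (0 : ℝ) < P := by exact_mod_cast (NeZero.pos P)
    positivity
  obtain ⟨K, hK⟩ : ∃ K : ℝ, ∀ n, ‖FT P (q.tw h (γ 0 0) (γ 1 0)) n‖ ≤ K := by
    refine ⟨∑ w : ZMod P × ZMod P, ‖q.tw h (γ 0 0) (γ 1 0) (rp w)‖, fun n => ?_⟩
    rw [FT, SP]
    refine (_root_.norm_sum_le _ _).trans (Finset.sum_le_sum fun w _ => ?_)
    rw [norm_mul, norm_ee]
    have : ((n.1 * (rp w).1 + n.2 * (rp w).2 : ℂ) / P) =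
        (((n.1 * (rp w).1 + n.2 * (rp w).2) / P : ℝ) : ℂ) := by push_cast; rfl
    rw [this, Complex.ofReal_im, mul_zero, Real.exp_zero, mul_one]
  refine Summable.of_norm_bounded
    ((summable_dual q.hA q.hD hPτ q.m1 q.m2 a 0 0).norm.mul_left K) fun n => ?_
  have e5 : ee (n.1 * 0 + n.2 * 0 - Qc q.C (-q.B) q.A n.1 n.2 /
        ((4 * q.A * q.C - q.B ^ 2) * ((P : ℂ) ^ 2 * τ))) =
      ee (γ 1 0 * (γ 1 0 * z + γ 1 1) * q.Qd n / (q.D * P ^ 2)) := by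
    congr 1
    rw [q.Qcd_eq, hτe, ← q.D_eqC]
    field_simp
    ring
  rw [e5, mul_assoc, norm_mul, mul_comm (ee _)]
  exact mul_le_mul_of_nonneg_right (hK n) (norm_nonneg _)

/-- `γ = ± T^b` -/
lemma tf_slash_of_zero {M : ℕ} [NeZero M] (hh : Per M h) (a : ℕ) (γ : SL(2, ℤ)) (hc : γ 1 0 = 0) :
    q.tf a h ∣[((a + 1 : ℕ) : ℤ)] γ = ((γ 1 1 : ℂ) ^ (-((a + 1 : ℕ) : ℤ))) • q.tf a h := by
  have hdet := det_eq γ
  rw [hc, mul_zero, sub_zero] at hdet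
  have hd : γ 1 1 ≠ 0 := by rintro h0; rw [h0, mul_zero] at hdet; exact zero_ne_one hdet
  have hdd : γ 0 0 = γ 1 1 := by
    rcases Int.eq_one_or_neg_one_of_mul_eq_one' hdet with h1 | h1 <;> rw [h1.1, h1.2]
  have hd2 : γ 1 1 * γ 1 1 = 1 := by rw [hdd] at hdet; exact hdet
  funext z
  rw [SL_slash_apply, ModularGroup.denom_apply, hc, Pi.smul_apply, smul_eq_mul, mul_comm]
  have h1 : ((γ • z : ℍ) : ℂ) = z + ((γ 0 1 * γ 1 1 : ℤ) : ℂ) := by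
    rw [coe_smul_eq, hc, hdd]
    have h2 : (γ 1 1 : ℂ) ≠ 0 := by exact_mod_cast hd
    have h3 : (γ 1 1 : ℂ) * γ 1 1 = 1 := by exact_mod_cast hd2
    push_cast
    rw [zero_mul, zero_add, div_eq_iff h2]
    linear_combination (-(γ 0 1 : ℂ)) * h3
  have h4 : q.tf a h (γ • z) = q.tf a h z := by
    refine (hasSum_tf_ee hh a (γ • z)).unique ((hasSum_tf_ee hh a z).congr_fun fun v => ?_)
    congr 1
    have : ((γ • z : ℍ) : ℂ) * q.Q v = z * q.Q v + ((γ 0 1 * γ 1 1 * q.Q v : ℤ) : ℂ) := by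
      rw [h1]; push_cast; ring
    rw [this, ee_add_int]
  rw [h4]
  congr 2
  push_cast; ring

/-- boundedness at all cusps -/
theorem tf_bdd {M : ℕ} [NeZero M] (hh : Per M h) (a : ℕ) (γ : SL(2, ℤ)) :
    IsBoundedAtImInfty (q.tf a h ∣[((a + 1 : ℕ) : ℤ)] γ) := by
  by_cases hc : γ 1 0 = 0
  · rw [tf_slash_of_zero hh a γ hc]
    exact ((tf_good hh a).smul _).bdd
  · -- general cusp
    set c : ℤ := γ 1 0 with hcd
    set P : ℕ := c.natAbs * M with hP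
    haveI : NeZero P := ⟨mul_ne_zero (Int.natAbs_ne_zero.2 hc) (NeZero.ne M)⟩
    have hM : M ∣ P := ⟨c.natAbs, by rw [hP, mul_comm]⟩
    have hcP : γ 1 0 ∣ (P : ℤ) := by
      rw [hP]; push_cast
      exact dvd_mul_of_dvd_left (by rw [← hcd]; exact (dvd_abs c c).2 dvd_rfl) _
    have hDp : (0 : ℝ) < q.D := by exact_mod_cast q.D_pos
    have hPp : (0 : ℝ) < P := by exact_mod_cast (NeZero.pos P)
    have hcR : (c : ℝ) ≠ 0 := by exact_mod_cast hc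
    set H : ℝ := q.D * P ^ 2 / c ^ 2 with hH
    have hH0 : 0 < H := by positivity
    have key : ∀ z : ℍ, HasSum (fun n : ℤ × ℤ => ((-(c : ℂ)) ^ (a + 1) *
      (I / (Real.sqrt q.D * P ^ (a + 2))) * (FT P (q.tw h (γ 0 0) c) n *
        (n.1 * q.m1 + n.2 * q.m2) ^ a * ee (c * γ 1 1 * q.Qd n / (q.D * P ^ 2)))) *
          Function.Periodic.qParam H z ^ (q.Qdn n)) ((q.tf a h ∣[((a + 1 : ℕ) : ℤ)] γ) z) := by
      intro z
      rw [slash_tf (P := P) hh a γ hc hM hcP z]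
      refine ((slash_tf_summable (q := q) (P := P) hh a γ hc hM hcP z).hasSum.mul_left _).congr_fun
        fun n => ?_
      rw [← hcd]
      have e : ee (c * (c * z + γ 1 1) * q.Qd n / (q.D * P ^ 2)) =
          ee (c * γ 1 1 * q.Qd n / (q.D * P ^ 2)) * Function.Periodic.qParam H z ^ (q.Qdn n) := by
        rw [Function.Periodic.qParam, ← Complex.exp_nat_mul, ee, ee, ← Complex.exp_add,
          ← q.Qdn_eq, hH]
        congr 1
        push_cast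
        have h1 : (q.D : ℂ) ≠ 0 := by exact_mod_cast q.D_pos.ne'
        have h2 : (P : ℂ) ≠ 0 := by exact_mod_cast (NeZero.ne P)
        have h3 : (c : ℂ) ≠ 0 := by exact_mod_cast hc
        field_simp
        ring
      rw [e]; ring
    exact isBoundedAtImInfty_of_hasSum_qExpansion hH0 fun z =>
      hasSum_regroup (Function.Periodic.qParam_ne_zero _) (key z)

end QD

end

end Vale.Agent.P022.H390
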