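import Vale.Agent.P022.H390.ThSlash

/-!
# P022: the transformation law of theta series under `Γ₀((D M)²)`
-/

namespace Vale.Agent.P022.H390

open UpperHalfPlane hiding I
open ModularForm CongruenceSubgroup Matrix.SpecialLinearGroup
open scoped MatrixGroups ModularForm Manifold Real Nat
open Complex (I exp)

noncomputable section

lemma ee_eq_one_iff (k : ℤ) (D : ℕ) [NeZero D] : ee (k / D) = 1 ↔ (D : ℤ) ∣ k := by
  have hD : (D : ℂ) ≠ 0 := by exact_mod_cast (NeZero.ne D)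
  constructor
  · intro h
    rw [ee, Complex.exp_eq_one_iff] at h
    obtain ⟨n, hn⟩ := h
    refine ⟨n, ?_⟩
    have h0 := Complex.two_pi_I_ne_zero
    have h1 : (k : ℂ) / D = n := by
      have : (2 * π * I : ℂ) * (k / D) = (2 * π * I) * n := by rw [hn]; ring
      exact mul_left_cancel₀ h0 this
    rw [div_eq_iff hD] at h1
    have h2 : (k : ℂ) = ((D * n : ℤ) : ℂ) := by rw [h1]; push_cast; ring
    exact_mod_cast h2
  · rintro ⟨n, rfl⟩
    have : (((D : ℤ) * n : ℤ) : ℂ) / D = n := by push_cast; field_simp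
    rw [this, ee_int]

namespace QD

variable {q : QD} {M c : ℕ} [NeZero M] [NeZero c] {h g : ℤ × ℤ → ℂ} {α δ : ℤ}

/-- the polar form -/
def bb (q : QD) (v y : ℤ × ℤ) : ℤ :=
  2 * q.A * v.1 * y.1 + q.B * v.1 * y.2 + q.B * v.2 * y.1 + 2 * q.C * v.2 * y.2

/-- the Gram matrix -/
def SM (q : QD) (m : ℤ × ℤ) : ℤ × ℤ := (2 * q.A * m.1 + q.B * m.2, q.B * m.1 + 2 * q.C * m.2)

lemma Q_add_mul (v y : ℤ × ℤ) (k : ℤ) :
    q.Q (v.1 + k * y.1, v.2 + k * y.2) = q.Q v + k * q.bb v y + k ^ 2 * q.Q y := by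
  simp only [Q, bb]; ring

lemma Qd_SM (m : ℤ × ℤ) : q.Qd (q.SM m) = q.D * q.Q m := by
  rw [q.D_eq]; simp only [Qd, SM, Q]; ring

lemma lam_SM (m : ℤ × ℤ) : ((q.SM m).1 : ℂ) * q.m1 + ((q.SM m).2 : ℂ) * q.m2 = q.lam m := by
  simp only [SM, lam]; push_cast; ring

lemma SM_inj : Function.Injective q.SM := by
  intro m m' h
  simp only [SM, Prod.mk.injEq] at h
  have hD : (q.D : ℤ) ≠ 0 := by exact_mod_cast q.D_pos.ne'
  have h1 : (q.D : ℤ) * m.1 = q.D * m'.1 := by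
    rw [q.D_eq]; linear_combination (2 * q.C) * h.1 - q.B * h.2
  have h2 : (q.D : ℤ) * m.2 = q.D * m'.2 := by
    rw [q.D_eq]; linear_combination (2 * q.A) * h.2 - q.B * h.1
  exact Prod.ext (mul_left_cancel₀ hD h1) (mul_left_cancel₀ hD h2)

instance : NeZero q.D := ⟨q.D_pos.ne'⟩

lemma FTfun_per (hh : Per M h) (hMc : M ∣ c) (n : ℤ × ℤ) :
    Per c (fun w => q.tw h α c w * ee ((n.1 * w.1 + n.2 * w.2) / c)) := by
  intro v w
  have h1 := tw_per (q := q) (P := c) hh (α := α) (c := c) (by exact_mod_cast (NeZero.ne c)) hMc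
    dvd_rfl v w
  have hc : (c : ℂ) ≠ 0 := by exact_mod_cast (NeZero.ne c)
  dsimp only
  rw [h1]
  congr 1
  have e : ((n.1 : ℂ) * ((v.1 + c * w.1 : ℤ) : ℂ) + n.2 * ((v.2 + c * w.2 : ℤ) : ℂ)) / c =
      (n.1 * v.1 + n.2 * v.2) / c + ((n.1 * w.1 + n.2 * w.2 : ℤ) : ℂ) := by
    push_cast; field_simp; ring
  rw [e, ee_add_int]

lemma M_dvd (hdvd : (q.D * M) ^ 2 ∣ c) : M ∣ c :=
  (Dvd.intro_left _ rfl : M ∣ q.D * M).trans ((dvd_pow_self _ two_ne_zero).trans hdvd)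

/-- the Fourier transform vanishes off the image of the Gram matrix -/
lemma FT_zero (hh : Per M h) (hdvd : (q.D * M) ^ 2 ∣ c) {n : ℤ × ℤ} (hn : n ∉ Set.range q.SM) :
    FT c (q.tw h α c) n = 0 := by
  by_contra hne
  apply hn
  obtain ⟨k, hk⟩ := hdvd
  have hc : (c : ℂ) ≠ 0 := by exact_mod_cast (NeZero.ne c)
  have hD : (q.D : ℂ) ≠ 0 := by exact_mod_cast (NeZero.ne q.D)
  have hM : (M : ℂ) ≠ 0 := by exact_mod_cast (NeZero.ne M)
  have hk0 : (k : ℂ) ≠ 0 := by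
    rintro h0
    have : k = 0 := by exact_mod_cast h0
    rw [this, mul_zero] at hk
    exact NeZero.ne c hk
  have hkC : (c : ℂ) = (q.D * M) ^ 2 * k := by exact_mod_cast hk
  have key : ∀ y : ℤ × ℤ, (∀ v, (q.D : ℤ) ∣ q.bb v y) → (q.D : ℤ) ∣ n.1 * y.1 + n.2 * y.2 := by
    intro y hy
    have h1 := SP_shift (FTfun_per (q := q) (α := α) hh (M_dvd ⟨k, hk⟩) n)
      ((q.D * M ^ 2 * k : ℤ) * y.1, (q.D * M ^ 2 * k : ℤ) * y.2)
    have h2 : ∀ v : ℤ × ℤ, q.tw h α c (v.1 + (q.D * M ^ 2 * k : ℤ) * y.1,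
        v.2 + (q.D * M ^ 2 * k : ℤ) * y.2) *
        ee ((n.1 * (v.1 + (q.D * M ^ 2 * k : ℤ) * y.1 : ℤ) +
          n.2 * (v.2 + (q.D * M ^ 2 * k : ℤ) * y.2 : ℤ)) / c) =
        ee (((n.1 * y.1 + n.2 * y.2 : ℤ) : ℂ) / q.D) *
          (q.tw h α c v * ee ((n.1 * v.1 + n.2 * v.2) / c)) := by
      intro v
      obtain ⟨b, hb⟩ := hy v
      rw [tw, tw, Q_add_mul, hb]
      have e0 : h (v.1 + (q.D * M ^ 2 * k : ℤ) * y.1, v.2 + (q.D * M ^ 2 * k : ℤ) * y.2) = h v := by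
        have := hh v ((q.D * M * k : ℤ) * y.1, (q.D * M * k : ℤ) * y.2)
        rw [← this]
        congr 2 <;> ring
      rw [e0]
      have e1 : (α : ℂ) * ((q.Q v + (q.D * M ^ 2 * k : ℤ) * (q.D * b) +
          (q.D * M ^ 2 * k : ℤ) ^ 2 * q.Q y : ℤ) : ℂ) / c =
          α * q.Q v / c + ((α * (b + M ^ 2 * k * q.Q y) : ℤ) : ℂ) := by
        rw [hkC]; push_cast; field_simp; ring
      have e2 : ((n.1 : ℂ) * (v.1 + (q.D * M ^ 2 * k : ℤ) * y.1 : ℤ) +
          n.2 * (v.2 + (q.D * M ^ 2 * k : ℤ) * y.2 : ℤ)) / c =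
          (n.1 * v.1 + n.2 * v.2) / c + (((n.1 * y.1 + n.2 * y.2 : ℤ) : ℂ) / q.D) := by
        rw [hkC]; push_cast; field_simp; ring
      rw [Int.cast_natCast, e1, e2, ee_add_int, ee_add]; ring
    rw [SP_congr (P := c) h2, SP_mul_left] at h1
    change ee (((n.1 * y.1 + n.2 * y.2 : ℤ) : ℂ) / q.D) * FT c (q.tw h α c) n =
      FT c (q.tw h α c) n at h1
    have h3 : ee (((n.1 * y.1 + n.2 * y.2 : ℤ) : ℂ) / q.D) = 1 := by
      have := sub_eq_zero.2 h1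
      have h4 : (ee (((n.1 * y.1 + n.2 * y.2 : ℤ) : ℂ) / q.D) - 1) * FT c (q.tw h α c) n = 0 := by
        linear_combination this
      rcases mul_eq_zero.1 h4 with h5 | h5
      · linear_combination h5
      · exact absurd h5 hne
    exact (ee_eq_one_iff _ _).1 h3
  have hy1 := key (2 * q.C, -q.B) (fun v => ⟨v.1, by rw [q.D_eq]; simp only [bb]; ring⟩)
  have hy2 := key (-q.B, 2 * q.A) (fun v => ⟨v.2, by rw [q.D_eq]; simp only [bb]; ring⟩)
  obtain ⟨a1, ha1⟩ := hy1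
  obtain ⟨a2, ha2⟩ := hy2
  refine ⟨(a1, a2), ?_⟩
  have hDz : (q.D : ℤ) ≠ 0 := by exact_mod_cast q.D_pos.ne'
  simp only at ha1 ha2
  apply Prod.ext
  · apply mul_left_cancel₀ hDz
    simp only [SM]
    calc (q.D : ℤ) * (2 * q.A * a1 + q.B * a2) = 2 * q.A * (q.D * a1) + q.B * (q.D * a2) := by ring
      _ = q.D * n.1 := by rw [← ha1, ← ha2, q.D_eq]; ring
  · apply mul_left_cancel₀ hDz
    simp only [SM]
    calc (q.D : ℤ) * (q.B * a1 + 2 * q.C * a2) = q.B * (q.D * a1) + 2 * q.C * (q.D * a2) := by ring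
      _ = q.D * n.2 := by rw [← ha1, ← ha2, q.D_eq]; ring

/-- value at `S m` -/
lemma FT_SM (hh : Per M h) (hMc : M ∣ c) (hαδ : (c : ℤ) ∣ α * δ - 1) (m : ℤ × ℤ) :
    FT c (q.tw h α c) (q.SM m) = ee (-(δ * q.Q m / c)) *
      SP c (q.tw (fun w => h (w.1 - δ * m.1, w.2 - δ * m.2)) α c) := by
  obtain ⟨k, hk⟩ := hαδ
  have hc : (c : ℂ) ≠ 0 := by exact_mod_cast (NeZero.ne c)
  have hg : Per M (fun w => h (w.1 - δ * m.1, w.2 - δ * m.2)) := by
    intro v w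
    have := hh (v.1 - δ * m.1, v.2 - δ * m.2) w
    dsimp only at this ⊢
    rw [← this]
    congr 2 <;> ring
  have htw := tw_per (q := q) (P := c) hg (α := α) (c := c) (by exact_mod_cast (NeZero.ne c)) hMc
    dvd_rfl
  rw [← SP_shift htw (δ * m.1, δ * m.2), ← SP_mul_left, FT]
  refine SP_congr fun w => ?_
  simp only [tw]
  rw [add_sub_cancel_right, add_sub_cancel_right, Q_add_mul]
  have e : (α : ℂ) * ((q.Q w + δ * q.bb w m + δ ^ 2 * q.Q m : ℤ) : ℂ) / c =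
      α * q.Q w / c + ((q.SM m).1 * w.1 + (q.SM m).2 * w.2) / c + (δ * q.Q m / c) +
        ((k * (q.bb w m + δ * q.Q m) : ℤ) : ℂ) := by
    have hkC : (α : ℂ) * δ - 1 = c * k := by exact_mod_cast hk
    have e2 : (((q.SM m).1 : ℂ) * w.1 + (q.SM m).2 * w.2) = (q.bb w m : ℂ) := by
      simp only [SM, bb]; push_cast; ring
    rw [e2]
    push_cast
    field_simp
    linear_combination ((q.bb w m : ℂ) + δ * q.Q m) * hkC
  have hne := ee_ne_zero (δ * q.Q m / c)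
  rw [Int.cast_natCast, e, ee_add_int, ee_add, ee_add, ee_neg]
  field_simp

/-- the Gauss sum -/
def Gs (q : QD) (α : ℤ) (c : ℕ) [NeZero c] : ℂ := SP c (q.tw (fun _ => 1) α c)

lemma SP_tw_zero (hg : Per M g) (hdvd : (q.D * M) ^ 2 ∣ c) (hα : IsCoprime α (c : ℤ))
    (h0 : g 0 = 0) : SP c (q.tw g α c) = 0 := by
  obtain ⟨k, hk⟩ := hdvd
  haveI : NeZero (q.D * M) := ⟨mul_ne_zero (NeZero.ne _) (NeZero.ne _)⟩
  have hc : (c : ℂ) ≠ 0 := by exact_mod_cast (NeZero.ne c)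
  have hD : (q.D : ℂ) ≠ 0 := by exact_mod_cast (NeZero.ne q.D)
  have hM : (M : ℂ) ≠ 0 := by exact_mod_cast (NeZero.ne M)
  have hk0 : (k : ℂ) ≠ 0 := by
    rintro h0
    have : k = 0 := by exact_mod_cast h0
    rw [this, mul_zero] at hk
    exact NeZero.ne c hk
  have hkC : (c : ℂ) = (q.D * M) ^ 2 * k := by exact_mod_cast hk
  have htw := tw_per (q := q) (P := c) hg (α := α) (c := c) (by exact_mod_cast (NeZero.ne c))
    (M_dvd ⟨k, hk⟩) dvd_rfl
  have h1 : ∀ y : ℤ × ℤ, SP c (q.tw g α c) =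
      SP c (fun w => q.tw g α c w * ee (((α * q.bb w y : ℤ) : ℂ) / (q.D * M : ℕ))) := by
    intro y
    rw [← SP_shift htw ((q.D * M * k : ℤ) * y.1, (q.D * M * k : ℤ) * y.2)]
    refine SP_congr fun w => ?_
    simp only [tw]
    rw [Q_add_mul]
    have e0 : g (w.1 + (q.D * M * k : ℤ) * y.1, w.2 + (q.D * M * k : ℤ) * y.2) = g w := by
      have := hg w ((q.D * k : ℤ) * y.1, (q.D * k : ℤ) * y.2)
      rw [← this]
      congr 2 <;> ring
    have e1 : (α : ℂ) * ((q.Q w + (q.D * M * k : ℤ) * q.bb w y +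
          (q.D * M * k : ℤ) ^ 2 * q.Q y : ℤ) : ℂ) / c =
          α * q.Q w / c + ((α * q.bb w y : ℤ) : ℂ) / (q.D * M : ℕ) +
            ((α * (k * q.Q y) : ℤ) : ℂ) := by
      rw [hkC]; push_cast; field_simp
    rw [Int.cast_natCast, e0, e1, ee_add_int, ee_add]; ring
  have h2 : ((q.D * M : ℕ) : ℂ) ^ 2 * SP c (q.tw g α c) = 0 := by
    have h3 : ((q.D * M : ℕ) : ℂ) ^ 2 * SP c (q.tw g α c) =
        ∑ y : ZMod (q.D * M) × ZMod (q.D * M), SP c (q.tw g α c) := by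
      rw [Finset.sum_const, Finset.card_univ, Fintype.card_prod, ZMod.card, nsmul_eq_mul]
      push_cast; ring
    rw [h3]
    have h4 : ∀ y : ZMod (q.D * M) × ZMod (q.D * M), SP c (q.tw g α c) =
        ∑ w : ZMod c × ZMod c, q.tw g α c (rp w) *
          ee (((α * q.bb (rp w) (rp y) : ℤ) : ℂ) / (q.D * M : ℕ)) := fun y => h1 (rp y)
    rw [Finset.sum_congr rfl fun y _ => h4 y, Finset.sum_comm]
    refine Finset.sum_eq_zero fun w _ => ?_
    rw [← Finset.mul_sum]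
    by_cases hw : (M : ℤ) ∣ (rp w).1 ∧ (M : ℤ) ∣ (rp w).2
    · obtain ⟨⟨a1, ha1⟩, ⟨a2, ha2⟩⟩ := hw
      have : g (rp w) = 0 := by
        have h5 := hg 0 (a1, a2)
        rw [h0] at h5
        rw [← h5]
        congr 1
        apply Prod.ext
        · simpa using ha1
        · simpa using ha2
      rw [tw, this, zero_mul, zero_mul]
    · -- the character sum vanishes
      have hsum : ∑ y : ZMod (q.D * M) × ZMod (q.D * M),
          ee (((α * q.bb (rp w) (rp y) : ℤ) : ℂ) / (q.D * M : ℕ)) = 0 := by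
        set W : ℤ × ℤ → ℂ := fun y => ee (((α * q.bb (rp w) y : ℤ) : ℂ) / (q.D * M : ℕ)) with hW
        have hWper : Per (q.D * M) W := by
          intro v u
          have e : ((α * q.bb (rp w) (v.1 + (q.D * M : ℕ) * u.1, v.2 + (q.D * M : ℕ) * u.2) : ℤ) : ℂ) /
              (q.D * M : ℕ) = ((α * q.bb (rp w) v : ℤ) : ℂ) / (q.D * M : ℕ) +
                ((α * q.bb (rp w) u : ℤ) : ℂ) := by
            simp only [bb]; push_cast; field_simp; ring
          rw [hW]; dsimp only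
          rw [e, ee_add_int]
        change SP (q.D * M) W = 0
        by_contra hne
        have h6 : ∀ y0 : ℤ × ℤ, ((q.D * M : ℕ) : ℤ) ∣ α * q.bb (rp w) y0 := by
          intro y0
          rw [← ee_eq_one_iff]
          have h7 := SP_shift hWper y0
          have h8 : ∀ v : ℤ × ℤ, W (v.1 + y0.1, v.2 + y0.2) = W y0 * W v := by
            intro v
            rw [hW]; dsimp only
            rw [← ee_add]; congr 1
            simp only [bb]; push_cast; ring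
          rw [SP_congr (P := q.D * M) h8, SP_mul_left] at h7
          have h9 : (W y0 - 1) * SP (q.D * M) W = 0 := by linear_combination h7
          rcases mul_eq_zero.1 h9 with h10 | h10
          · exact sub_eq_zero.1 h10
          · exact absurd h10 hne
        apply hw
        have hcop : IsCoprime ((q.D * M : ℕ) : ℤ) α := by
          have h11 : ((q.D * M : ℕ) : ℤ) ∣ c := by
            rw [hk]; push_cast
            exact ⟨(q.D * M) * k, by ring⟩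
          exact (hα.of_isCoprime_of_dvd_right h11).symm
        have hDz : (q.D : ℤ) ≠ 0 := by exact_mod_cast q.D_pos.ne'
        have b1 := hcop.dvd_of_dvd_mul_left (h6 (2 * q.C, -q.B))
        have b2 := hcop.dvd_of_dvd_mul_left (h6 (-q.B, 2 * q.A))
        have e1 : q.bb (rp w) (2 * q.C, -q.B) = q.D * (rp w).1 := by
          rw [q.D_eq]; simp only [bb]; ring
        have e2 : q.bb (rp w) (-q.B, 2 * q.A) = q.D * (rp w).2 := by
          rw [q.D_eq]; simp only [bb]; ring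
        rw [e1] at b1
        rw [e2] at b2
        push_cast at b1 b2
        exact ⟨(mul_dvd_mul_iff_left hDz).1 b1, (mul_dvd_mul_iff_left hDz).1 b2⟩
      rw [hsum, mul_zero]
  rcases mul_eq_zero.1 h2 with h3 | h3
  · exact absurd h3 (pow_ne_zero _ (by exact_mod_cast (NeZero.ne (q.D * M))))
  · exact h3

lemma SP_tw (hg : Per M g) (hdvd : (q.D * M) ^ 2 ∣ c) (hα : IsCoprime α (c : ℤ)) :
    SP c (q.tw g α c) = g 0 * q.Gs α c := by
  have hg' : Per M (fun v => g v - g 0) := fun v w => by dsimp only; rw [hg]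
  have h1 := SP_tw_zero (q := q) hg' hdvd hα (sub_self _)
  have h2 : SP c (q.tw (fun v => g v - g 0) α c) = SP c (q.tw g α c) - g 0 * q.Gs α c := by
    rw [Gs, ← SP_mul_left, SP, SP, SP, ← Finset.sum_sub_distrib]
    refine Finset.sum_congr rfl fun w _ => ?_
    simp only [tw]; ring
  rw [h2] at h1
  linear_combination h1

/-- the multiplier -/
def kap (q : QD) (α : ℤ) (c : ℕ) [NeZero c] : ℂ := -I * q.Gs α c / (c * Real.sqrt q.D)

lemma tf_neg (a : ℕ) (h : ℤ × ℤ → ℂ) (z : ℍ) :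
    q.tf a (fun v => h (-v.1, -v.2)) z = (-1) ^ a * q.tf a h z := by
  rw [tf, tf, Th, Th, ← tsum_mul_left, ← (Equiv.neg (ℤ × ℤ)).tsum_eq]
  refine tsum_congr fun v => ?_
  simp only [Equiv.neg_apply, Prod.fst_neg, Prod.snd_neg, neg_neg, Prod.mk.eta, Int.cast_neg]
  have e1 : Qc q.A q.B q.C (-v.1) (-v.2) = Qc q.A q.B q.C v.1 v.2 := by
    simp only [Qc]; ring
  have e2 : ((2 * q.A * q.m1 + q.B * q.m2) * (-v.1 : ℂ) +
      (q.B * q.m1 + 2 * q.C * q.m2) * (-v.2)) =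
      -((2 * q.A * q.m1 + q.B * q.m2) * (v.1 : ℂ) + (q.B * q.m1 + 2 * q.C * q.m2) * v.2) := by ring
  rw [e1, e2, neg_pow]; ring

/-- **transformation law** -/
theorem tf_slash (hh : Per M h) (a : ℕ) (γ : SL(2, ℤ)) (hγ : γ 1 0 = c)
    (hdvd : (q.D * M) ^ 2 ∣ c) :
    q.tf a h ∣[((a + 1 : ℕ) : ℤ)] γ =
      q.kap (γ 0 0) c • q.tf a (fun v => h (γ 1 1 * v.1, γ 1 1 * v.2)) := by
  funext z
  have hMc := M_dvd hdvd
  have hc : (c : ℂ) ≠ 0 := by exact_mod_cast (NeZero.ne c)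
  have hDn : (q.D : ℂ) ≠ 0 := by exact_mod_cast q.D_pos.ne'
  have hdet := det_eq γ
  rw [hγ] at hdet
  have hαδ : (c : ℤ) ∣ γ 0 0 * γ 1 1 - 1 := ⟨γ 0 1, by linear_combination hdet⟩
  have hα : IsCoprime (γ 0 0) (c : ℤ) := ⟨γ 1 1, -γ 0 1, by linear_combination hdet⟩
  have hsq : ((Real.sqrt q.D : ℝ) : ℂ) ≠ 0 := by
    exact_mod_cast (Real.sqrt_pos.2 (by exact_mod_cast q.D_pos)).ne'
  rw [slash_tf (P := c) hh a γ (by rw [hγ]; exact_mod_cast (NeZero.ne c)) hMc (by rw [hγ]) z, hγ]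
  rw [Pi.smul_apply, smul_eq_mul]
  have h1 : ∑' n : ℤ × ℤ, FT c (q.tw h (γ 0 0) c) n * (n.1 * q.m1 + n.2 * q.m2) ^ a *
      ee ((c : ℤ) * ((c : ℤ) * z + γ 1 1) * q.Qd n / (q.D * c ^ 2)) =
      ∑' m : ℤ × ℤ, q.Gs (γ 0 0) c * (h (-(γ 1 1 * m.1), -(γ 1 1 * m.2)) * q.lam m ^ a *
        ee (z * Qc q.A q.B q.C m.1 m.2)) := by
    rw [← (SM_inj (q := q)).tsum_eq]
    · refine tsum_congr fun m => ?_
      rw [FT_SM hh hMc hαδ, lam_SM, Qd_SM]
      have hg : Per M (fun w => h (w.1 - γ 1 1 * m.1, w.2 - γ 1 1 * m.2)) := by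
        intro v w
        have := hh (v.1 - γ 1 1 * m.1, v.2 - γ 1 1 * m.2) w
        dsimp only at this ⊢
        rw [← this]
        congr 2 <;> ring
      rw [SP_tw hg hdvd hα]
      have e1 : ((c : ℤ) : ℂ) * (((c : ℤ) : ℂ) * z + γ 1 1) * ((q.D * q.Q m : ℤ) : ℂ) /
          (q.D * c ^ 2) = z * Qc q.A q.B q.C m.1 m.2 + γ 1 1 * q.Q m / c := by
        rw [q.Qc_eq]; push_cast; field_simp
      rw [e1, ee_add, ee_neg]
      have hne := ee_ne_zero (γ 1 1 * q.Q m / c)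
      simp only [Prod.fst_zero, Prod.snd_zero, zero_sub]
      field_simp
    · intro n hn
      by_contra hr
      apply hn
      dsimp only
      rw [FT_zero hh hdvd hr, zero_mul, zero_mul]
  rw [h1, tsum_mul_left]
  have h2 : ∑' m : ℤ × ℤ, (h (-(γ 1 1 * m.1), -(γ 1 1 * m.2)) * q.lam m ^ a *
        ee (z * Qc q.A q.B q.C m.1 m.2)) =
      (-1) ^ a * q.tf a (fun v => h (γ 1 1 * v.1, γ 1 1 * v.2)) z := by
    rw [← tf_neg]
    rw [tf, Th]
    refine tsum_congr fun m => ?_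
    simp only [mul_neg, lam]
  rw [h2, kap]
  push_cast
  generalize q.tf a (fun v => h (γ 1 1 * v.1, γ 1 1 * v.2)) z = T
  have h3 : ((-1 : ℂ)) ^ a * (-1) ^ a = 1 := by rw [← mul_pow]; norm_num
  have h4 : (-(c : ℂ)) ^ (a + 1) * (I / (Real.sqrt q.D * c ^ (a + 2))) *
      (q.Gs (γ 0 0) c * ((-1) ^ a * T)) = ((-1) ^ a * (-1) ^ a) * (-I * q.Gs (γ 0 0) c /
        (c * Real.sqrt q.D) * T) := by
    rw [neg_pow, pow_succ (-1 : ℂ) a]
    field_simp
    ring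
  rw [h4, h3, one_mul]

end QD

end

end Vale.Agent.P022.H390
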