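import Vale.Agent.P022.H390.Def

/-!
# P022: the field `L = \bar ℚ₂`, its norm, and an isomorphism `ℂ ≃ L`
-/

namespace Vale.Agent.P022.H390

open scoped Cardinal

noncomputable section

/-- `\bar ℚ₂` -/
abbrev L : Type := PadicAlgCl 2

lemma card_padic : #ℚ_[2] = 𝔠 := by
  apply le_antisymm
  · have h1 : #ℚ_[2] ≤ #(CauSeq ℚ (padicNorm 2)) := Cardinal.mk_quotient_le
    have h2 : #(CauSeq ℚ (padicNorm 2)) ≤ #(ℕ → ℚ) := Cardinal.mk_subtype_le _
    have h3 : #(ℕ → ℚ) = 𝔠 := by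
      rw [Cardinal.mk_pi]; simp
    exact (h1.trans h2).trans h3.le
  · exact continuum_le_cardinal_of_nontriviallyNormedField ℚ_[2]

lemma card_L : #L = 𝔠 := by
  apply le_antisymm
  · have := Algebra.IsAlgebraic.cardinalMk_le_max ℚ_[2] L
    rw [card_padic, max_eq_left Cardinal.aleph0_le_continuum] at this
    exact this
  · rw [← card_padic]
    exact Cardinal.mk_le_of_injective (algebraMap ℚ_[2] L).injective

lemma exists_iota : Nonempty (ℂ ≃+* L) := by
  apply IsAlgClosed.ringEquiv_of_equiv_of_charZero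
  · rw [Cardinal.mk_complex]; exact Cardinal.aleph0_lt_continuum
  · apply Cardinal.eq.1
    rw [Cardinal.mk_complex, card_L]

/-- a fixed isomorphism `ℂ ≃ \bar ℚ₂` -/
def iota : ℂ ≃+* L := Classical.choice exists_iota

lemma norm_coe (x : ℚ_[2]) : ‖(algebraMap ℚ_[2] L x)‖ = ‖x‖ := PadicAlgCl.norm_extends 2 x

lemma norm_two : ‖(2 : L)‖ = 1 / 2 := by
  have h : (2 : L) = algebraMap ℚ_[2] L 2 := (map_ofNat (algebraMap ℚ_[2] L) 2).symm
  rw [h, norm_coe]
  have := Padic.norm_p (p := 2)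
  push_cast at this
  rw [this]; norm_num

lemma norm_int_le_one (n : ℤ) : ‖(n : L)‖ ≤ 1 := by
  have h : (n : L) = algebraMap ℚ_[2] L n := by simp
  rw [h, norm_coe]
  exact Padic.norm_int_le_one n

lemma norm_nat_le_one (n : ℕ) : ‖(n : L)‖ ≤ 1 := by
  have := norm_int_le_one n
  simpa using this

lemma norm_odd {n : ℕ} (h : ¬ 2 ∣ n) : ‖(n : L)‖ = 1 := by
  have h1 : (n : L) = algebraMap ℚ_[2] L n := by simp
  rw [h1, norm_coe]
  have h2 := norm_nat_le_one n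
  rw [h1, norm_coe] at h2
  rcases lt_or_eq_of_le h2 with h3 | h3
  · exfalso
    apply h
    have := (Padic.norm_intCast_lt_one_iff (p := 2) (k := (n : ℤ))).1 (by simpa using h3)
    exact_mod_cast this
  · exact h3

lemma norm_add_le_max (x y : L) : ‖x + y‖ ≤ max ‖x‖ ‖y‖ :=
  IsUltrametricDist.norm_add_le_max x y

lemma norm_sub_le_max (x y : L) : ‖x - y‖ ≤ max ‖x‖ ‖y‖ := by
  rw [sub_eq_add_neg]
  simpa using norm_add_le_max x (-y)

lemma norm_sum_le {ι : Type*} (s : Finset ι) (f : ι → L) {C : ℝ} (hC : 0 ≤ C)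
    (h : ∀ i ∈ s, ‖f i‖ ≤ C) : ‖∑ i ∈ s, f i‖ ≤ C :=
  IsUltrametricDist.norm_sum_le_of_forall_le_of_nonneg hC h

lemma norm_zp_le_one (x : ℤ_[2]) : ‖algebraMap ℤ_[2] L x‖ ≤ 1 := by
  rw [IsScalarTower.algebraMap_apply ℤ_[2] ℚ_[2] L, norm_coe]
  exact x.2

lemma norm_le_one_of_integral {x : L} (h : IsIntegral ℤ_[2] x) : ‖x‖ ≤ 1 := by
  obtain ⟨p, hp, hx⟩ := h
  by_contra hcon
  push Not at hcon
  have hn : p.natDegree ≠ 0 := by
    intro h0
    rw [(Polynomial.Monic.natDegree_eq_zero hp).1 h0] at hx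
    simp at hx
  have h1 := hp.as_sum
  rw [h1, Polynomial.eval₂_add, Polynomial.eval₂_X_pow, Polynomial.eval₂_finset_sum] at hx
  have h2 : x ^ p.natDegree = -∑ i ∈ Finset.range p.natDegree,
      Polynomial.eval₂ (algebraMap ℤ_[2] L) x (Polynomial.C (p.coeff i) * Polynomial.X ^ i) :=
    eq_neg_of_add_eq_zero_left hx
  have h3 : ‖x ^ p.natDegree‖ ≤ ‖x‖ ^ (p.natDegree - 1) := by
    rw [h2, norm_neg]
    apply norm_sum_le _ _ (by positivity)
    intro i hi
    rw [Polynomial.eval₂_mul, Polynomial.eval₂_C, Polynomial.eval₂_X_pow, norm_mul, norm_pow]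
    calc ‖algebraMap ℤ_[2] L (p.coeff i)‖ * ‖x‖ ^ i ≤ 1 * ‖x‖ ^ i := by
          gcongr; exact norm_zp_le_one _
      _ ≤ 1 * ‖x‖ ^ (p.natDegree - 1) := by
          gcongr
          · exact hcon.le
          · have := Finset.mem_range.1 hi; omega
      _ = _ := one_mul _
  rw [norm_pow] at h3
  have h4 : ‖x‖ ^ (p.natDegree - 1) < ‖x‖ ^ p.natDegree := by
    apply pow_lt_pow_right₀ hcon; omega
  linarith

lemma integral_of_norm_le_one {x : L} (h : ‖x‖ ≤ 1) : IsIntegral ℤ_[2] x := by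
  rw [← PadicAlgCl.spectralNorm_eq] at h
  have hx : IsIntegral ℚ_[2] x := (PadicAlgCl.isAlgebraic 2).isIntegral.isIntegral x
  rw [spectralNorm, spectralValue_le_one_iff (minpoly.monic hx)] at h
  have hl : minpoly ℚ_[2] x ∈ Polynomial.lifts (algebraMap ℤ_[2] ℚ_[2]) := by
    rw [Polynomial.lifts_iff_coeff_lifts]
    intro n
    exact ⟨⟨_, h n⟩, rfl⟩
  obtain ⟨q, hq, _, hqm⟩ := Polynomial.lifts_and_natDegree_eq_and_monic hl (minpoly.monic hx)
  refine ⟨q, hqm, ?_⟩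
  have h2 := minpoly.aeval ℚ_[2] x
  rw [← hq, Polynomial.aeval_map_algebraMap] at h2
  exact h2

end

end Vale.Agent.P022.H390
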